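import Vale.Agent.P181.H179.Step

set_option autoImplicit false

namespace Vale.Agent.P181.H179

open Vale.Agent.P181 Vale.Agent.P181.H280

variable {n : ℕ}

/-- **Reduction.** If all weights but the first are at most `b₀`, Foulkes' inequality for
`(a, b₀ + d)` follows from the one for `(a, b₀)`. -/
theorem reduction (a b₀ : ℕ) (d : ℕ) : ∀ lam : Fin (n + 1) → ℕ, (∀ i, i ≠ 0 → lam i ≤ b₀) →
    (∀ c, lam 0 = c + a * d → plethMult a b₀ (n + 1) (Function.update lam 0 c) ≤
      plethMult b₀ a (n + 1) (Function.update lam 0 c)) →
    plethMult a (b₀ + d) (n + 1) lam ≤ plethMult (b₀ + d) a (n + 1) lam := by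
  induction d with
  | zero =>
    intro lam _ h
    have h1 := h (lam 0) (by simp)
    rw [Function.update_eq_self] at h1
    exact h1
  | succ d ih =>
    intro lam hlam h
    have hlam' : ∀ i, i ≠ 0 → lam i ≤ b₀ + d := fun i hi => (hlam i hi).trans (Nat.le_add_right _ _)
    by_cases ha : lam 0 < a
    · rw [show b₀ + (d + 1) = (b₀ + d) + 1 from rfl, left_zero a (b₀ + d) lam ha hlam']
      exact Nat.zero_le _
    · obtain ⟨c, hc⟩ : ∃ c, lam 0 = c + a := ⟨lam 0 - a, by omega⟩
      have h1 := left_step a (b₀ + d) lam c hc hlam'
      have h2 := right_step a (b₀ + d) lam c hc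
      have h3 := ih (Function.update lam 0 c) (by
        intro i hi
        rw [Function.update_of_ne hi]
        exact hlam i hi) (by
        intro c' hc'
        rw [Function.update_self] at hc'
        rw [Function.update_idem]
        apply h c'
        rw [hc, hc']
        ring)
      exact (h1.trans h3).trans h2

/-- Foulkes' inequality when all weights but the first are at most `a`. -/
theorem window_one {a b : ℕ} (hab : a ≤ b) (lam : Fin (n + 1) → ℕ)
    (hlam : ∀ i, i ≠ 0 → lam i ≤ a) :
    plethMult a b (n + 1) lam ≤ plethMult b a (n + 1) lam := by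
  obtain ⟨d, rfl⟩ := Nat.exists_eq_add_of_le hab
  exact reduction a a d lam hlam (fun _ _ => le_rfl)

/-- Foulkes' inequality when all weights but the first are at most `q a`, and the first `a`
weights are at least `2q - 3`. -/
theorem window {a b q : ℕ} (ha : 2 ≤ a) (hq : 2 ≤ q) (hb : q * a ≤ b) (han : a ≤ n + 1)
    (lam : Fin (n + 1) → ℕ) (hsum : ∑ i, lam i = a * b)
    (hrows : ∀ i : Fin (n + 1), a ≤ (i : ℕ) → lam i = 0)
    (hlam : ∀ i, i ≠ 0 → lam i ≤ q * a)
    (htall : ∀ i : Fin (n + 1), (i : ℕ) < a → 2 * q ≤ lam i + 3) :
    plethMult a b (n + 1) lam ≤ plethMult b a (n + 1) lam := by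
  obtain ⟨d, rfl⟩ := Nat.exists_eq_add_of_le hb
  apply reduction a (q * a) d lam hlam
  intro c hc
  apply plethMult_le ha hq han
  intro i hi
  by_cases hi0 : i = 0
  · subst hi0
    rw [Function.update_self]
    -- the first weight after the reduction is at least `q a`
    rw [Fin.sum_univ_succ] at hsum
    have h1 : ∑ j : Fin n, lam j.succ ≤ (a - 1) * (q * a) := by
      calc ∑ j : Fin n, lam j.succ ≤
          ∑ j : Fin n, (if (j : ℕ) < a - 1 then q * a else 0) := by
            apply Finset.sum_le_sum
            intro j _
            split_ifs with h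
            · exact hlam _ (Fin.succ_ne_zero j)
            · rw [hrows j.succ (by rw [Fin.val_succ]; omega)]
        _ = (Finset.univ.filter (fun j : Fin n => (j : ℕ) < a - 1)).card * (q * a) := by
            rw [← Finset.sum_filter, Finset.sum_const, smul_eq_mul]
        _ ≤ (a - 1) * (q * a) := by
            apply Nat.mul_le_mul_right
            calc (Finset.univ.filter (fun j : Fin n => (j : ℕ) < a - 1)).card ≤
                (Finset.range (a - 1)).card := by
                  apply Finset.card_le_card_of_injOn (fun j : Fin n => (j : ℕ))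
                  · intro j hj
                    have h2 : (j : ℕ) < a - 1 := by simpa using hj
                    exact Finset.mem_coe.2 (Finset.mem_range.2 h2)
                  · intro j _ j' _ h
                    exact Fin.ext h
              _ = a - 1 := Finset.card_range _
    have h2 : a * (q * a + d) = (a - 1) * (q * a) + q * a + a * d := by
      obtain ⟨a', rfl⟩ : ∃ a', a = a' + 1 := ⟨a - 1, by omega⟩
      simp only [Nat.add_sub_cancel]
      ring
    have h3 : q * a ≤ c := by omega
    have h4 : 2 * q ≤ q * a := by
      rw [mul_comm q a]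
      exact Nat.mul_le_mul_right _ ha
    omega
  · rw [Function.update_of_ne hi0]
    exact htall i hi

end Vale.Agent.P181.H179
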