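import Vale.Agent.P181.H179.P7
import Vale.Agent.P181.H179.Window

set_option autoImplicit false

namespace Vale.Agent.P181.H179

open Vale.Agent.P181 Vale.Agent.P181.H280

variable {n : ℕ}

/-- Propagation of the bulk theorem in `b`. -/
theorem bulk_prop {a q θ k : ℕ} (hq : 1 ≤ q)
    (hb : a * (a - 1) * (q - 1) * (q ^ 2 - 1) ^ θ < q ^ (2 * θ))
    (lam : Fin (n + 1) → ℕ) (h0 : lam 0 + θ ≤ 2 * (q * a) + a * k)
    (h1 : ∀ i, i ≠ 0 → lam i + θ ≤ 2 * (q * a)) (hk : k = 0 ∨ ∀ i, i ≠ 0 → lam i ≤ q * a) :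
    plethMult a (q * a + k) (n + 1) lam ≤ plethMult (q * a + k) a (n + 1) lam := by
  rcases hk with rfl | hk
  · apply bulk hq hb
    intro m
    by_cases hm : m = 0
    · subst hm
      simpa using h0
    · exact h1 m hm
  · apply reduction a (q * a) k lam hk
    intro c hc
    apply bulk hq hb
    intro m
    by_cases hm : m = 0
    · subst hm
      rw [Function.update_self]
      omega
    · rw [Function.update_of_ne hm]
      exact h1 m hm

end Vale.Agent.P181.H179
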