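import Vale.Agent.P181.LK.Almost
import Vale.Agent.P181.H530.LKNum
import Vale.Agent.P181.H142.LKNum8

/-!
P181: Foulkes for all large `a`, every `b` with `10^8 a log^2 a ≤ b ≤ a^(8/7)` and almost all
partitions.
-/

set_option autoImplicit false

namespace Vale.Agent.P181.LK

open Vale.Agent.P181.H280

/-- **Almost all partitions, every `b`.** -/
theorem almost_allLK : ∀ᶠ a : ℕ in Filter.atTop, ∀ b : ℕ,
    (10 : ℝ) ^ 8 * (a : ℝ) * (Real.log a) ^ 2 ≤ b → (b : ℝ) ≤ (a : ℝ) ^ ((8 : ℝ) / 7) →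
    ∃ Ψ : Pleth a b a →ₗ[ℂ] Pleth b a a, IsEquivariant Ψ ∧
      a * {lam : Fin a → ℕ | Antitone lam ∧ ∑ i, lam i = a * b ∧
        ¬ (InjOnHW Ψ lam ∧ plethMult a b a lam ≤ plethMult b a a lam)}.ncard ≤
      {lam : Fin a → ℕ | Antitone lam ∧ ∑ i, lam i = a * b}.ncard := by
  filter_upwards [Vale.Agent.P181.H142.num8, Filter.eventually_ge_atTop 2] with a ha ha2 b hb1 hb2
  obtain ⟨s, hs, hq, hlog, hw⟩ := ha b hb1 hb2
  have hu : b % a < a := Nat.mod_lt _ (by omega)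
  have hb : b = b / a * a + b % a := (Nat.div_add_mod' b a).symm
  obtain ⟨Ψ, hΨ, h⟩ := almost_countLK
    (fun _ _ _ _ h1 h2 h3 h4 h5 => H530.numLK h1 h2 h3 h4 h5) ha2 hs hq hu hb hlog
  refine ⟨Ψ, hΨ, ?_⟩
  obtain ⟨B, hB⟩ : ∃ B, B = {lam : Fin a → ℕ | Antitone lam ∧ ∑ i, lam i = a * b ∧
        ¬ (InjOnHW Ψ lam ∧ plethMult a b a lam ≤ plethMult b a a lam)}.ncard := ⟨_, rfl⟩
  obtain ⟨A, hA⟩ : ∃ A, A = {lam : Fin a → ℕ | Antitone lam ∧ ∑ i, lam i = a * b}.ncard :=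
    ⟨_, rfl⟩
  rw [← hB, ← hA] at h
  rw [← hB, ← hA]
  have h2 : (a * b + 17) * (a * B) ≤ (a * b + 17) * A := by
    calc (a * b + 17) * (a * B) = B * (a * (a * b + 17)) := by ring
      _ ≤ B * 2 ^ (s / 4) := Nat.mul_le_mul_left _ hw
      _ ≤ (a * b + 17) * A := h
  exact Nat.le_of_mul_le_mul_left h2 (by omega)

end Vale.Agent.P181.LK
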