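import Vale.Agent.P181.H179.Tail2
import Vale.Agent.P181.H106.Growth
import Vale.Agent.P181.H280.Defs

/-!
P181: Foulkes for `b = q a + u` and almost all partitions, from the theorem for partitions with
many long columns.
-/

set_option autoImplicit false

namespace Vale.Agent.P181.H179.TL

open Finset Vale.Agent.P181.H676 Vale.Agent.P181.H280

/-- The theorem for partitions with a bounded first row and many almost full columns. -/
def TopLK : Prop := ∀ (a q s u X n : ℕ), 2 ≤ a → 1 ≤ s → 60 * (s + 1) ≤ q → u < a → a ≤ n →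
  (10 : ℝ) ^ 6 * (s : ℝ) ^ 13 * (q : ℝ) ^ 6 * Real.log a ≤ a →
  30000 * (s : ℝ) ^ 14 * (q : ℝ) ^ 6 * Real.log a ≤ X →
  ∃ Ψ : Pleth a (q * a + u) n →ₗ[ℂ] Pleth (q * a + u) a n, IsEquivariant Ψ ∧
    ∀ lam : Fin n → ℕ, (∀ i, lam i + X ≤ (s + 1) * (q * a)) →
      (∀ i : Fin n, (i : ℕ) + a / (40 * (s + 1)) < a → 25 * (s + 1) * a ≤ lam i) →
      InjOnHW Ψ lam ∧ plethMult a (q * a + u) n lam ≤ plethMult (q * a + u) a n lam

lemma tail_any {a b t : ℕ} (ha : 1 ≤ a) (hb : 1 ≤ b) (hab : a ≤ 4 * b + 1) :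
    ((Lam a (a * b)).filter fun l => ∃ i, t ≤ l i).card * 2 ^ (t / (4 * b)) ≤
      (a * b + 1) * (Lam a (a * b)).card := by
  obtain ⟨n, rfl⟩ : ∃ n, a = n + 1 := ⟨a - 1, by omega⟩
  exact tail_succ hb (by omega)

lemma coe_Lam' (a N : ℕ) : {l : Fin a → ℕ | Antitone l ∧ ∑ i, l i = N} = ↑(Lam a N) := by
  ext l
  exact mem_Lam.symm

theorem growth16 : Growth 16 := fun _ _ _ h1 h2 => H106.growth h2 h1

/-- Fewer than `z` columns of length greater than `r`. -/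
lemma tail_idx {a m b z : ℕ} (hm : 1 ≤ m) (hma : 2 * m ≤ a) (hb : 2 * a ≤ b)
    (hz : 42 * (z + m) * a ≤ m * b) (hi : a - m < a) :
    ((Lam a (a * b)).filter (fun l => l ⟨a - m, hi⟩ < z)).card * 2 ^ m ≤
      16 * (Lam a (a * b)).card := by
  obtain ⟨r, rfl⟩ : ∃ r, a = r + m := ⟨a - m, by omega⟩
  have h1 := tail2 growth16 (by norm_num) (r := r) (m := m) (b := b) (z := z) (by omega) hm
    (by omega) hb hz
  have h2 : ((Lam (r + m) ((r + m) * b)).filter (fun l => l ⟨r + m - m, hi⟩ < z)) =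
      ((Lam (r + m) ((r + m) * b)).filter (fun l => l (Fin.natAdd r ⟨0, hm⟩) < z)) := by
    apply Finset.filter_congr
    intro l _
    have h3 : (⟨r + m - m, hi⟩ : Fin (r + m)) = Fin.natAdd r ⟨0, hm⟩ := by
      apply Fin.ext
      simp
    rw [h3]
  rw [h2]
  exact_mod_cast h1

/-- Counting the exceptions. -/
theorem count_abs {a m b t z w : ℕ} (hm : 1 ≤ m) (hma : 2 * m ≤ a) (hb : 2 * a ≤ b)
    (hz : 42 * (z + m) * a ≤ m * b) (hi : a - m < a) (Good : (Fin a → ℕ) → Prop)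
    (hgood : ∀ l, Antitone l → ∑ i, l i = a * b → (∀ i, l i < t) →
      z ≤ l ⟨a - m, hi⟩ → Good l) (hw1 : w ≤ t / (4 * b)) (hw2 : w ≤ m) :
    {l : Fin a → ℕ | Antitone l ∧ ∑ i, l i = a * b ∧ ¬ Good l}.ncard * 2 ^ w ≤
      (a * b + 17) * {l : Fin a → ℕ | Antitone l ∧ ∑ i, l i = a * b}.ncard := by
  classical
  have h1 := tail_any (a := a) (b := b) (t := t) (by omega) (by omega) (by omega)
  have h2 := tail_idx hm hma hb hz hi
  obtain ⟨N, hN⟩ : ∃ N, N = a * b := ⟨_, rfl⟩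
  rw [← hN] at h1 h2 hgood ⊢
  rw [coe_Lam', Set.ncard_coe_finset]
  have hsub : {l : Fin a → ℕ | Antitone l ∧ ∑ i, l i = N ∧ ¬ Good l} ⊆
      ↑(((Lam a N).filter fun l => ∃ i, t ≤ l i) ∪
        ((Lam a N).filter fun l => l ⟨a - m, hi⟩ < z)) := by
    rintro l ⟨h3, h4, h5⟩
    rw [Finset.mem_coe, Finset.mem_union, Finset.mem_filter, Finset.mem_filter, mem_Lam]
    by_contra hno
    push Not at hno
    apply h5
    apply hgood l h3 h4
    · exact hno.1 ⟨h3, h4⟩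
    · exact hno.2 ⟨h3, h4⟩
  have h3 := Set.ncard_le_ncard hsub (Finset.finite_toSet _)
  rw [Set.ncard_coe_finset] at h3
  have h4 := h3.trans (Finset.card_union_le _ _)
  obtain ⟨A, hA⟩ : ∃ A, A = (Lam a N).card := ⟨_, rfl⟩
  obtain ⟨B1, hB1⟩ : ∃ B, B = ((Lam a N).filter fun l => ∃ i, t ≤ l i).card := ⟨_, rfl⟩
  obtain ⟨B2, hB2⟩ : ∃ B, B = ((Lam a N).filter
    fun l => l ⟨a - m, hi⟩ < z).card := ⟨_, rfl⟩
  rw [← hB1, ← hA] at h1
  rw [← hB2, ← hA] at h2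
  rw [← hA]
  rw [← hB1, ← hB2] at h4
  have h5 : B1 * 2 ^ w ≤ (N + 1) * A :=
    (Nat.mul_le_mul_left _ (Nat.pow_le_pow_right (by norm_num) hw1)).trans h1
  have h6 : B2 * 2 ^ w ≤ 16 * A :=
    (Nat.mul_le_mul_left _ (Nat.pow_le_pow_right (by norm_num) hw2)).trans h2
  refine (Nat.mul_le_mul_right _ h4).trans ?_
  calc (B1 + B2) * 2 ^ w = B1 * 2 ^ w + B2 * 2 ^ w := by ring
    _ ≤ (N + 1) * A + 16 * A := Nat.add_le_add h5 h6
    _ = (N + 17) * A := by ring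

/-- **Almost all partitions, every `b`.** -/
theorem almostLK (H : TopLK) {a q s u : ℕ} (ha : 2 ≤ a) (hs : 1 ≤ s)
    (hq : 43680 * (s + 1) ^ 2 ≤ q) (hua : u < a)
    (hlogq : (10 : ℝ) ^ 6 * (s : ℝ) ^ 13 * (q : ℝ) ^ 6 * Real.log a ≤ a) :
    ∃ Ψ : Pleth a (q * a + u) a →ₗ[ℂ] Pleth (q * a + u) a a, IsEquivariant Ψ ∧
      {lam : Fin a → ℕ | Antitone lam ∧ ∑ i, lam i = a * (q * a + u) ∧
        ¬ (InjOnHW Ψ lam ∧
          plethMult a (q * a + u) a lam ≤ plethMult (q * a + u) a a lam)}.ncard * 2 ^ (s / 4) ≤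
      (a * (q * a + u) + 17) *
        {lam : Fin a → ℕ | Antitone lam ∧ ∑ i, lam i = a * (q * a + u)}.ncard := by
  have ha0 : 0 < a := by omega
  have haR : (2 : ℝ) ≤ a := by exact_mod_cast ha
  have hsR : (1 : ℝ) ≤ s := by exact_mod_cast hs
  have hlog0 : (1 / 2 : ℝ) ≤ Real.log a := by
    have h1 := Real.log_le_log (by norm_num : (0 : ℝ) < 2) haR
    have h2 := Real.log_two_gt_d9
    linarith
  have hss : (s + 1) ≤ (s + 1) ^ 2 := Nat.le_self_pow (by norm_num) _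
  have hq60 : 60 * (s + 1) ≤ q := by omega
  have hqR : (1 : ℝ) ≤ q := by
    have : 1 ≤ q := by omega
    exact_mod_cast this
  have hsa : 100000 * s ^ 2 ≤ a := by
    have h1 : (10 : ℝ) ^ 6 * (s : ℝ) ^ 2 * (1 / 2) ≤
        (10 : ℝ) ^ 6 * (s : ℝ) ^ 13 * (q : ℝ) ^ 6 * Real.log a := by
      have h2 : (s : ℝ) ^ 2 ≤ (s : ℝ) ^ 13 := pow_le_pow_right₀ hsR (by norm_num)
      have h3 : (1 : ℝ) ≤ (q : ℝ) ^ 6 := one_le_pow₀ hqR
      have h4 : (10 : ℝ) ^ 6 * (s : ℝ) ^ 2 ≤ (10 : ℝ) ^ 6 * (s : ℝ) ^ 13 * (q : ℝ) ^ 6 := by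
        calc (10 : ℝ) ^ 6 * (s : ℝ) ^ 2 ≤ (10 : ℝ) ^ 6 * (s : ℝ) ^ 13 :=
              mul_le_mul_of_nonneg_left h2 (by norm_num)
          _ = (10 : ℝ) ^ 6 * (s : ℝ) ^ 13 * 1 := by ring
          _ ≤ _ := mul_le_mul_of_nonneg_left h3 (by positivity)
      exact mul_le_mul h4 hlog0 (by norm_num) (by positivity)
    have h5 : ((100000 * s ^ 2 : ℕ) : ℝ) ≤ a := by
      push_cast
      have h6 : (0 : ℝ) ≤ (s : ℝ) ^ 2 := by positivity
      linarith
    exact_mod_cast h5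
  have hs2 : s ≤ s ^ 2 := Nat.le_self_pow (by norm_num) _
  have hX : 30000 * (s : ℝ) ^ 14 * (q : ℝ) ^ 6 * Real.log a ≤ ((s * a : ℕ) : ℝ) := by
    have hs0 : (0 : ℝ) ≤ s := by linarith
    have h2 : (3 / 100 : ℝ) * (s : ℝ) ≤ (s : ℝ) := by linarith
    calc 30000 * (s : ℝ) ^ 14 * (q : ℝ) ^ 6 * Real.log a =
        ((3 / 100 : ℝ) * (s : ℝ)) *
          ((10 : ℝ) ^ 6 * (s : ℝ) ^ 13 * (q : ℝ) ^ 6 * Real.log a) := by ring
      _ ≤ ((3 / 100 : ℝ) * (s : ℝ)) * (a : ℝ) := mul_le_mul_of_nonneg_left hlogq (by positivity)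
      _ ≤ (s : ℝ) * (a : ℝ) := mul_le_mul_of_nonneg_right h2 (by linarith)
      _ = ((s * a : ℕ) : ℝ) := by
          push_cast
          ring
  obtain ⟨Ψ, hΨ, hmain⟩ := H a q s u (s * a) a ha hs hq60 hua le_rfl hlogq hX
  obtain ⟨d, hd⟩ : ∃ d, d = a / (40 * (s + 1)) := ⟨_, rfl⟩
  obtain ⟨m, hm⟩ : ∃ m, m = d + 1 := ⟨_, rfl⟩
  have hm1 : 1 ≤ m := by omega
  have hm40 : a < 40 * (s + 1) * m := by
    rw [hm, hd]
    exact Nat.lt_mul_div_succ a (by omega)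
  have hma : 2 * m ≤ a := by
    have h1 : d ≤ a / 40 := by
      rw [hd]
      exact Nat.div_le_div_left (by omega) (by norm_num)
    omega
  have hsd : s ≤ d := by
    have h1 : s * (40 * (s + 1)) ≤ a := by
      have h2 : s * (40 * (s + 1)) = 40 * s ^ 2 + 40 * s := by ring
      omega
    rw [hd, Nat.le_div_iff_mul_le (by omega)]
    exact h1
  rw [← hd] at hmain
  have hi : a - m < a := by omega
  obtain ⟨b, hb⟩ : ∃ b, b = q * a + u := ⟨_, rfl⟩
  have hqb : 43680 * (s + 1) ^ 2 * a ≤ b := by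
    have h1 : 43680 * (s + 1) ^ 2 * a ≤ q * a := Nat.mul_le_mul_right a hq
    omega
  have hbz : 42 * (25 * (s + 1) * a + m) * a ≤ m * b := by
    have h1 : 42 * (25 * (s + 1) * a + m) ≤ 42042 * (s + 1) ^ 2 * m := by
      have h2 : 42 * (25 * (s + 1) * a) ≤ 42000 * (s + 1) ^ 2 * m := by
        calc 42 * (25 * (s + 1) * a) ≤ 42 * (25 * (s + 1) * (40 * (s + 1) * m)) :=
              Nat.mul_le_mul_left _ (Nat.mul_le_mul_left _ hm40.le)
          _ = 42000 * (s + 1) ^ 2 * m := by ring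
      have h3 : 1 * m ≤ (s + 1) ^ 2 * m := Nat.mul_le_mul_right m (by omega)
      calc 42 * (25 * (s + 1) * a + m) = 42 * (25 * (s + 1) * a) + 42 * (1 * m) := by ring
        _ ≤ 42000 * (s + 1) ^ 2 * m + 42 * ((s + 1) ^ 2 * m) :=
            Nat.add_le_add h2 (Nat.mul_le_mul_left _ h3)
        _ = 42042 * (s + 1) ^ 2 * m := by ring
    calc 42 * (25 * (s + 1) * a + m) * a ≤ 42042 * (s + 1) ^ 2 * m * a :=
          Nat.mul_le_mul_right a h1
      _ ≤ 43680 * (s + 1) ^ 2 * m * a :=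
          Nat.mul_le_mul_right a (Nat.mul_le_mul_right m (Nat.mul_le_mul_right _ (by norm_num)))
      _ = m * (43680 * (s + 1) ^ 2 * a) := by ring
      _ ≤ m * b := Nat.mul_le_mul_left m hqb
  have h2ab : 2 * a ≤ b := by
    have h1 : 2 * a ≤ q * a := Nat.mul_le_mul_right a (by omega)
    omega
  have hsq : 2 * (s * a) ≤ q * a := by
    have h1 : 2 * s * a ≤ q * a := Nat.mul_le_mul_right a (by omega)
    have h2 : 2 * s * a = 2 * (s * a) := by ring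
    omega
  have hK : (s + 1) * (q * a) = s * (q * a) + q * a := by ring
  subst hb
  refine ⟨Ψ, hΨ, ?_⟩
  apply count_abs (t := (s + 1) * (q * a) - s * a + 1) (z := 25 * (s + 1) * a) hm1 hma h2ab
    hbz hi
  · intro l hl _ h1 h2
    apply hmain
    · intro i
      have h3 := h1 i
      omega
    · intro i hii
      refine h2.trans (hl ?_)
      rw [Fin.le_def]
      change (i : ℕ) ≤ a - m
      omega
  · rw [Nat.le_div_iff_mul_le (by omega)]
    have h1 : s / 4 * 4 ≤ s := Nat.div_mul_le_self s 4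
    have h2 : s * u ≤ s * a := Nat.mul_le_mul_left s hua.le
    calc s / 4 * (4 * (q * a + u)) = s / 4 * 4 * (q * a + u) := by ring
      _ ≤ s * (q * a + u) := Nat.mul_le_mul_right _ h1
      _ = s * (q * a) + s * u := by ring
      _ ≤ (s + 1) * (q * a) - s * a + 1 := by omega
  · have h4 : s / 4 ≤ s := Nat.div_le_self s 4
    omega

end Vale.Agent.P181.H179.TL
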