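import Vale.Agent.P181.H179.Mul

set_option autoImplicit false

open scoped TensorProduct

namespace Vale.Agent.P181.H179

open Vale.Agent.P181 Vale.Agent.P181.H280

universe u

section Range

variable {W : Type u} [AddCommGroup W] [Module ℂ W]

lemma tprod_mem_range {b : ℕ} (w : W) (u : Fin (b + 1) → W) (j : Fin (b + 1)) (hj : u j = w) :
    SymmetricPower.tprod ℂ u ∈ LinearMap.range (mulBy b w) := by
  refine ⟨SymmetricPower.tprod ℂ (fun i : Fin b => u (Equiv.swap 0 j i.succ)), ?_⟩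
  rw [mulBy_tprod, ← SymmetricPower.tprod_equiv (R := ℂ) (Equiv.swap 0 j) u]
  congr 1
  funext i
  refine Fin.cases ?_ (fun i => ?_) i
  · rw [Fin.cons_zero, Equiv.swap_apply_left, hj]
  · rw [Fin.cons_succ]

/-- Modulo multiples of `w`, one may project along `w`. -/
lemma sub_symMap_mem {b : ℕ} (w : W) (p : W →ₗ[ℂ] W) (α : W →ₗ[ℂ] ℂ)
    (hp : ∀ v, v = p v + α v • w) (y : Sym[ℂ]^(b + 1) W) :
    y - symMap (b + 1) p y ∈ LinearMap.range (mulBy b w) := by
  classical
  have hy : y ∈ Submodule.span ℂ (Set.range (SymmetricPower.tprod ℂ (ι := Fin (b + 1)) (M := W)))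
      := by
    rw [SymmetricPower.span_tprod_eq_top]; trivial
  induction hy using Submodule.span_induction with
  | mem z hz =>
    obtain ⟨v, rfl⟩ := hz
    rw [symMap_tprod]
    have h1 : v = (fun i => p (v i)) + (fun i => α (v i) • w) := by
      funext i
      exact hp (v i)
    have h2 := MultilinearMap.map_add_univ (SymmetricPower.tprod ℂ (ι := Fin (b + 1)) (M := W))
      (fun i => p (v i)) (fun i => α (v i) • w)
    rw [← h1] at h2
    rw [h2, ← Finset.add_sum_erase Finset.univ _ (Finset.mem_univ (Finset.univ : Finset (Fin (b + 1))))]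
    have h3 : (Finset.univ : Finset (Fin (b + 1))).piecewise (fun i => p (v i))
        (fun i => α (v i) • w) = fun i => p (v i) := by
      funext i
      simp
    rw [h3, add_sub_cancel_left]
    apply Submodule.sum_mem
    intro s hs
    have hs1 : s ≠ Finset.univ := (Finset.mem_erase.1 hs).1
    obtain ⟨j, hj⟩ : ∃ j, j ∉ s := by
      by_contra hcon
      push Not at hcon
      exact hs1 (Finset.eq_univ_iff_forall.2 hcon)
    set f : Fin (b + 1) → W := s.piecewise (fun i => p (v i)) (fun i => α (v i) • w) with hf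
    have h4 : f = Function.update f j (α (v j) • w) := by
      rw [eq_comm, Function.update_eq_self_iff, hf, Finset.piecewise_eq_of_notMem _ _ _ hj]
    rw [h4, MultilinearMap.map_update_smul]
    apply Submodule.smul_mem
    exact tprod_mem_range w _ j (Function.update_self _ _ _)
  | zero => rw [map_zero, sub_zero]; exact Submodule.zero_mem _
  | add x y _ _ hx hy =>
    rw [map_add, add_sub_add_comm]
    exact Submodule.add_mem _ hx hy
  | smul c x _ hx =>
    rw [map_smul, ← smul_sub]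
    exact Submodule.smul_mem _ _ hx

end Range

section HW

variable {n : ℕ}

/-- The diagonal matrix with a `2` in position `k`. -/
noncomputable def twoAt (k : Fin (n + 1)) : Matrix (Fin (n + 1)) (Fin (n + 1)) ℂ :=
  Matrix.diagonal (Function.update 1 k 2)

lemma twoAt_borel (k : Fin (n + 1)) : IsBorel (twoAt k) := by
  constructor
  · intro i j hij
    exact Matrix.diagonal_apply_ne _ hij.ne'
  · intro i
    rw [twoAt, Matrix.diagonal_apply_eq]
    by_cases hi : i = k
    · rw [hi, Function.update_self]; norm_num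
    · rw [Function.update_of_ne hi]; norm_num

lemma twoAt_prod (k : Fin (n + 1)) (lam : Fin (n + 1) → ℕ) :
    ∏ i, (twoAt k) i i ^ lam i = 2 ^ lam k := by
  rw [Finset.prod_eq_single k]
  · rw [twoAt, Matrix.diagonal_apply_eq, Function.update_self]
  · intro i _ hi
    rw [twoAt, Matrix.diagonal_apply_eq, Function.update_of_ne hi]
    simp
  · intro hh
    exact absurd (Finset.mem_univ _) hh

/-- The coordinate functional. -/
noncomputable def crd (k : Fin (n + 1)) : Module.Dual ℂ (Fin (n + 1) → ℂ) := LinearMap.proj k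

lemma crd_twoAt (k l : Fin (n + 1)) : (crd l) ∘ₗ Matrix.toLin' (twoAt k) =
    ((Function.update (1 : Fin (n + 1) → ℂ) k 2) l) • crd l := by
  apply LinearMap.ext
  intro v
  rw [LinearMap.comp_apply, LinearMap.smul_apply, crd, LinearMap.proj_apply, LinearMap.proj_apply,
    Matrix.toLin'_apply, twoAt, Matrix.mulVec_diagonal]
  rfl

/-- `φ` is an eigenfunctional for the torus element `twoAt k`, of weight `d`. -/
def EigW {b : ℕ} (k : Fin (n + 1)) (φ : Module.Dual ℂ (Sym[ℂ]^b (Fin (n + 1) → ℂ))) (d : ℕ) :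
    Prop := φ ∘ₗ symMap b (Matrix.toLin' (twoAt k)) = (2 : ℂ) ^ d • φ

lemma eigW_evalPow (b : ℕ) (k : Fin (n + 1)) : EigW k (evalPow b (crd k)) b := by
  rw [EigW, evalPow_symMap, crd_twoAt, Function.update_self, evalPow_smul]

lemma eigW_crd {b : ℕ} (k : Fin (n + 1)) (c : Fin b → Fin (n + 1)) :
    EigW k (symEval (fun j => crd (c j)) : (Sym[ℂ]^b (Fin (n + 1) → ℂ)) →ₗ[ℂ] ℂ)
      (Finset.univ.filter (fun j => c j = k)).card := by
  rw [EigW]
  apply LinearMap.ext
  intro y
  rw [LinearMap.comp_apply, symEval_symMap]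
  simp only [crd_twoAt]
  rw [← evalM_apply, MultilinearMap.map_smul_univ, evalM_apply, LinearMap.smul_apply]
  congr 1
  rw [← Finset.prod_const, Finset.prod_filter]
  apply Finset.prod_congr rfl
  intro j _
  by_cases hj : c j = k
  · rw [hj, Function.update_self, if_pos rfl]
  · rw [Function.update_of_ne hj, if_neg hj]
    rfl

/-- Weights. -/
lemma weight_eq {a b : ℕ} {lam : Fin (n + 1) → ℕ} {x : Sym[ℂ]^a (Sym[ℂ]^b (Fin (n + 1) → ℂ))}
    (hx : x ∈ hwSpace lam (plethAct a b (n + 1))) (k : Fin (n + 1))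
    (φ : Fin a → Module.Dual ℂ (Sym[ℂ]^b (Fin (n + 1) → ℂ))) (d : Fin a → ℕ)
    (hφ : ∀ i, EigW k (φ i) (d i)) (h : symEval φ x ≠ 0) : ∑ i, d i = lam k := by
  have h1 : symMap a (symMap b (Matrix.toLin' (twoAt k))) x =
      (∏ i, (twoAt k) i i ^ lam i) • x := hx _ (twoAt_borel k)
  have h2 := symEval_symMap (symMap b (Matrix.toLin' (twoAt k))) φ x
  rw [h1, map_smul, smul_eq_mul, twoAt_prod] at h2
  have h3 : (fun i => (φ i) ∘ₗ symMap b (Matrix.toLin' (twoAt k))) =
      fun i => (2 : ℂ) ^ (d i) • φ i := by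
    funext i
    exact hφ i
  rw [h3, ← evalM_apply x (fun i => (2 : ℂ) ^ (d i) • φ i), MultilinearMap.map_smul_univ,
    evalM_apply, smul_eq_mul, Finset.prod_pow_eq_pow_sum] at h2
  have h4 := mul_right_cancel₀ h h2
  have h5 : (2 : ℕ) ^ lam k = 2 ^ (∑ i, d i) := by exact_mod_cast h4
  exact (Nat.pow_right_injective le_rfl h5).symm

/-- The functionals `symEval (crd ∘ c)` span. -/
lemma span_crd (b : ℕ) : Submodule.span ℂ (Set.range (fun c : Fin b → Fin (n + 1) =>
    (symEval (fun j => crd (c j)) : (Sym[ℂ]^b (Fin (n + 1) → ℂ)) →ₗ[ℂ] ℂ))) =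
    (⊤ : Submodule ℂ (Module.Dual ℂ (Sym[ℂ]^b (Fin (n + 1) → ℂ)))) := by
  apply span_eq_top_of_separates
  intro y hy
  have hS : Submodule.span ℂ (Set.range (crd (n := n))) = ⊤ := by
    apply span_eq_top_of_separates
    intro v hv
    funext k
    exact hv (crd k) ⟨k, rfl⟩
  apply symEval_separates _ hS
  intro lam hlam
  choose c hc using hlam
  have h1 : lam = fun j => crd (c j) := by
    funext j
    exact (hc j).symm
  rw [h1]
  exact hy _ ⟨c, rfl⟩

lemma span_evalPow {W : Type u} [AddCommGroup W] [Module ℂ W] [Module.Finite ℂ W] (b : ℕ) :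
    Submodule.span ℂ (Set.range (fun ξ : Module.Dual ℂ W => evalPow b ξ)) =
    (⊤ : Submodule ℂ (Module.Dual ℂ (Sym[ℂ]^b W))) := by
  apply span_eq_top_of_separates
  intro y hy
  apply eq_zero_of_evalPow
  intro ξ
  exact hy _ ⟨ξ, rfl⟩

/-- A highest weight vector pairs to zero with the powers of a coordinate of small weight. -/
lemma pow_crd_zero {a b : ℕ} {lam : Fin (n + 1) → ℕ}
    {x : Sym[ℂ]^a (Sym[ℂ]^b (Fin (n + 1) → ℂ))}
    (hx : x ∈ hwSpace lam (plethAct a b (n + 1))) (k : Fin (n + 1)) (hk : lam k < b)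
    (ψ : Fin a → Module.Dual ℂ (Sym[ℂ]^b (Fin (n + 1) → ℂ))) (i0 : Fin a)
    (h0 : ψ i0 = evalPow b (crd k)) : symEval ψ x = 0 := by
  classical
  rw [← evalM_apply]
  apply multilinear_zero_of_spans (evalM x) (fun i => if i = i0 then
    {(evalPow b (crd k) : Module.Dual ℂ (Sym[ℂ]^b (Fin (n + 1) → ℂ)))} else
    Set.range (fun c : Fin b → Fin (n + 1) =>
    (symEval (fun j => crd (c j)) : (Sym[ℂ]^b (Fin (n + 1) → ℂ)) →ₗ[ℂ] ℂ)))
  · intro w hw
    have h1 : ∀ i, ∃ d, EigW k (w i) d ∧ (i = i0 → d = b) := by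
      intro i
      have h2 := hw i
      by_cases hi : i = i0
      · rw [if_pos hi, Set.mem_singleton_iff] at h2
        rw [h2]
        exact ⟨b, eigW_evalPow b k, fun _ => rfl⟩
      · rw [if_neg hi] at h2
        obtain ⟨c, hc⟩ := h2
        rw [← hc]
        exact ⟨_, eigW_crd k c, fun h => absurd h hi⟩
    choose d hd hd' using h1
    rw [evalM_apply]
    by_contra hne
    have h3 := weight_eq hx k w d hd hne
    have h4 : d i0 ≤ ∑ i, d i := Finset.single_le_sum (fun _ _ => Nat.zero_le _)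
      (Finset.mem_univ i0)
    rw [hd' i0 rfl, h3] at h4
    omega
  · intro i
    by_cases hi : i = i0
    · rw [if_pos hi, hi, h0]
      exact Submodule.subset_span (Set.mem_singleton _)
    · rw [if_neg hi, span_crd]
      exact Submodule.mem_top

/-- The unipotent `v ↦ v + α(v) e_k`. -/
noncomputable def unip (k : Fin (n + 1)) (α : Module.Dual ℂ (Fin (n + 1) → ℂ)) :
    (Fin (n + 1) → ℂ) →ₗ[ℂ] (Fin (n + 1) → ℂ) :=
  LinearMap.id + α.smulRight (Pi.single k 1)

lemma unip_apply (k : Fin (n + 1)) (α : Module.Dual ℂ (Fin (n + 1) → ℂ)) (v : Fin (n + 1) → ℂ) :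
    unip k α v = v + α v • Pi.single k 1 := rfl

lemma unip_borel {k : Fin (n + 1)} {α : Module.Dual ℂ (Fin (n + 1) → ℂ)}
    (hα : ∀ j, j ≤ k → α (Pi.single j 1) = 0) : IsBorel (LinearMap.toMatrix' (unip k α)) ∧
    ∀ i, (LinearMap.toMatrix' (unip k α)) i i = 1 := by
  have h1 : ∀ i j, (LinearMap.toMatrix' (unip k α)) i j =
      (Pi.single j 1 : Fin (n + 1) → ℂ) i + α (Pi.single j 1) * (Pi.single k 1 : Fin (n + 1) → ℂ) i
      := by
    intro i j
    rw [LinearMap.toMatrix'_apply, unip_apply, Pi.add_apply, Pi.smul_apply, smul_eq_mul]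
  have h2 : ∀ i, (LinearMap.toMatrix' (unip k α)) i i = 1 := by
    intro i
    rw [h1, Pi.single_eq_same]
    by_cases hi : i = k
    · rw [hi, hα k le_rfl, zero_mul, add_zero]
    · rw [Pi.single_eq_of_ne hi, mul_zero, add_zero]
  refine ⟨⟨?_, ?_⟩, h2⟩
  · intro i j hij
    rw [h1, Pi.single_eq_of_ne hij.ne']
    by_cases hi : i = k
    · rw [hα j (hi ▸ hij.le), zero_mul, add_zero]
    · rw [Pi.single_eq_of_ne hi, mul_zero, add_zero]
  · intro i
    rw [h2]
    exact one_ne_zero

lemma unip_comp {k : Fin (n + 1)} {α : Module.Dual ℂ (Fin (n + 1) → ℂ)}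
    (hα : α (Pi.single k 1) = 0) : unip k (-α) ∘ₗ unip k α = LinearMap.id := by
  apply LinearMap.ext
  intro v
  rw [LinearMap.comp_apply, unip_apply, unip_apply, LinearMap.neg_apply, map_add, map_smul, hα,
    smul_zero, add_zero, LinearMap.id_apply, neg_smul, add_neg_cancel_right]

/-- A highest weight vector pairs to zero with the powers of any functional vanishing at the
first basis vector, if all but the first weights are small. -/
lemma pow_zero_of {a b : ℕ} {lam : Fin (n + 1) → ℕ}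
    {x : Sym[ℂ]^a (Sym[ℂ]^b (Fin (n + 1) → ℂ))}
    (hx : x ∈ hwSpace lam (plethAct a b (n + 1))) (hlam : ∀ i, i ≠ 0 → lam i < b) (hb : 0 < b)
    (ψ : Fin a → Module.Dual ℂ (Sym[ℂ]^b (Fin (n + 1) → ℂ))) (i0 : Fin a)
    (ξ : Module.Dual ℂ (Fin (n + 1) → ℂ)) (hξ : ξ (Pi.single 0 1) = 0)
    (h0 : ψ i0 = evalPow b ξ) : symEval ψ x = 0 := by
  classical
  by_cases hξ0 : ∀ j, ξ (Pi.single j 1) = 0
  · have h1 : ξ = 0 := by
      apply LinearMap.pi_ext'
      intro j
      apply LinearMap.ext_ring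
      rw [LinearMap.comp_apply, LinearMap.single_apply, hξ0 j]
      rfl
    have h2 : ψ i0 = 0 := by
      rw [h0, h1]
      have h3 := evalPow_smul (b := b) (0 : ℂ) (0 : Module.Dual ℂ (Fin (n + 1) → ℂ))
      rw [zero_smul, zero_pow hb.ne', zero_smul] at h3
      exact h3
    rw [← evalM_apply]
    exact MultilinearMap.map_coord_zero (evalM x) i0 h2
  · push Not at hξ0
    -- the first coordinate on which `ξ` does not vanish
    obtain ⟨k, hk, hkmin⟩ : ∃ k, ξ (Pi.single k 1) ≠ 0 ∧ ∀ j, j < k → ξ (Pi.single j 1) = 0 := by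
      obtain ⟨k, hk⟩ := Finset.exists_minimal
        (s := Finset.univ.filter (fun j => ξ (Pi.single j 1) ≠ 0)) (by
          obtain ⟨j, hj⟩ := hξ0
          exact ⟨j, Finset.mem_filter.2 ⟨Finset.mem_univ _, hj⟩⟩)
      refine ⟨k, (Finset.mem_filter.1 hk.1).2, ?_⟩
      intro j hj
      by_contra hne
      have h1 := hk.2 (Finset.mem_filter.2 ⟨Finset.mem_univ _, hne⟩) hj.le
      exact absurd hj (not_lt.2 h1)
    have hk0 : k ≠ 0 := by
      rintro rfl
      exact hk hξ
    set c : ℂ := ξ (Pi.single k 1) with hc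
    let α : Module.Dual ℂ (Fin (n + 1) → ℂ) := c⁻¹ • ξ - crd k
    have hα : ∀ j, j ≤ k → α (Pi.single j 1) = 0 := by
      intro j hj
      have h1 : α (Pi.single j 1) = c⁻¹ * ξ (Pi.single j 1) - (Pi.single j 1 : Fin (n + 1) → ℂ) k :=
        rfl
      rcases eq_or_lt_of_le hj with h | h
      · rw [h1, h, ← hc, inv_mul_cancel₀ hk, Pi.single_eq_same, sub_self]
      · rw [h1, hkmin j h, mul_zero, Pi.single_eq_of_ne h.ne', sub_zero]
    have hξα : ξ = c • ((crd k) ∘ₗ unip k α) := by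
      apply LinearMap.ext
      intro v
      have h1 : (c • ((crd k) ∘ₗ unip k α)) v = c * (v k + α v * (Pi.single k 1 : Fin (n + 1) → ℂ) k)
        := rfl
      have h2 : α v = c⁻¹ * ξ v - v k := rfl
      rw [h1, h2, Pi.single_eq_same, mul_one, add_sub_cancel, mul_inv_cancel_left₀ hk]
    obtain ⟨hB, hdiag⟩ := unip_borel (k := k) (α := α) hα
    have h1 : symMap a (symMap b (unip k α)) x = x := by
      have h2 : symMap a (symMap b (Matrix.toLin' (LinearMap.toMatrix' (unip k α)))) x =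
        (∏ i, (LinearMap.toMatrix' (unip k α)) i i ^ lam i) • x := hx _ hB
      rw [Matrix.toLin'_toMatrix'] at h2
      rw [h2]
      simp only [hdiag, one_pow, Finset.prod_const_one, one_smul]
    let ψ' : Fin a → Module.Dual ℂ (Sym[ℂ]^b (Fin (n + 1) → ℂ)) :=
      fun i => if i = i0 then c ^ b • evalPow b (crd k) else (ψ i) ∘ₗ symMap b (unip k (-α))
    have h2 : ψ = fun i => (ψ' i) ∘ₗ symMap b (unip k α) := by
      funext i
      by_cases hi : i = i0
      · have h3 : ψ' i = c ^ b • evalPow b (crd k) := if_pos hi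
        rw [h3, hi, h0, LinearMap.smul_comp, evalPow_symMap, ← evalPow_smul, ← hξα]
      · have h3 : ψ' i = (ψ i) ∘ₗ symMap b (unip k (-α)) := if_neg hi
        rw [h3, LinearMap.comp_assoc, ← symMap_comp, unip_comp (hα k le_rfl), symMap_id,
          LinearMap.comp_id]
    rw [h2, ← symEval_symMap, h1]
    -- pull out the scalar
    let ψ'' : Fin a → Module.Dual ℂ (Sym[ℂ]^b (Fin (n + 1) → ℂ)) :=
      Function.update ψ' i0 (evalPow b (crd k))
    have h3 : ψ' = Function.update ψ'' i0 (c ^ b • evalPow b (crd k)) := by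
      have h4 : ψ' i0 = c ^ b • evalPow b (crd k) := if_pos rfl
      rw [Function.update_idem, ← h4, Function.update_eq_self]
    have h5 : symEval ψ'' x = 0 :=
      pow_crd_zero hx k (hlam k hk0) ψ'' i0 (Function.update_self _ _ _)
    rw [h3, ← evalM_apply, MultilinearMap.map_update_smul, Function.update_idem]
    rw [← evalM_apply] at h5
    rw [h5, smul_zero]

/-- A highest weight vector pairs to zero with the functionals killing the multiples of the first
basis vector. -/
lemma kill_zero {a b : ℕ} {lam : Fin (n + 1) → ℕ}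
    {x : Sym[ℂ]^a (Sym[ℂ]^(b + 1) (Fin (n + 1) → ℂ))}
    (hx : x ∈ hwSpace lam (plethAct a (b + 1) (n + 1))) (hlam : ∀ i, i ≠ 0 → lam i ≤ b)
    (ψ : Fin a → Module.Dual ℂ (Sym[ℂ]^(b + 1) (Fin (n + 1) → ℂ))) (i0 : Fin a)
    (h0 : (ψ i0) ∘ₗ mulBy b (Pi.single 0 1) = 0) : symEval ψ x = 0 := by
  classical
  let p : (Fin (n + 1) → ℂ) →ₗ[ℂ] (Fin (n + 1) → ℂ) :=
    LinearMap.id - (crd 0).smulRight (Pi.single 0 1)
  have hp : ∀ v, v = p v + (crd 0 : Module.Dual ℂ (Fin (n + 1) → ℂ)) v • Pi.single 0 1 := by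
    intro v
    have h1 : p v = v - (crd 0 : Module.Dual ℂ (Fin (n + 1) → ℂ)) v • Pi.single 0 1 := rfl
    rw [h1, sub_add_cancel]
  have hpe : p (Pi.single 0 1) = 0 := by
    have h1 : p (Pi.single 0 1) = (Pi.single 0 1 : Fin (n + 1) → ℂ) -
      ((Pi.single 0 1 : Fin (n + 1) → ℂ) 0) • Pi.single 0 1 := rfl
    rw [h1, Pi.single_eq_same, one_smul, sub_self]
  have h1 : ψ i0 = (ψ i0) ∘ₗ symMap (b + 1) p := by
    apply LinearMap.ext
    intro y
    obtain ⟨z, hz⟩ := sub_symMap_mem (b := b) (Pi.single 0 1 : Fin (n + 1) → ℂ) p (crd 0) hp y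
    have h2 := LinearMap.congr_fun h0 z
    rw [LinearMap.comp_apply, hz, map_sub, LinearMap.zero_apply, sub_eq_zero] at h2
    exact h2
  -- linear in the slot `i0`
  let A : Module.Dual ℂ (Sym[ℂ]^(b + 1) (Fin (n + 1) → ℂ)) →ₗ[ℂ] ℂ :=
    ((evalM x).toLinearMap ψ i0) ∘ₗ (LinearMap.lcomp ℂ ℂ (symMap (b + 1) p))
  have hA : ∀ φ, A φ = symEval (Function.update ψ i0 (φ ∘ₗ symMap (b + 1) p)) x := fun _ => rfl
  have hA0 : A = 0 := by
    apply LinearMap.ext_on (span_evalPow (W := Fin (n + 1) → ℂ) (b + 1))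
    rintro _ ⟨ξ, rfl⟩
    rw [hA, LinearMap.zero_apply]
    apply pow_zero_of hx (fun i hi => Nat.lt_succ_of_le (hlam i hi)) (Nat.succ_pos b) _ i0
      (ξ ∘ₗ p)
    · rw [LinearMap.comp_apply, hpe, map_zero]
    · rw [Function.update_self, evalPow_symMap]
  have h2 := hA (ψ i0)
  rw [← h1, Function.update_eq_self, hA0, LinearMap.zero_apply] at h2
  exact h2.symm

end HW

end Vale.Agent.P181.H179
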