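import Vale.Agent.P181.H179.P3

/-!
P181: exchange of one box of a column with the boxes of a column which is not shorter.
-/

set_option autoImplicit false

namespace Vale.Agent.P181.H179

open Vale.Agent.P181 Vale.Agent.P181.H280 Finset MvPolynomial

/-- **Exchange of one box.** -/
theorem GA {a N n : ℕ} {l : Fin N → ℕ}
    (F : MultilinearMap ℂ (fun _ : Fin a => MvPolynomial (Fin n) ℂ) ℂ) (e : Box l → Fin a)
    (t t1 : Fin N) (hne : t ≠ t1) (hl : l t ≤ l t1) (v : Fin (l t)) :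
    VV F l e = ∑ w : Fin (l t1), VV F l (fun p => e (Equiv.swap ⟨t, v⟩ ⟨t1, w⟩ p)) := by
  classical
  let w0 : (∀ t, Equiv.Perm (Fin (l t))) → Fin (l t1) := fun σ =>
    (σ t1).symm ⟨(σ t v : ℕ), lt_of_lt_of_le (σ t v).2 hl⟩
  have hw0 : ∀ σ : (∀ t, Equiv.Perm (Fin (l t))), ((σ t1 (w0 σ) : Fin (l t1)) : ℕ) = σ t v := by
    intro σ
    simp only [w0, Equiv.apply_symm_apply]
  let lt' : (∀ t, Equiv.Perm (Fin (l t))) → Box l → ℕ := fun σ p => (σ p.1 p.2 : ℕ)
  let L : (∀ t, Equiv.Perm (Fin (l t))) → Fin (l t1) → Box l → ℕ := fun σ w p =>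
    lt' σ (Equiv.swap (⟨t, v⟩ : Box l) ⟨t1, w⟩ p)
  have hLt : ∀ σ w, L σ w ⟨t, v⟩ = (σ t1 w : ℕ) := by
    intro σ w
    change lt' σ (Equiv.swap (⟨t, v⟩ : Box l) ⟨t1, w⟩ ⟨t, v⟩) = _
    rw [Equiv.swap_apply_left]
  have hLt1 : ∀ σ w, L σ w ⟨t1, w⟩ = (σ t v : ℕ) := by
    intro σ w
    change lt' σ (Equiv.swap (⟨t, v⟩ : Box l) ⟨t1, w⟩ ⟨t1, w⟩) = _
    rw [Equiv.swap_apply_right]
  have hLo : ∀ σ w p, p ≠ ⟨t, v⟩ → p ≠ ⟨t1, w⟩ → L σ w p = (σ p.1 p.2 : ℕ) := by
    intro σ w p h1 h2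
    change lt' σ (Equiv.swap (⟨t, v⟩ : Box l) ⟨t1, w⟩ p) = _
    rw [Equiv.swap_apply_of_ne_of_ne h1 h2]
  let f : (∀ t, Equiv.Perm (Fin (l t))) × Fin (l t1) → ℂ := fun x =>
    (∏ t, ((Equiv.Perm.sign (x.1 t) : ℤ) : ℂ)) *
      F (fun i => ∏ p : Box l, if e p = i then xN n (L x.1 x.2 p) else 1)
  have h1 : ∑ w : Fin (l t1), VV F l (fun p => e (Equiv.swap ⟨t, v⟩ ⟨t1, w⟩ p)) = ∑ x, f x := by
    rw [Fintype.sum_prod_type_right]
    apply Finset.sum_congr rfl
    intro w _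
    rw [VV]
    apply Finset.sum_congr rfl
    intro σ _
    simp only [f]
    congr 2
    funext i
    rw [← Equiv.prod_comp (Equiv.swap (⟨t, v⟩ : Box l) ⟨t1, w⟩)
      (fun p => if e (Equiv.swap (⟨t, v⟩ : Box l) ⟨t1, w⟩ p) = i then xN n (σ p.1 p.2) else 1)]
    apply Finset.prod_congr rfl
    intro p _
    have hss : Equiv.swap (⟨t, v⟩ : Box l) ⟨t1, w⟩ (Equiv.swap (⟨t, v⟩ : Box l) ⟨t1, w⟩ p) = p := by
      have h := Equiv.apply_symm_apply (Equiv.swap (⟨t, v⟩ : Box l) ⟨t1, w⟩) p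
      rwa [Equiv.symm_swap] at h
    rw [hss]
  rw [h1, ← Finset.sum_filter_add_sum_filter_not univ (fun x => x.2 = w0 x.1)]
  have h2 : ∑ x ∈ univ.filter (fun x => x.2 = w0 x.1), f x = VV F l e := by
    rw [Finset.sum_filter, Fintype.sum_prod_type, VV]
    apply Finset.sum_congr rfl
    intro σ _
    have h3 : ∑ w : Fin (l t1), (if (σ, w).2 = w0 (σ, w).1 then f (σ, w) else 0) =
        f (σ, w0 σ) := by
      have h4 := Finset.sum_ite_eq' univ (w0 σ) (fun w => f (σ, w))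
      rw [if_pos (Finset.mem_univ _)] at h4
      exact h4
    rw [h3]
    simp only [f]
    congr 2
    funext i
    apply Finset.prod_congr rfl
    intro p _
    have h5 : L σ (w0 σ) p = (σ p.1 p.2 : ℕ) := by
      by_cases hp : p = ⟨t, v⟩
      · subst hp
        rw [hLt, hw0]
      · by_cases hp' : p = ⟨t1, w0 σ⟩
        · subst hp'
          rw [hLt1]
          exact (hw0 σ).symm
        · exact hLo σ _ p hp hp'
    rw [h5]
  have h3 : ∑ x ∈ univ.filter (fun x => ¬ x.2 = w0 x.1), f x = 0 := by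
    have hg1 : ∀ (σ : ∀ t, Equiv.Perm (Fin (l t))) (g : Equiv.Perm (Fin (l t1))),
        (σ * Pi.mulSingle t1 g : ∀ t, Equiv.Perm (Fin (l t))) t1 = σ t1 * g := by
      intro σ g
      rw [Pi.mul_apply, Pi.mulSingle_eq_same]
    have hg2 : ∀ (σ : ∀ t, Equiv.Perm (Fin (l t))) (g : Equiv.Perm (Fin (l t1))) (t' : Fin N),
        t' ≠ t1 → (σ * Pi.mulSingle t1 g : ∀ t, Equiv.Perm (Fin (l t))) t' = σ t' := by
      intro σ g t' h
      rw [Pi.mul_apply, Pi.mulSingle_eq_of_ne h, mul_one]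
    have hg3 : ∀ (σ : ∀ t, Equiv.Perm (Fin (l t))) (w : Fin (l t1)),
        w0 (σ * Pi.mulSingle t1 (Equiv.swap w (w0 σ)) : ∀ t, Equiv.Perm (Fin (l t))) = w := by
      intro σ w
      have h4 : (σ * Pi.mulSingle t1 (Equiv.swap w (w0 σ)) : ∀ t, Equiv.Perm (Fin (l t))) t1 w =
          ⟨(σ t v : ℕ), lt_of_lt_of_le (σ t v).2 hl⟩ := by
        rw [hg1, Equiv.Perm.mul_apply, Equiv.swap_apply_left]
        exact Fin.ext (hw0 σ)
      have h5 : (σ * Pi.mulSingle t1 (Equiv.swap w (w0 σ)) : ∀ t, Equiv.Perm (Fin (l t))) t v =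
          σ t v := by
        rw [hg2 _ _ t hne]
      change ((σ * Pi.mulSingle t1 (Equiv.swap w (w0 σ)) : ∀ t, Equiv.Perm (Fin (l t))) t1).symm
        ⟨(((σ * Pi.mulSingle t1 (Equiv.swap w (w0 σ)) : ∀ t, Equiv.Perm (Fin (l t))) t v : _) : ℕ),
          _⟩ = w
      rw [Equiv.symm_apply_eq, h4]
      have h6 := congrArg Fin.val h5
      exact Fin.ext h6
    apply Finset.sum_involution (fun x _ =>
      ((x.1 * Pi.mulSingle t1 (Equiv.swap x.2 (w0 x.1)) : ∀ t, Equiv.Perm (Fin (l t))), w0 x.1))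
    · rintro ⟨σ, w⟩ hx
      have hw : w ≠ w0 σ := (Finset.mem_filter.1 hx).2
      simp only [f]
      have h4 : (∏ t', ((Equiv.Perm.sign ((σ * Pi.mulSingle t1 (Equiv.swap w (w0 σ)) :
          ∀ t, Equiv.Perm (Fin (l t))) t') : ℤ) : ℂ)) =
          -∏ t', ((Equiv.Perm.sign (σ t') : ℤ) : ℂ) := by
        rw [← Finset.mul_prod_erase univ _ (Finset.mem_univ t1),
          ← Finset.mul_prod_erase univ (fun t' => ((Equiv.Perm.sign (σ t') : ℤ) : ℂ))
            (Finset.mem_univ t1), hg1, map_mul, Equiv.Perm.sign_swap hw]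
        have h5 : ∏ x ∈ univ.erase t1, ((Equiv.Perm.sign ((σ * Pi.mulSingle t1
            (Equiv.swap w (w0 σ)) : ∀ t, Equiv.Perm (Fin (l t))) x) : ℤ) : ℂ) =
            ∏ x ∈ univ.erase t1, ((Equiv.Perm.sign (σ x) : ℤ) : ℂ) := by
          apply Finset.prod_congr rfl
          intro t' ht'
          rw [hg2 _ _ t' (Finset.ne_of_mem_erase ht')]
        rw [h5]
        push_cast
        ring
      have h5 : ∀ p, L (σ * Pi.mulSingle t1 (Equiv.swap w (w0 σ)) :
          ∀ t, Equiv.Perm (Fin (l t))) (w0 σ) p = L σ w p := by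
        intro p
        by_cases hp : p = ⟨t, v⟩
        · subst hp
          rw [hLt, hLt, hg1, Equiv.Perm.mul_apply, Equiv.swap_apply_right]
        · by_cases hp1 : p = ⟨t1, w0 σ⟩
          · subst hp1
            rw [hLt1, hg2 _ _ t hne, hLo _ _ _ hp (by
              intro h
              apply hw
              have h6 := eq_of_heq (Sigma.mk.inj h).2
              exact h6.symm)]
            exact (hw0 σ).symm
          · by_cases hp2 : p = ⟨t1, w⟩
            · subst hp2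
              rw [hLt1, hLo _ _ _ hp hp1]
              simp only [hg1, Equiv.Perm.mul_apply, Equiv.swap_apply_left]
              exact hw0 σ
            · rw [hLo _ _ _ hp hp1, hLo _ _ _ hp hp2]
              obtain ⟨t', s⟩ := p
              by_cases ht' : t' = t1
              · subst ht'
                simp only [hg1, Equiv.Perm.mul_apply]
                rw [Equiv.swap_apply_of_ne_of_ne (fun h => hp2 (by rw [h]))
                  (fun h => hp1 (by rw [h]))]
              · simp only [hg2 _ _ t' ht']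
      rw [h4]
      simp only [h5]
      ring
    · rintro ⟨σ, w⟩ hx _ h
      have hw : w ≠ w0 σ := (Finset.mem_filter.1 hx).2
      exact hw (congrArg Prod.snd h).symm
    · rintro ⟨σ, w⟩ hx
      simp only
      rw [hg3]
      congr 1
      rw [mul_assoc, ← Pi.mulSingle_mul, Equiv.swap_comm w (w0 σ), Equiv.swap_mul_self,
        Pi.mulSingle_one, mul_one]
    · rintro ⟨σ, w⟩ hx
      have hw : w ≠ w0 σ := (Finset.mem_filter.1 hx).2
      rw [Finset.mem_filter]
      refine ⟨Finset.mem_univ _, ?_⟩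
      simp only
      rw [hg3]
      exact hw.symm
  rw [h2, h3, add_zero]

end Vale.Agent.P181.H179
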