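import Vale.Agent.P181.H179.UniB
import Vale.Agent.P181.LK.Head

/-!
P181: almost all partitions, all `b ≤ a^(8/7)` which are at least `10^8 a log^2 a` or a multiple
of `a`.
-/

set_option autoImplicit false

namespace Vale.Agent.P181.H179.UniB

open Filter Real Vale.Agent.P181 Vale.Agent.P181.H280 Vale.Agent.P181.H179

/-- **Almost all partitions.** -/
theorem head2 : ∀ᶠ a : ℕ in atTop, ∀ b : ℕ, 0 < b →
    ((10 : ℝ) ^ 8 * (a : ℝ) * (Real.log a) ^ 2 ≤ b ∨ a ∣ b) →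
    (b : ℝ) ≤ (a : ℝ) ^ ((8 : ℝ) / 7) →
    ∃ Ψ : Pleth a b a →ₗ[ℂ] Pleth b a a, IsEquivariant Ψ ∧
      a * {lam : Fin a → ℕ | Antitone lam ∧ ∑ i, lam i = a * b ∧
        ¬ (InjOnHW Ψ lam ∧ plethMult a b a lam ≤ plethMult b a a lam)}.ncard ≤
      {lam : Fin a → ℕ | Antitone lam ∧ ∑ i, lam i = a * b}.ncard := by
  filter_upwards [LK.headLK, uniB, eventually_ge_atTop 2] with a h1 h2 ha2 b hb hor hb2
  rcases hor with h3 | ⟨q, rfl⟩
  · exact h1 b h3 hb2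
  · rw [mul_comm a q] at hb hb2 ⊢
    have ha0 : (0 : ℝ) < a := by
      have : 0 < a := by omega
      exact_mod_cast this
    have ha1 : (1 : ℝ) ≤ a := by
      have : 1 ≤ a := by omega
      exact_mod_cast this
    refine h2 q (Nat.pos_of_mul_pos_right hb) ?_
    have h4 : (q : ℝ) * a ≤ (a : ℝ) ^ ((1 : ℝ) / 7) * a := by
      calc (q : ℝ) * a = ((q * a : ℕ) : ℝ) := by push_cast; ring
        _ ≤ (a : ℝ) ^ ((8 : ℝ) / 7) := hb2
        _ = (a : ℝ) ^ ((1 : ℝ) / 7) * a := by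
          rw [show ((8 : ℝ) / 7) = 1 / 7 + 1 by norm_num, Real.rpow_add ha0, Real.rpow_one]
    calc (q : ℝ) ≤ (a : ℝ) ^ ((1 : ℝ) / 7) := le_of_mul_le_mul_right h4 ha0
      _ ≤ (a : ℝ) ^ ((1 : ℝ) / 6) := Real.rpow_le_rpow_of_exponent_le ha1 (by norm_num)

end Vale.Agent.P181.H179.UniB
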