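import Vale.Agent.P181.H179.GA
import Vale.Agent.P181.LK.Spec

set_option autoImplicit false

namespace Vale.Agent.P181.H179

open Vale.Agent.P181.LK

theorem rowGA : RowGA := fun _ _ _ _ F e t t1 hne hl v => GA F e t t1 hne hl v

end Vale.Agent.P181.H179
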