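import Vale.Agent.P181.H280.Final

set_option autoImplicit false

open scoped TensorProduct

namespace Vale.Agent.P181.H179

open Vale.Agent.P181 Vale.Agent.P181.H280

universe u

section Gen

variable {ι : Type} [Fintype ι] {M N : Type*} [AddCommGroup M] [Module ℂ M]
  [AddCommGroup N] [Module ℂ N]

/-- A multilinear map vanishing on spanning sets vanishes (one spanning set for each slot). -/
lemma multilinear_zero_of_spans {κ : Type*} [Fintype κ] (Φ : MultilinearMap ℂ (fun _ : κ => M) N)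
    (S : κ → Set M) (h : ∀ w : κ → M, (∀ i, w i ∈ S i) → Φ w = 0) (w : κ → M)
    (hw : ∀ i, w i ∈ Submodule.span ℂ (S i)) : Φ w = 0 := by
  classical
  have h1 : ∀ i, ∃ l : S i →₀ ℂ,
      Finsupp.linearCombination ℂ (Subtype.val : S i → M) l = w i := by
    intro i
    rw [← Finsupp.mem_span_iff_linearCombination]
    exact hw i
  choose l hl using h1
  have h2 : w = fun i => ∑ r ∈ (l i).support, (l i r) • (r : M) := by
    funext i
    rw [← hl i, Finsupp.linearCombination_apply, Finsupp.sum]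
  rw [h2, MultilinearMap.map_sum_finset]
  apply Finset.sum_eq_zero
  intro r _
  rw [MultilinearMap.map_smul_univ, h _ (fun i => (r i).2), smul_zero]

end Gen

section Eval

variable {W W' : Type u} [AddCommGroup W] [Module ℂ W] [AddCommGroup W'] [Module ℂ W']

/-- The evaluation of an element of a symmetric power at functionals, as a multilinear map of the
functionals. -/
noncomputable def evalM {b : ℕ} (x : Sym[ℂ]^b W) :
    MultilinearMap ℂ (fun _ : Fin b => Module.Dual ℂ W) ℂ :=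
  ((Module.Dual.eval ℂ (⨂[ℂ] _ : Fin b, W) (symSum (Fin b) W x)) ∘ₗ
    (PiTensorProduct.dualDistrib (R := ℂ) (M := fun _ : Fin b => W))).compMultilinearMap
      (PiTensorProduct.tprod ℂ)

lemma evalM_apply {b : ℕ} (x : Sym[ℂ]^b W) (ξ : Fin b → Module.Dual ℂ W) :
    evalM x ξ = symEval ξ x := rfl

lemma symEval_perm {b : ℕ} (x : Sym[ℂ]^b W) (ξ : Fin b → Module.Dual ℂ W)
    (e : Equiv.Perm (Fin b)) : symEval (fun i => ξ (e i)) x = symEval ξ x := by
  have h : (symEval (fun i => ξ (e i)) : SymmetricPower ℂ (Fin b) W →ₗ[ℂ] ℂ) = symEval ξ := by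
    apply sym_hom_ext
    intro v
    rw [symEval_tprod, symEval_tprod]
    rw [← Equiv.sum_comp (Equiv.mulRight e)]
    apply Finset.sum_congr rfl
    intro σ _
    rw [← Equiv.prod_comp e (fun i => ξ i (v (σ i)))]
    rfl
  rw [h]

lemma symEval_diag {b : ℕ} (x : Sym[ℂ]^b W) (ξ : Module.Dual ℂ W) :
    symEval (fun _ => ξ) x = (Fintype.card (Equiv.Perm (Fin b)) : ℂ) * evalPow b ξ x := by
  have h : (symEval (fun _ => ξ) : SymmetricPower ℂ (Fin b) W →ₗ[ℂ] ℂ) =
      (Fintype.card (Equiv.Perm (Fin b)) : ℂ) • evalPow b ξ := by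
    apply sym_hom_ext
    intro v
    rw [symEval_tprod, LinearMap.smul_apply, evalPow_tprod]
    have h1 : ∀ e : Equiv.Perm (Fin b), ∏ i, ξ (v (e i)) = ∏ i, ξ (v i) :=
      fun e => Equiv.prod_comp e (fun i => ξ (v i))
    rw [Finset.sum_congr rfl (fun e _ => h1 e), Finset.sum_const, nsmul_eq_mul,
      Finset.card_univ, smul_eq_mul]
  rw [h, LinearMap.smul_apply, smul_eq_mul]

lemma symEval_eq_zero_of_evalPow {b : ℕ} (x : Sym[ℂ]^b W)
    (h : ∀ ξ : Module.Dual ℂ W, evalPow b ξ x = 0) (ξ : Fin b → Module.Dual ℂ W) :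
    symEval ξ x = 0 := by
  have h1 := polar (evalM x) ⊤ (by
    intro η _
    rw [evalM_apply, symEval_diag, h, mul_zero]) ξ (fun _ => Submodule.mem_top)
  have h2 : ∀ π : Equiv.Perm (Fin b), evalM x (fun p => ξ (π p)) = symEval ξ x := by
    intro π
    rw [evalM_apply, symEval_perm]
  rw [Finset.sum_congr rfl (fun π _ => h2 π), Finset.sum_const, nsmul_eq_mul,
    Finset.card_univ] at h1
  refine (mul_eq_zero.1 h1).resolve_left ?_
  exact_mod_cast Fintype.card_ne_zero

lemma eq_zero_of_evalPow [Module.Finite ℂ W] {b : ℕ} (x : Sym[ℂ]^b W)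
    (h : ∀ ξ : Module.Dual ℂ W, evalPow b ξ x = 0) : x = 0 :=
  symEval_separates Set.univ Submodule.span_univ x
    (fun lam _ => symEval_eq_zero_of_evalPow x h lam)

/-- Functoriality of the evaluation. -/
lemma symEval_symMap {b : ℕ} (g : W →ₗ[ℂ] W') (ξ : Fin b → Module.Dual ℂ W')
    (x : Sym[ℂ]^b W) : symEval ξ (symMap b g x) = symEval (fun i => (ξ i) ∘ₗ g) x := by
  have h : (symEval ξ : SymmetricPower ℂ (Fin b) W' →ₗ[ℂ] ℂ) ∘ₗ symMap b g =
      symEval (fun i => (ξ i) ∘ₗ g) := by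
    apply sym_hom_ext
    intro v
    rw [LinearMap.comp_apply, symMap_tprod, symEval_tprod, symEval_tprod]
    rfl
  rw [← h]
  rfl

lemma evalPow_symMap {b : ℕ} (g : W →ₗ[ℂ] W') (ξ : Module.Dual ℂ W') :
    (evalPow b ξ) ∘ₗ symMap b g = evalPow b (ξ ∘ₗ g) := by
  apply sym_hom_ext
  intro v
  rw [LinearMap.comp_apply, symMap_tprod, evalPow_tprod, evalPow_tprod]
  rfl

lemma evalPow_smul {b : ℕ} (c : ℂ) (ξ : Module.Dual ℂ W) :
    evalPow b (c • ξ) = c ^ b • evalPow b ξ := by
  apply sym_hom_ext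
  intro v
  rw [LinearMap.smul_apply, evalPow_tprod, evalPow_tprod]
  simp only [LinearMap.smul_apply, smul_eq_mul]
  rw [Finset.prod_mul_distrib, Finset.prod_const, Finset.card_univ, Fintype.card_fin]

lemma symMap_id (b : ℕ) : symMap b (LinearMap.id : W →ₗ[ℂ] W) = LinearMap.id := by
  apply sym_hom_ext
  intro v
  rw [symMap_tprod]
  rfl

lemma symMap_smul (b : ℕ) (s : ℂ) (T : W →ₗ[ℂ] W') : symMap b (s • T) = s ^ b • symMap b T := by
  apply sym_hom_ext
  intro v
  rw [symMap_tprod, LinearMap.smul_apply, symMap_tprod]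
  have h4 := MultilinearMap.map_smul_univ
    (SymmetricPower.tprod ℂ (ι := Fin b) (M := W')) (fun _ => s) (fun i => T (v i))
  rw [Finset.prod_const, Finset.card_univ, Fintype.card_fin] at h4
  exact h4

variable {W'' : Type u} [AddCommGroup W''] [Module ℂ W'']

lemma symMap_comp (b : ℕ) (g : W →ₗ[ℂ] W') (g' : W' →ₗ[ℂ] W'') :
    symMap b (g' ∘ₗ g) = symMap b g' ∘ₗ symMap b g := by
  apply sym_hom_ext
  intro v
  rw [LinearMap.comp_apply, symMap_tprod, symMap_tprod, symMap_tprod]
  rfl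

/-- In finite dimension a family of functionals which separates points spans the dual. -/
lemma span_eq_top_of_separates {X : Type*} [AddCommGroup X] [Module ℂ X] [Module.Finite ℂ X]
    (S : Set (Module.Dual ℂ X)) (h : ∀ x : X, (∀ φ ∈ S, φ x = 0) → x = 0) :
    Submodule.span ℂ S = ⊤ := by
  set W := Submodule.span ℂ S with hW
  have h1 : W.dualCoannihilator = ⊥ := by
    rw [eq_bot_iff]
    intro y hy
    rw [Submodule.mem_dualCoannihilator] at hy
    rw [Submodule.mem_bot]
    apply h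
    intro φ hφ
    exact hy _ (Submodule.subset_span hφ)
  have h2 := Subspace.dualCoannihilator_dualAnnihilator_eq (W := W)
  rw [h1] at h2
  rw [← h2]
  exact Submodule.dualAnnihilator_bot

end Eval

section Mul

variable {W W' : Type u} [AddCommGroup W] [Module ℂ W] [AddCommGroup W'] [Module ℂ W']

/-- Multiplication by `w` on symmetric powers. -/
noncomputable def mulBy (b : ℕ) (w : W) : Sym[ℂ]^b W →ₗ[ℂ] Sym[ℂ]^(b + 1) W :=
  symLift ((SymmetricPower.tprod ℂ (ι := Fin (b + 1)) (M := W)).curryLeft w) (fun e v => by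
    rw [MultilinearMap.curryLeft_apply, MultilinearMap.curryLeft_apply,
      ← SymmetricPower.tprod_equiv (R := ℂ) (Equiv.Perm.decomposeFin.symm (0, e)) (Fin.cons w v)]
    congr 1
    funext j
    refine Fin.cases ?_ (fun j => ?_) j
    · simp
    · simp)

lemma mulBy_tprod (b : ℕ) (w : W) (v : Fin b → W) :
    mulBy b w (SymmetricPower.tprod ℂ v) =
      SymmetricPower.tprod ℂ (Fin.cons w v : Fin (b + 1) → W) := by
  rw [mulBy, symLift_tprod, MultilinearMap.curryLeft_apply]

lemma mulBy_smul (b : ℕ) (c : ℂ) (w : W) : mulBy b (c • w) = c • mulBy b w := by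
  apply sym_hom_ext
  intro v
  rw [LinearMap.smul_apply, mulBy_tprod, mulBy_tprod]
  have h := MultilinearMap.map_update_smul
    (SymmetricPower.tprod ℂ (ι := Fin (b + 1)) (M := W)) (Fin.cons w v) 0 c w
  rw [Fin.update_cons_zero, Fin.update_cons_zero] at h
  exact h

lemma symMap_mulBy (b : ℕ) (g : W →ₗ[ℂ] W') (w : W) (x : Sym[ℂ]^b W) :
    symMap (b + 1) g (mulBy b w x) = mulBy b (g w) (symMap b g x) := by
  have h : symMap (b + 1) g ∘ₗ mulBy b w = mulBy b (g w) ∘ₗ symMap b g := by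
    apply sym_hom_ext
    intro v
    rw [LinearMap.comp_apply, LinearMap.comp_apply, mulBy_tprod, symMap_tprod, symMap_tprod,
      mulBy_tprod]
    congr 1
    funext j
    refine Fin.cases ?_ (fun j => ?_) j
    · rfl
    · rfl
  exact LinearMap.congr_fun h x

lemma evalPow_mulBy (b : ℕ) (w : W) (ξ : Module.Dual ℂ W) (x : Sym[ℂ]^b W) :
    evalPow (b + 1) ξ (mulBy b w x) = ξ w * evalPow b ξ x := by
  have h : evalPow (b + 1) ξ ∘ₗ mulBy b w = ξ w • evalPow b ξ := by
    apply sym_hom_ext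
    intro v
    rw [LinearMap.comp_apply, mulBy_tprod, evalPow_tprod, LinearMap.smul_apply, evalPow_tprod,
      Fin.prod_univ_succ]
    rfl
  have h1 := LinearMap.congr_fun h x
  exact h1

open Polynomial in
lemma mulBy_eq_zero [Module.Finite ℂ W] (b : ℕ) {w : W} (hw : w ≠ 0) (x : Sym[ℂ]^b W)
    (hx : mulBy b w x = 0) : x = 0 := by
  have h1 : ∃ η : Module.Dual ℂ W, η w ≠ 0 := by
    by_contra hcon
    push Not at hcon
    exact hw ((Module.forall_dual_apply_eq_zero_iff ℂ w).1 hcon)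
  obtain ⟨η, hη⟩ := h1
  apply eq_zero_of_evalPow
  intro ξ
  let L : W →ₗ[ℂ] ℂ[X] :=
    (Algebra.linearMap ℂ ℂ[X]) ∘ₗ ξ + (LinearMap.mulRight ℂ (X : ℂ[X])) ∘ₗ
      ((Algebra.linearMap ℂ ℂ[X]) ∘ₗ η)
  have hL : ∀ v, L v = C (ξ v) + C (η v) * X := fun v => rfl
  let Q : Sym[ℂ]^b W →ₗ[ℂ] ℂ[X] :=
    symLift ((MultilinearMap.mkPiAlgebra ℂ (Fin b) ℂ[X]).compLinearMap (fun _ => L))
      (fun e v => by
        simp only [MultilinearMap.compLinearMap_apply, MultilinearMap.mkPiAlgebra_apply]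
        exact Equiv.prod_comp e (fun i => L (v i)))
  have hQt : ∀ v : Fin b → W, Q (SymmetricPower.tprod ℂ v) = ∏ i, L (v i) := by
    intro v
    rw [symLift_tprod]
    simp only [MultilinearMap.compLinearMap_apply, MultilinearMap.mkPiAlgebra_apply]
  have hQ : ∀ s : ℂ, ∀ y : Sym[ℂ]^b W, (Q y).eval s = evalPow b (ξ + s • η) y := by
    intro s y
    have h2 : (Polynomial.leval s) ∘ₗ Q = evalPow b (ξ + s • η) := by
      apply sym_hom_ext
      intro v
      rw [LinearMap.comp_apply, hQt, evalPow_tprod, Polynomial.leval_apply,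
        Polynomial.eval_prod]
      apply Finset.prod_congr rfl
      intro i _
      rw [hL, eval_add, eval_mul, eval_C, eval_C, eval_X, LinearMap.add_apply,
        LinearMap.smul_apply, smul_eq_mul, mul_comm]
    have h3 := LinearMap.congr_fun h2 y
    exact h3
  have hz : (C (ξ w) + C (η w) * X) * Q x = 0 := by
    apply Polynomial.funext
    intro s
    have h2 := evalPow_mulBy b w (ξ + s • η) x
    rw [hx, map_zero] at h2
    rw [eval_mul, hQ, eval_zero, h2, eval_add, eval_mul, eval_C, eval_C, eval_X,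
      LinearMap.add_apply, LinearMap.smul_apply, smul_eq_mul, mul_comm s]
  have hne : (C (ξ w) + C (η w) * X : ℂ[X]) ≠ 0 := by
    intro h0
    have h2 := congrArg (fun p => p.coeff 1) h0
    simp only [coeff_add, coeff_C_mul, coeff_X_one, mul_one, coeff_zero] at h2
    rw [coeff_C, if_neg one_ne_zero, zero_add] at h2
    exact hη h2
  have hQ0 := (mul_eq_zero.1 hz).resolve_left hne
  have h4 := hQ 0 x
  rw [hQ0, eval_zero, zero_smul, add_zero] at h4
  exact h4.symm

end Mul

end Vale.Agent.P181.H179
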