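import Vale.Agent.P181.H179.Stable2

set_option autoImplicit false

open Vale.Agent.P181.H280

namespace Vale.Agent.P181.H179

section HW

variable {n : ℕ}

/-- The multiplicity in `Sym^b(Sym^a V)` is stable from `2 b + 1 ≥ lam_2 + |lam-bar|` on. -/
theorem right_const (a b : ℕ) (lam : Fin (n + 1) → ℕ)
    (hN : ∑ k : Fin n, lam k.succ < 2 * (b + 1))
    (hlam : ∀ k, k ≠ 0 → lam k + ∑ k : Fin n, lam k.succ < 2 * (b + 1)) (d : ℕ) :
    plethMult (b + d) (a + 1) (n + 1) (Function.update lam 0 (lam 0 + (a + 1) * d)) =
      plethMult b (a + 1) (n + 1) lam := by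
  induction d with
  | zero => simp
  | succ d ih =>
    rw [← ih]
    set mu := Function.update lam 0 (lam 0 + (a + 1) * (d + 1)) with hmu
    have hs : ∀ k : Fin n, mu k.succ = lam k.succ :=
      fun k => Function.update_of_ne (Fin.succ_ne_zero k) _ _
    have h0 : mu 0 = (lam 0 + (a + 1) * d) + (a + 1) := by
      rw [hmu, Function.update_self]; ring
    have h1 : Function.update mu 0 (lam 0 + (a + 1) * d) =
        Function.update lam 0 (lam 0 + (a + 1) * d) := by
      rw [hmu, Function.update_idem]
    refine le_antisymm ?_ ?_
    · have h2 := right_stable a (b + d) mu (lam 0 + (a + 1) * d) h0 (by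
        simp only [hs]; omega) (by
        intro k hk
        simp only [hs]
        rw [hmu, Function.update_of_ne hk]
        have := hlam k hk
        omega)
      rw [h1] at h2
      exact h2
    · have h2 := right_step (a + 1) (b + d) mu (lam 0 + (a + 1) * d) h0
      rw [h1] at h2
      exact h2

end HW

end Vale.Agent.P181.H179
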