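import Vale.Agent.P181.H280.Final

set_option autoImplicit false

namespace Vale.Agent.P181.H179

open Vale.Agent.P181 Vale.Agent.P181.H280 Finset

variable {A : Type*} [CommRing A] [Algebra ℂ A] {a : ℕ}

/-- The product of the letters placed in the row `i`. -/
def plc {r : ℕ} (e : Fin r → Fin a) (y : Fin r → A) (i : Fin a) : A :=
  ∏ s, if e s = i then y s else 1

/-- Contraction of a form with a column of letters `y`, placed alternatingly in the rows `e`. -/
noncomputable def ctr (F : MultilinearMap ℂ (fun _ : Fin a => A) ℂ) {r : ℕ} (y : Fin r → A)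
    (e : Fin r → Fin a) : MultilinearMap ℂ (fun _ : Fin a => A) ℂ :=
  ∑ σ : Equiv.Perm (Fin r), ((Equiv.Perm.sign σ : ℤ) : ℂ) • mulArg F (plc e (fun s => y (σ s)))

lemma ctr_apply (F : MultilinearMap ℂ (fun _ : Fin a => A) ℂ) {r : ℕ} (y : Fin r → A)
    (e : Fin r → Fin a) (P : Fin a → A) : ctr F y e P = ∑ σ : Equiv.Perm (Fin r),
      ((Equiv.Perm.sign σ : ℤ) : ℂ) * F (fun i => plc e (fun s => y (σ s)) i * P i) := by
  simp only [ctr, _root_.sum_apply, smul_apply, mulArg_apply, smul_eq_mul]

omit [Algebra ℂ A] in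
lemma plc_update_ne {r : ℕ} (e : Fin r → Fin a) (y : Fin r → A) (s : Fin r) (z : A) {i : Fin a}
    (h : i ≠ e s) : plc e (Function.update y s z) i = plc e y i := by
  apply Finset.prod_congr rfl
  intro s' _
  by_cases hs : s' = s
  · subst hs
    rw [if_neg (Ne.symm h), if_neg (Ne.symm h)]
  · rw [Function.update_of_ne hs]

lemma deriv_plc (δ : Derivation ℂ A A) {r : ℕ} (e : Fin r → Fin a) (y : Fin r → A) (i : Fin a) :
    δ (plc e y i) = ∑ s, if e s = i then plc e (Function.update y s (δ (y s))) i else 0 := by
  rw [plc, deriv_prod]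
  apply Finset.sum_congr rfl
  intro s _
  by_cases hs : e s = i
  · rw [if_pos hs, if_pos hs]
    apply Finset.prod_congr rfl
    intro s' _
    by_cases h' : s' = s
    · subst h'
      simp [hs]
    · rw [Function.update_of_ne h', Function.update_of_ne h']
  · rw [if_neg hs, if_neg hs]
    apply Finset.prod_eq_zero (Finset.mem_univ s)
    rw [Function.update_self, Derivation.map_one_eq_zero]

/-- The basic identity. -/
lemma gi (δ : Derivation ℂ A A) (F : MultilinearMap ℂ (fun _ : Fin a => A) ℂ) (κ : ℂ)
    (hF : ∀ Q : Fin a → A, ∑ i, F (Function.update Q i (δ (Q i))) = κ * F Q) {r : ℕ}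
    (e : Fin r → Fin a) (y : Fin r → A) (P : Fin a → A) :
    ∑ i, F (Function.update (fun j => plc e y j * P j) i (plc e y i * δ (P i))) =
      κ * F (fun j => plc e y j * P j) -
        ∑ s, F (fun j => plc e (Function.update y s (δ (y s))) j * P j) := by
  rw [← hF]
  have h1 : ∀ i, F (Function.update (fun j => plc e y j * P j) i (δ (plc e y i * P i))) =
      F (Function.update (fun j => plc e y j * P j) i (plc e y i * δ (P i))) +
      ∑ s, (if e s = i then F (fun j => plc e (Function.update y s (δ (y s))) j * P j)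
        else 0) := by
    intro i
    rw [Derivation.leibniz, deriv_plc, smul_eq_mul, smul_eq_mul, MultilinearMap.map_update_add,
      Finset.mul_sum, MultilinearMap.map_update_sum]
    congr 1
    apply Finset.sum_congr rfl
    intro s _
    split_ifs with hs
    · congr 1
      funext j
      by_cases hj : j = i
      · subst hj
        rw [Function.update_self, mul_comm]
      · rw [Function.update_of_ne hj, plc_update_ne _ _ _ _ (by rw [hs]; exact hj)]
    · rw [mul_zero]
      exact F.map_update_zero _ _
  rw [Finset.sum_congr rfl (fun i _ => h1 i), Finset.sum_add_distrib, Finset.sum_comm (s := univ)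
    (t := univ) (f := fun i s => (if e s = i then
      F (fun j => plc e (Function.update y s (δ (y s))) j * P j) else 0))]
  have h2 : ∀ s, ∑ i, (if e s = i then F (fun j => plc e (Function.update y s (δ (y s))) j * P j)
      else 0) = F (fun j => plc e (Function.update y s (δ (y s))) j * P j) := by
    intro s
    rw [Finset.sum_ite_eq, if_pos (Finset.mem_univ _)]
  rw [Finset.sum_congr rfl (fun s _ => h2 s)]
  ring

/-- A derivation applied to a contraction. -/
lemma ctr_der (δ : Derivation ℂ A A) (F : MultilinearMap ℂ (fun _ : Fin a => A) ℂ) (κ : ℂ)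
    (hF : ∀ Q : Fin a → A, ∑ i, F (Function.update Q i (δ (Q i))) = κ * F Q) {r : ℕ}
    (y : Fin r → A) (e : Fin r → Fin a) (P : Fin a → A) :
    ∑ i, ctr F y e (Function.update P i (δ (P i))) =
      κ * ctr F y e P - ∑ u, ctr F (Function.update y u (δ (y u))) e P := by
  have h1 : ∀ i, ctr F y e (Function.update P i (δ (P i))) = ∑ σ : Equiv.Perm (Fin r),
      ((Equiv.Perm.sign σ : ℤ) : ℂ) * F (Function.update (fun j =>
        plc e (fun s => y (σ s)) j * P j) i (plc e (fun s => y (σ s)) i * δ (P i))) := by
    intro i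
    rw [ctr_apply]
    apply Finset.sum_congr rfl
    intro σ _
    congr 2
    funext j
    by_cases hj : j = i
    · subst hj
      rw [Function.update_self, Function.update_self]
    · rw [Function.update_of_ne hj, Function.update_of_ne hj]
  have h2 : ∀ u, ctr F (Function.update y u (δ (y u))) e P = ∑ σ : Equiv.Perm (Fin r),
      ((Equiv.Perm.sign σ : ℤ) : ℂ) * F (fun i =>
        plc e (Function.update (fun s => y (σ s)) (σ.symm u)
          (δ (y (σ (σ.symm u))))) i * P i) := by
    intro u
    rw [ctr_apply]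
    apply Finset.sum_congr rfl
    intro σ _
    congr 2
    funext j
    congr 2
    funext s
    rw [Equiv.apply_symm_apply]
    by_cases hs : s = σ.symm u
    · rw [hs, Equiv.apply_symm_apply, Function.update_self, Function.update_self]
    · rw [Function.update_of_ne hs, Function.update_of_ne]
      intro h
      exact hs (by rw [← h, Equiv.symm_apply_apply])
  rw [Finset.sum_congr rfl (fun i _ => h1 i), Finset.sum_congr rfl (fun u _ => h2 u),
    Finset.sum_comm, Finset.sum_comm (s := univ) (t := univ) (f := fun u σ =>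
      ((Equiv.Perm.sign σ : ℤ) : ℂ) * F (fun i =>
        plc e (Function.update (fun s => y (σ s)) (σ.symm u)
          (δ (y (σ (σ.symm u))))) i * P i)), ctr_apply, Finset.mul_sum, ← Finset.sum_sub_distrib]
  apply Finset.sum_congr rfl
  intro σ _
  rw [← Finset.mul_sum, ← Finset.mul_sum, gi δ F κ hF e (fun s => y (σ s)) P,
    ← Equiv.sum_comp σ (fun u => F (fun i => plc e (Function.update (fun s => y (σ s)) (σ.symm u)
          (δ (y (σ (σ.symm u))))) i * P i))]
  simp only [Equiv.symm_apply_apply]
  ring

/-- Repeated letters kill a contraction. -/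
lemma ctr_letter {r : ℕ} (F : MultilinearMap ℂ (fun _ : Fin a => A) ℂ) (y : Fin r → A)
    (e : Fin r → Fin a) (P : Fin a → A) {u v : Fin r} (huv : u ≠ v) (h : y u = y v) :
    ctr F y e P = 0 := by
  rw [ctr_apply]
  apply sum_sign_left_zero _ huv
  intro σ
  congr 1
  funext j
  congr 2
  funext s
  simp only [Equiv.Perm.coe_mul, Function.comp_apply]
  by_cases h8 : σ s = u
  · rw [h8, Equiv.swap_apply_left, h]
  · by_cases h9 : σ s = v
    · rw [h9, Equiv.swap_apply_right, h]
    · rw [Equiv.swap_apply_of_ne_of_ne h8 h9]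

/-- A zero letter kills a contraction. -/
lemma ctr_zero {r : ℕ} (F : MultilinearMap ℂ (fun _ : Fin a => A) ℂ) (y : Fin r → A)
    (e : Fin r → Fin a) (P : Fin a → A) {u : Fin r} (h : y u = 0) :
    ctr F y e P = 0 := by
  rw [ctr_apply]
  apply Finset.sum_eq_zero
  intro σ _
  have h1 : plc e (fun s => y (σ s)) (e (σ.symm u)) = 0 := by
    apply Finset.prod_eq_zero (Finset.mem_univ (σ.symm u))
    rw [if_pos rfl]
    simp only [Equiv.apply_symm_apply, h]
  rw [F.map_coord_zero (e (σ.symm u)) (by simp only [h1, zero_mul]), mul_zero]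

/-- The Capelli step: peeling off the first letter. -/
theorem cap_step {r : ℕ} (F : MultilinearMap ℂ (fun _ : Fin a => A) ℂ) (y : Fin (r + 1) → A)
    (D : Derivation ℂ A A) (c : ℂ) (hD0 : D (y 0) = 1) (hDs : ∀ s : Fin r, D (y s.succ) = 0)
    (hF : ∀ (k : Fin (r + 1)) (Q : Fin a → A),
      ∑ i, F (Function.update Q i (y k * D (Q i))) = (if k = 0 then c else 0) * F Q)
    (e : Fin r → Fin a) (P : Fin a → A) :
    ∑ i, ctr F y (Fin.cons i e : Fin (r + 1) → Fin a) (Function.update P i (D (P i))) =
      (c + r) * ctr F (fun s => y s.succ) e P := by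
  classical
  -- expand the left-hand side
  have h1 : ∀ i, ctr F y (Fin.cons i e : Fin (r + 1) → Fin a) (Function.update P i (D (P i))) =
      ∑ σ : Equiv.Perm (Fin (r + 1)), ((Equiv.Perm.sign σ : ℤ) : ℂ) *
        F (Function.update (fun j => plc e (fun s => y (σ s.succ)) j * P j) i
          (plc e (fun s => y (σ s.succ)) i * (y (σ 0) * D (P i)))) := by
    intro i
    rw [ctr_apply]
    apply Finset.sum_congr rfl
    intro σ _
    congr 2
    funext j
    have h2 : plc (Fin.cons i e : Fin (r + 1) → Fin a) (fun s => y (σ s)) j =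
        (if i = j then y (σ 0) else 1) * plc e (fun s => y (σ s.succ)) j := by
      rw [plc, Fin.prod_univ_succ]
      rfl
    rw [h2]
    by_cases hj : j = i
    · subst hj
      rw [Function.update_self, Function.update_self, if_pos rfl]
      ring
    · rw [Function.update_of_ne hj, Function.update_of_ne hj, if_neg (Ne.symm hj), one_mul]
  rw [Finset.sum_congr rfl (fun i _ => h1 i), Finset.sum_comm]
  have h3 : ∀ σ : Equiv.Perm (Fin (r + 1)), ∑ i, ((Equiv.Perm.sign σ : ℤ) : ℂ) *
        F (Function.update (fun j => plc e (fun s => y (σ s.succ)) j * P j) i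
          (plc e (fun s => y (σ s.succ)) i * (y (σ 0) * D (P i)))) =
      ((Equiv.Perm.sign σ : ℤ) : ℂ) * ((if σ 0 = 0 then c else 0) *
        F (fun j => plc e (fun s => y (σ s.succ)) j * P j) -
        ∑ s, F (fun j => plc e (Function.update (fun s => y (σ s.succ)) s
          (y (σ 0) * D (y (σ s.succ)))) j * P j)) := by
    intro σ
    rw [← Finset.mul_sum]
    congr 1
    exact gi (y (σ 0) • D) F _ (hF (σ 0)) e (fun s => y (σ s.succ)) P
  rw [Finset.sum_congr rfl (fun σ _ => h3 σ), ← Equiv.sum_comp Equiv.Perm.decomposeFin.symm,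
    Fintype.sum_prod_type, Finset.sum_comm, ctr_apply, Finset.mul_sum]
  apply Finset.sum_congr rfl
  intro τ _
  have hzero : ∀ (w : Fin r → A) (s : Fin r), F (fun j => plc e (Function.update w s 0) j * P j)
      = 0 := by
    intro w s
    have h1 : plc e (Function.update w s 0) (e s) = 0 := by
      apply Finset.prod_eq_zero (Finset.mem_univ s)
      rw [if_pos rfl, Function.update_self]
    exact F.map_coord_zero (e s) (by simp only [h1, zero_mul])
  rw [Fin.sum_univ_succ]
  have h4 : ((Equiv.Perm.sign (Equiv.Perm.decomposeFin.symm ((0 : Fin (r + 1)), τ)) : ℤ) : ℂ) =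
      ((Equiv.Perm.sign τ : ℤ) : ℂ) := by
    rw [Equiv.Perm.decomposeFin.symm_sign, if_pos rfl, one_mul]
  have h5 : ∀ p : Fin r, ((Equiv.Perm.sign (Equiv.Perm.decomposeFin.symm (p.succ, τ)) : ℤ) : ℂ) =
      -((Equiv.Perm.sign τ : ℤ) : ℂ) := by
    intro p
    rw [Equiv.Perm.decomposeFin.symm_sign, if_neg (Fin.succ_ne_zero p)]
    simp
  simp only [Equiv.Perm.decomposeFin_symm_apply_zero, Equiv.Perm.decomposeFin_symm_apply_succ, h4,
    h5, if_true, Fin.succ_ne_zero, if_false, Equiv.swap_self, Equiv.refl_apply, hDs, mul_zero,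
    hzero, Finset.sum_const_zero, sub_zero, zero_mul, zero_sub]
  have h6 : ∀ p : Fin r, ∑ s, F (fun j => plc e (Function.update
      (fun s => y (Equiv.swap 0 p.succ (τ s).succ)) s
        (y p.succ * D (y (Equiv.swap 0 p.succ (τ s).succ)))) j * P j) =
      F (fun j => plc e (fun s => y (τ s).succ) j * P j) := by
    intro p
    rw [Finset.sum_eq_single (τ.symm p)]
    · congr 1
      funext j
      congr 2
      funext s
      by_cases hs : s = τ.symm p
      · subst hs
        rw [Function.update_self, Equiv.apply_symm_apply, Equiv.swap_apply_right, hD0, mul_one]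
      · have hsp : τ s ≠ p := fun h => hs (by rw [← h, Equiv.symm_apply_apply])
        rw [Function.update_of_ne hs, Equiv.swap_apply_of_ne_of_ne (Fin.succ_ne_zero _)
          (fun h => hsp (Fin.succ_injective _ h))]
    · intro s _ hs
      have hsp : τ s ≠ p := fun h => hs (by rw [← h, Equiv.symm_apply_apply])
      rw [Equiv.swap_apply_of_ne_of_ne (Fin.succ_ne_zero _)
          (fun h => hsp (Fin.succ_injective _ h)), hDs, mul_zero, hzero]
    · intro h
      exact absurd (Finset.mem_univ _) h
  rw [Finset.sum_congr rfl (fun p _ => by rw [h6 p]), Finset.sum_const, Finset.card_univ,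
    Fintype.card_fin, nsmul_eq_mul]
  ring

end Vale.Agent.P181.H179
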