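import Vale.Agent.P181.H179.P6
import Mathlib.Analysis.SpecialFunctions.Log.Basic
import Mathlib.Analysis.Complex.ExponentialBounds

set_option autoImplicit false

namespace Vale.Agent.P181.H179

open Finset

/-- The union bound with different weights. -/
lemma union_bound' {Ω P : Type*} [Fintype Ω] [Nonempty Ω] (T : Finset P) (f : P → Ω → ℝ)
    (c : P → ℝ) (hf : ∀ p ∈ T, ∀ ω, 0 ≤ f p ω)
    (hs : ∀ p ∈ T, ∑ ω, f p ω ≤ Fintype.card Ω * c p) (hc : ∑ p ∈ T, c p < 1) :
    ∃ ω, ∀ p ∈ T, f p ω < 1 := by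
  by_contra hno
  push Not at hno
  have hpos : (0 : ℝ) < Fintype.card Ω := by
    exact_mod_cast Fintype.card_pos
  have h1 : (Fintype.card Ω : ℝ) ≤ ∑ ω, ∑ p ∈ T, f p ω := by
    have h2 : ∀ ω ∈ (univ : Finset Ω), (1 : ℝ) ≤ ∑ p ∈ T, f p ω := by
      intro ω _
      obtain ⟨p, hp, h3⟩ := hno ω
      exact h3.trans (Finset.single_le_sum (f := fun p => f p ω) (fun p hp => hf p hp ω) hp)
    have h3 := Finset.sum_le_sum h2
    simp only [Finset.sum_const, Finset.card_univ, nsmul_eq_mul, mul_one] at h3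
    exact h3
  rw [Finset.sum_comm] at h1
  have h2 := Finset.sum_le_sum hs
  rw [← Finset.mul_sum] at h2
  have h3 : (Fintype.card Ω : ℝ) * ∑ p ∈ T, c p < Fintype.card Ω * 1 :=
    mul_lt_mul_of_pos_left hc hpos
  linarith

/-- Independent columns. -/
lemma indep {N : ℕ} {Y : Type*} [Fintype Y] (S : Finset (Fin N)) (g : Y → ℝ) (c : ℝ)
    (hg : ∑ y, g y = Fintype.card Y * c) :
    ∑ ω : Fin N → Y, ∏ t ∈ S, g (ω t) = Fintype.card (Fin N → Y) * c ^ S.card := by
  classical
  have h1 : ∀ ω : Fin N → Y, ∏ t ∈ S, g (ω t) = ∏ t, if t ∈ S then g (ω t) else 1 := by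
    intro ω
    rw [Finset.prod_ite_mem, Finset.univ_inter]
  rw [Finset.sum_congr rfl (fun ω _ => h1 ω)]
  have h2 := Finset.prod_univ_sum (fun _ : Fin N => (univ : Finset Y))
    (fun t y => if t ∈ S then g y else (1 : ℝ))
  rw [Fintype.piFinset_univ] at h2
  rw [← h2]
  have h3 : ∀ t : Fin N, ∑ y : Y, (if t ∈ S then g y else (1 : ℝ)) =
      Fintype.card Y * if t ∈ S then c else 1 := by
    intro t
    by_cases ht : t ∈ S
    · simp only [if_pos ht, hg]
    · simp only [if_neg ht, Finset.sum_const, Finset.card_univ, nsmul_eq_mul]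
  rw [Finset.prod_congr rfl (fun t _ => h3 t), Finset.prod_mul_distrib, Finset.prod_const,
    Finset.prod_ite_mem, Finset.univ_inter, Finset.prod_const, Fintype.card_fun,
    Finset.card_univ, Fintype.card_fin]
  push_cast
  rfl

/-- The random data of a column: is it reserved, its label, and one bit for each row. -/
abbrev Col (a q : ℕ) : Type := Bool × Fin q × (Fin a → Bool)

/-- The label of row `i`. -/
def lab0 {a q : ℕ} [NeZero q] (y : Col a q) (i : Fin a) : Fin q :=
  y.2.1 + (if y.2.2 i = true then 1 else 0)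

lemma card_Col (a q : ℕ) : (Fintype.card (Col a q) : ℝ) = 2 * q * 2 ^ a := by
  simp only [Fintype.card_prod, Fintype.card_bool, Fintype.card_fin, Fintype.card_fun]
  push_cast
  ring

lemma sum_size {a q : ℕ} [NeZero q] (i : Fin a) (k : Fin q) :
    ∑ y : Col a q, (if y.1 = true ∧ lab0 y i = k then (2 : ℝ) else 1) =
      Fintype.card (Col a q) * (1 + 1 / (2 * q)) := by
  have hq : (0 : ℝ) < q := by
    exact_mod_cast Nat.pos_of_ne_zero (NeZero.ne q)
  have h1 : ∀ y : Col a q, (if y.1 = true ∧ lab0 y i = k then (2 : ℝ) else 1) =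
      1 + (if y.1 = true then (if lab0 y i = k then 1 else 0) else 0) := by
    intro y
    by_cases h1 : y.1 = true
    · by_cases h2 : lab0 y i = k
      · rw [if_pos ⟨h1, h2⟩, if_pos h1, if_pos h2]
        norm_num
      · rw [if_neg (fun h => h2 h.2), if_pos h1, if_neg h2, add_zero]
    · rw [if_neg (fun h => h1 h.1), if_neg h1, add_zero]
  rw [Finset.sum_congr rfl (fun y _ => h1 y), Finset.sum_add_distrib, Finset.sum_const,
    Finset.card_univ, nsmul_eq_mul, mul_one]
  have h2 : ∑ y : Col a q, (if y.1 = true then (if lab0 y i = k then (1 : ℝ) else 0) else 0) =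
      2 ^ a := by
    rw [Fintype.sum_prod_type, Fintype.sum_bool]
    simp only [if_true, Bool.false_eq_true, if_false, Finset.sum_const_zero, add_zero]
    rw [Fintype.sum_prod_type, Finset.sum_comm]
    have h3 : ∀ ε : Fin a → Bool, ∑ L : Fin q,
        (if lab0 ((true, L, ε) : Col a q) i = k then (1 : ℝ) else 0) = 1 := by
      intro ε
      rw [Finset.sum_eq_single (k - (if ε i = true then 1 else 0))]
      · rw [lab0, if_pos (sub_add_cancel _ _)]
      · intro L _ hL
        rw [if_neg]
        intro h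
        exact hL (by rw [← h, lab0, add_sub_cancel_right])
      · intro h
        exact absurd (Finset.mem_univ _) h
    rw [Finset.sum_congr rfl (fun ε _ => h3 ε), Finset.sum_const, Finset.card_univ,
      Fintype.card_fun, Fintype.card_bool, Fintype.card_fin, nsmul_eq_mul]
    push_cast
    ring
  rw [h2, card_Col]
  field_simp

lemma sum_bits {a : ℕ} {i j : Fin a} (hij : i ≠ j) (d : Bool) :
    ∑ ε : Fin a → Bool, (if ε i = false ∧ ε j = d then (1 : ℝ) else 0) = 2 ^ a / 4 := by
  classical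
  let w : Fin a → Bool → ℝ := fun l b =>
    (if l = i then (if b = false then 1 else 0) else 1) *
      (if l = j then (if b = d then 1 else 0) else 1)
  have h1 : ∀ ε : Fin a → Bool, (if ε i = false ∧ ε j = d then (1 : ℝ) else 0) =
      ∏ l, w l (ε l) := by
    intro ε
    simp only [w]
    rw [Finset.prod_mul_distrib, Finset.prod_ite_eq' univ i, Finset.prod_ite_eq' univ j,
      if_pos (Finset.mem_univ _), if_pos (Finset.mem_univ _)]
    by_cases h1 : ε i = false
    · by_cases h2 : ε j = d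
      · rw [if_pos ⟨h1, h2⟩, if_pos h1, if_pos h2, one_mul]
      · rw [if_neg (fun h => h2 h.2), if_neg h2, mul_zero]
    · rw [if_neg (fun h => h1 h.1), if_neg h1, zero_mul]
  rw [Finset.sum_congr rfl (fun ε _ => h1 ε)]
  have h2 := Finset.prod_univ_sum (fun _ : Fin a => (univ : Finset Bool)) w
  rw [Fintype.piFinset_univ] at h2
  rw [← h2]
  have h3 : ∀ l, ∑ b, w l b = 2 * ((if l = i then 1 / 2 else 1) * (if l = j then 1 / 2 else 1)) := by
    intro l
    simp only [w, Fintype.sum_bool]
    by_cases hi : l = i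
    · have hj : l ≠ j := fun h => hij (hi.symm.trans h)
      simp [hi, hj, hij]
    · by_cases hj : l = j
      · subst hj
        cases d <;> simp [hi]
      · simp [hi, hj]
        norm_num
  rw [Finset.prod_congr rfl (fun l _ => h3 l), Finset.prod_mul_distrib, Finset.prod_mul_distrib,
    Finset.prod_const, Finset.card_univ, Fintype.card_fin,
    Finset.prod_ite_eq' univ i (fun _ => (1 / 2 : ℝ)),
    Finset.prod_ite_eq' univ j (fun _ => (1 / 2 : ℝ)), if_pos (Finset.mem_univ _),
    if_pos (Finset.mem_univ _)]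
  ring

lemma sum_pat {a q : ℕ} [NeZero q] {i j : Fin a} (hij : i ≠ j) (k : Fin q) (d : Bool) :
    ∑ y : Col a q, (if y.1 = true ∧ y.2.1 = k ∧ y.2.2 i = false ∧ y.2.2 j = d then (0 : ℝ)
      else 1) = Fintype.card (Col a q) * (1 - 1 / (8 * q)) := by
  have hq : (0 : ℝ) < q := by
    exact_mod_cast Nat.pos_of_ne_zero (NeZero.ne q)
  have h1 : ∀ y : Col a q, (if y.1 = true ∧ y.2.1 = k ∧ y.2.2 i = false ∧ y.2.2 j = d then (0 : ℝ)
      else 1) = 1 - (if y.1 = true then (if y.2.1 = k then
        (if y.2.2 i = false ∧ y.2.2 j = d then 1 else 0) else 0) else 0) := by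
    intro y
    by_cases h1 : y.1 = true
    · by_cases h2 : y.2.1 = k
      · by_cases h3 : y.2.2 i = false ∧ y.2.2 j = d
        · rw [if_pos ⟨h1, h2, h3⟩, if_pos h1, if_pos h2, if_pos h3, sub_self]
        · rw [if_neg (fun h => h3 h.2.2), if_pos h1, if_pos h2, if_neg h3, sub_zero]
      · rw [if_neg (fun h => h2 h.2.1), if_pos h1, if_neg h2, sub_zero]
    · rw [if_neg (fun h => h1 h.1), if_neg h1, sub_zero]
  rw [Finset.sum_congr rfl (fun y _ => h1 y), Finset.sum_sub_distrib, Finset.sum_const,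
    Finset.card_univ, nsmul_eq_mul, mul_one]
  have h2 : ∑ y : Col a q, (if y.1 = true then (if y.2.1 = k then
        (if y.2.2 i = false ∧ y.2.2 j = d then (1 : ℝ) else 0) else 0) else 0) = 2 ^ a / 4 := by
    rw [Fintype.sum_prod_type, Fintype.sum_bool]
    simp only [if_true, Bool.false_eq_true, if_false, Finset.sum_const_zero, add_zero]
    rw [Fintype.sum_prod_type, Finset.sum_eq_single k]
    · simp only [if_true]
      exact sum_bits hij d
    · intro L _ hL
      simp only [if_neg hL, Finset.sum_const_zero]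
    · intro h
      exact absurd (Finset.mem_univ _) h
  rw [h2, card_Col]
  field_simp
  ring

/-- Completing a partial labelling to a balanced one. -/
lemma fill {a q N : ℕ} (C D : Finset (Fin N)) (hD : D ⊆ C) (g : Fin N → Fin q)
    (hr : ∀ k, (D.filter (fun t => g t = k)).card ≤ a) (hC : C.card = q * a) :
    ∃ lab : Fin N → Fin q, (∀ t ∈ D, lab t = g t) ∧
      ∀ k, (C.filter (fun t => lab t = k)).card = a := by
  classical
  let m : Fin q → ℕ := fun k => a - (D.filter (fun t => g t = k)).card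
  have hsum : ∑ k, m k = (C \ D).card := by
    have h1 : ∑ k : Fin q, (D.filter (fun t => g t = k)).card = D.card :=
      (Finset.card_eq_sum_card_fiberwise (fun t _ => Finset.mem_univ (g t))).symm
    have h2 : ∑ k : Fin q, (m k + (D.filter (fun t => g t = k)).card) = q * a := by
      rw [Finset.sum_congr rfl (fun k _ => Nat.sub_add_cancel (hr k)), Finset.sum_const,
        Finset.card_univ, Fintype.card_fin, smul_eq_mul]
    rw [Finset.sum_add_distrib, h1] at h2
    rw [Finset.card_sdiff_of_subset hD, hC]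
    omega
  have hE : Nonempty ({t // t ∈ C \ D} ≃ Σ k, Fin (m k)) := by
    refine ⟨Fintype.equivOfCardEq ?_⟩
    rw [Fintype.card_coe, Fintype.card_sigma]
    simp only [Fintype.card_fin]
    exact hsum.symm
  let E := hE.some
  let lab : Fin N → Fin q := fun t => if h : t ∈ C \ D then (E ⟨t, h⟩).1 else g t
  have hlabD : ∀ t ∈ D, lab t = g t := by
    intro t ht
    exact dif_neg (fun h => (Finset.mem_sdiff.1 h).2 ht)
  refine ⟨lab, hlabD, fun k => ?_⟩
  have h1 : (C.filter (fun t => lab t = k)).card = (D.filter (fun t => lab t = k)).card +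
      ((C \ D).filter (fun t => lab t = k)).card := by
    rw [← Finset.card_union_of_disjoint, ← Finset.filter_union, Finset.union_sdiff_of_subset hD]
    exact Finset.disjoint_filter_filter Finset.disjoint_sdiff
  have h2 : (D.filter (fun t => lab t = k)).card = (D.filter (fun t => g t = k)).card := by
    congr 1
    apply Finset.filter_congr
    intro t ht
    rw [hlabD t ht]
  have h3 : ((C \ D).filter (fun t => lab t = k)).card = m k := by
    have h4 : ((C \ D).filter (fun t => lab t = k)).card = (univ : Finset (Fin (m k))).card := by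
      symm
      apply Finset.card_bij (fun s _ => ((E.symm ⟨k, s⟩ : {t // t ∈ C \ D}) : Fin N))
      · intro s _
        rw [Finset.mem_filter]
        refine ⟨(E.symm ⟨k, s⟩).2, ?_⟩
        have h5 : lab ((E.symm ⟨k, s⟩ : {t // t ∈ C \ D}) : Fin N) = (E (E.symm ⟨k, s⟩)).1 :=
          dif_pos (E.symm ⟨k, s⟩).2
        rw [h5, Equiv.apply_symm_apply]
      · intro s _ s' _ h
        have h5 := E.symm.injective (Subtype.ext h)
        simpa using h5
      · intro t ht
        rw [Finset.mem_filter] at ht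
        have h5 : lab t = (E ⟨t, ht.1⟩).1 := dif_pos ht.1
        obtain ⟨⟨k', s⟩, hks⟩ : ∃ x, E ⟨t, ht.1⟩ = x := ⟨_, rfl⟩
        have h6 : k' = k := by
          rw [← ht.2, h5, hks]
        subst h6
        refine ⟨s, Finset.mem_univ _, ?_⟩
        rw [← hks, Equiv.symm_apply_apply]
    rw [h4, Finset.card_univ, Fintype.card_fin]
  rw [h1, h2, h3]
  have := hr k
  simp only [m]
  omega

theorem sepLab_of_prob {a q N θ : ℕ} (hq : 1 ≤ q) (C : Fin a → Finset (Fin N))
    (hC : ∀ i, (C i).card = q * a) (hθ : ∀ i j, i ≠ j → θ ≤ (C i ∩ C j).card)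
    (hb : (a * q : ℝ) * ((1 + 1 / (2 * q : ℝ)) ^ (q * a) / 2 ^ (a + 1)) +
      ((a * (a - 1) * (q - 1) : ℕ) : ℝ) * (1 - 1 / (8 * q : ℝ)) ^ θ < 1) : SepLab (q := q) C := by
  classical
  haveI : NeZero q := ⟨by omega⟩
  have hqR : (1 : ℝ) ≤ q := by exact_mod_cast hq
  have hq0 : (0 : ℝ) < q := by linarith
  have hPr := card_pairs a
  set Pr : Finset (Fin a × Fin a) := univ.filter (fun p => p.1 < p.2) with hPrdef
  let kk : Fin (q - 1) → Fin q := fun k => ⟨k, by omega⟩
  let T : Finset ((Fin a × Fin q) ⊕ ((Fin a × Fin a) × (Fin (q - 1) × Bool))) :=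
    (univ : Finset (Fin a × Fin q)).disjSum (Pr ×ˢ (univ : Finset (Fin (q - 1) × Bool)))
  let f : (Fin a × Fin q) ⊕ ((Fin a × Fin a) × (Fin (q - 1) × Bool)) →
      (Fin N → Col a q) → ℝ := fun p ω => Sum.elim
    (fun p => (∏ t ∈ C p.1, (if (ω t).1 = true ∧ lab0 (ω t) p.1 = p.2 then (2 : ℝ) else 1)) /
      2 ^ (a + 1))
    (fun p => ∏ t ∈ C p.1.1 ∩ C p.1.2, (if (ω t).1 = true ∧ (ω t).2.1 = kk p.2.1 ∧
      (ω t).2.2 p.1.1 = false ∧ (ω t).2.2 p.1.2 = p.2.2 then (0 : ℝ) else 1)) p
  let c : (Fin a × Fin q) ⊕ ((Fin a × Fin a) × (Fin (q - 1) × Bool)) → ℝ := fun p => Sum.elim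
    (fun _ => (1 + 1 / (2 * q : ℝ)) ^ (q * a) / 2 ^ (a + 1))
    (fun _ => (1 - 1 / (8 * q : ℝ)) ^ θ) p
  have hx0 : 0 ≤ 1 - 1 / (8 * q : ℝ) := by
    rw [sub_nonneg, div_le_one (by positivity)]
    linarith
  have hx1 : 1 - 1 / (8 * q : ℝ) ≤ 1 := by
    have : 0 ≤ 1 / (8 * q : ℝ) := by positivity
    linarith
  obtain ⟨ω, hω⟩ := union_bound' T f c (by
      intro p _ ω
      rcases p with p | p
      · apply div_nonneg _ (by positivity)
        apply Finset.prod_nonneg
        intro t _
        split_ifs <;> norm_num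
      · apply Finset.prod_nonneg
        intro t _
        split_ifs <;> norm_num) (by
      intro p hp
      rcases p with p | p
      · have h1 := indep (C p.1) (fun y : Col a q =>
          if y.1 = true ∧ lab0 y p.1 = p.2 then (2 : ℝ) else 1) _ (sum_size p.1 p.2)
        simp only [f, c, Sum.elim_inl]
        rw [← Finset.sum_div, h1, hC, mul_div_assoc]
      · have hlt : p.1.1 < p.1.2 := by
          have h1 := Finset.inr_mem_disjSum.1 hp
          exact (Finset.mem_filter.1 (Finset.mem_product.1 h1).1).2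
        have h1 := indep (C p.1.1 ∩ C p.1.2) (fun y : Col a q =>
          if y.1 = true ∧ y.2.1 = kk p.2.1 ∧ y.2.2 p.1.1 = false ∧ y.2.2 p.1.2 = p.2.2 then
            (0 : ℝ) else 1) _ (sum_pat hlt.ne (kk p.2.1) p.2.2)
        simp only [f, c, Sum.elim_inr]
        rw [h1]
        apply mul_le_mul_of_nonneg_left _ (Nat.cast_nonneg _)
        exact pow_le_pow_of_le_one hx0 hx1 (hθ _ _ hlt.ne)) (by
      simp only [T, Finset.sum_disjSum, c, Sum.elim_inl, Sum.elim_inr, Finset.sum_const,
        Finset.card_univ, Fintype.card_prod, Fintype.card_fin, Fintype.card_bool,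
        Finset.card_product, nsmul_eq_mul]
      refine lt_of_eq_of_lt ?_ hb
      rw [← hPr]
      push_cast
      ring)
  -- sizes of the reserved classes
  let D : Fin a → Finset (Fin N) := fun i => (C i).filter (fun t => (ω t).1 = true)
  have hr : ∀ i k, ((D i).filter (fun t => lab0 (ω t) i = k)).card ≤ a := by
    intro i k
    have h1 := hω (Sum.inl (i, k)) (Finset.inl_mem_disjSum.2 (Finset.mem_univ _))
    simp only [f, Sum.elim_inl] at h1
    rw [div_lt_one (by positivity), Finset.prod_ite, Finset.prod_const, Finset.prod_const_one,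
      mul_one] at h1
    have h2 := (pow_lt_pow_iff_right₀ (by norm_num : (1 : ℝ) < 2)).1 h1
    have h3 : (D i).filter (fun t => lab0 (ω t) i = k) =
        (C i).filter (fun t => (ω t).1 = true ∧ lab0 (ω t) i = k) := by
      simp only [D]
      rw [Finset.filter_filter]
    rw [h3]
    omega
  choose lab hlab hsize using fun i => fill (C i) (D i) (Finset.filter_subset _ _)
    (fun t => lab0 (ω t) i) (hr i) (hC i)
  -- patterns
  have hpat : ∀ i j, i < j → ∀ (k : Fin (q - 1)) (d : Bool), ∃ t ∈ C i ∩ C j,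
      lab i t = kk k ∧ lab j t = kk k + (if d = true then 1 else 0) := by
    intro i j hij k d
    have h1 := hω (Sum.inr ((i, j), (k, d))) (Finset.inr_mem_disjSum.2 (Finset.mem_product.2
      ⟨Finset.mem_filter.2 ⟨Finset.mem_univ _, hij⟩, Finset.mem_univ _⟩))
    simp only [f, Sum.elim_inr] at h1
    have h2 : ∃ t ∈ C i ∩ C j, (ω t).1 = true ∧ (ω t).2.1 = kk k ∧ (ω t).2.2 i = false ∧
        (ω t).2.2 j = d := by
      by_contra hno
      push Not at hno
      rw [Finset.prod_eq_one] at h1
      · exact lt_irrefl _ h1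
      · intro t ht
        rw [if_neg]
        rintro ⟨h3, h4, h5, h6⟩
        exact hno t ht h3 h4 h5 h6
    obtain ⟨t, ht, h3, h4, h5, h6⟩ := h2
    have ht' := Finset.mem_inter.1 ht
    refine ⟨t, ht, ?_, ?_⟩
    · rw [hlab i t (Finset.mem_filter.2 ⟨ht'.1, h3⟩), lab0, h4, h5]
      simp
    · rw [hlab j t (Finset.mem_filter.2 ⟨ht'.2, h3⟩), lab0, h4, h6]
  refine ⟨lab, hsize, ?_, ?_⟩
  · intro i j hij k hk
    obtain ⟨t, ht, h1, h2⟩ := hpat i j hij ⟨k, by omega⟩ false
    refine ⟨t, ht, h1, h2.trans ?_⟩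
    simp [kk]
  · intro i j hij k k' hk
    have := k'.2
    obtain ⟨t, ht, h1, h2⟩ := hpat i j hij ⟨k, by omega⟩ true
    refine ⟨t, ht, h1, h2.trans ?_⟩
    apply Fin.ext
    have h3 : ((1 : Fin q) : ℕ) = 1 := by
      rw [Fin.val_one']
      exact Nat.mod_eq_of_lt (by omega)
    have h4 : ((kk ⟨k, by omega⟩ : Fin q) : ℕ) = k := rfl
    simp only [if_true]
    rw [Fin.val_add, h3, h4, hk]
    exact Nat.mod_eq_of_lt (by omega)

end Vale.Agent.P181.H179
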