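import Vale.Agent.P181.H179.P8
import Vale.Agent.P181.H179.P9

set_option autoImplicit false

open scoped TensorProduct

namespace Vale.Agent.P181.H179

open Vale.Agent.P181 Vale.Agent.P181.H280

lemma pow_bound (a : ℕ) (ha : 38 ≤ a) :
    (a : ℝ) ^ 4 * (2.7182818286 : ℝ) ^ a < 4 ^ a := by
  induction a, ha using Nat.le_induction with
  | base => norm_num
  | succ a ha ih =>
    have haR : (38 : ℝ) ≤ a := by exact_mod_cast ha
    have h1 : ((a + 1 : ℕ) : ℝ) ≤ (39 / 38) * a := by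
      push_cast
      linarith
    have h2 : ((a + 1 : ℕ) : ℝ) ^ 4 ≤ ((39 / 38) * a) ^ 4 :=
      pow_le_pow_left₀ (Nat.cast_nonneg _) h1 4
    have h3 : (0 : ℝ) < (2.7182818286 : ℝ) ^ a := by positivity
    calc ((a + 1 : ℕ) : ℝ) ^ 4 * (2.7182818286 : ℝ) ^ (a + 1) ≤
        ((39 / 38) * a) ^ 4 * (2.7182818286 : ℝ) ^ (a + 1) :=
          mul_le_mul_of_nonneg_right h2 (by positivity)
      _ = ((39 / 38) ^ 4 * 2.7182818286) * ((a : ℝ) ^ 4 * (2.7182818286 : ℝ) ^ a) := by ring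
      _ ≤ 4 * ((a : ℝ) ^ 4 * (2.7182818286 : ℝ) ^ a) := by
          apply mul_le_mul_of_nonneg_right _ (by positivity)
          norm_num
      _ < 4 * 4 ^ a := by linarith
      _ = 4 ^ (a + 1) := by ring

lemma exp_bound (a : ℕ) (ha : 38 ≤ a) : (a : ℝ) ^ 2 * Real.exp (a / 2) < 2 ^ a := by
  have h1 : Real.exp (a : ℝ) ≤ (2.7182818286 : ℝ) ^ a := by
    have h2 : Real.exp (a : ℝ) = Real.exp 1 ^ a := by
      rw [← Real.exp_nat_mul, mul_one]
    rw [h2]
    exact pow_le_pow_left₀ (Real.exp_nonneg _) Real.exp_one_lt_d9.le a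
  apply lt_of_pow_lt_pow_left₀ 2 (by positivity)
  calc ((a : ℝ) ^ 2 * Real.exp (a / 2)) ^ 2 = (a : ℝ) ^ 4 * Real.exp a := by
        have h3 : Real.exp ((a : ℝ) / 2) ^ 2 = Real.exp a := by
          rw [← Real.exp_nat_mul]
          congr 1
          push_cast
          ring
        rw [mul_pow, h3]
        ring
    _ ≤ (a : ℝ) ^ 4 * (2.7182818286 : ℝ) ^ a := mul_le_mul_of_nonneg_left h1 (by positivity)
    _ < 4 ^ a := pow_bound a ha
    _ = (2 ^ a) ^ 2 := by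
        rw [← pow_mul, mul_comm, pow_mul]
        norm_num

lemma prob_bound {a q θ : ℕ} (ha : 38 ≤ a) (hq : 1 ≤ q) (hqa : q ≤ a)
    (hθ : 8 * q * Real.log (2 * a ^ 2 * q) ≤ θ) :
    (a * q : ℝ) * ((1 + 1 / (2 * q : ℝ)) ^ (q * a) / 2 ^ (a + 1)) +
      ((a * (a - 1) * (q - 1) : ℕ) : ℝ) * (1 - 1 / (8 * q : ℝ)) ^ θ < 1 := by
  have hqR : (1 : ℝ) ≤ q := by exact_mod_cast hq
  have hq0 : (0 : ℝ) < q := by linarith
  have haR : (38 : ℝ) ≤ a := by exact_mod_cast ha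
  have ha0 : (0 : ℝ) < a := by linarith
  have hqaR : (q : ℝ) ≤ a := by exact_mod_cast hqa
  have h1 : (a * q : ℝ) * ((1 + 1 / (2 * q : ℝ)) ^ (q * a) / 2 ^ (a + 1)) < 1 / 2 := by
    have h2 : (1 + 1 / (2 * q : ℝ)) ^ (q * a) ≤ Real.exp (a / 2) := by
      have h3 : 1 + 1 / (2 * q : ℝ) ≤ Real.exp (1 / (2 * q)) := by
        have := Real.add_one_le_exp (1 / (2 * q : ℝ))
        linarith
      calc (1 + 1 / (2 * q : ℝ)) ^ (q * a) ≤ Real.exp (1 / (2 * q)) ^ (q * a) :=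
            pow_le_pow_left₀ (by positivity) h3 _
        _ = Real.exp (a / 2) := by
            rw [← Real.exp_nat_mul]
            congr 1
            push_cast
            field_simp
    have h3 := exp_bound a ha
    have h4 : (a * q : ℝ) * ((1 + 1 / (2 * q : ℝ)) ^ (q * a) / 2 ^ (a + 1)) ≤
        (a : ℝ) ^ 2 * Real.exp (a / 2) / 2 ^ (a + 1) := by
      rw [← mul_div_assoc]
      apply div_le_div_of_nonneg_right _ (by positivity)
      calc (a * q : ℝ) * (1 + 1 / (2 * q : ℝ)) ^ (q * a) ≤ (a * q : ℝ) * Real.exp (a / 2) :=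
            mul_le_mul_of_nonneg_left h2 (by positivity)
        _ ≤ (a : ℝ) ^ 2 * Real.exp (a / 2) := by
            apply mul_le_mul_of_nonneg_right _ (Real.exp_nonneg _)
            rw [pow_two]
            exact mul_le_mul_of_nonneg_left hqaR ha0.le
    refine lt_of_le_of_lt h4 ?_
    rw [div_lt_iff₀ (by positivity), pow_succ (2 : ℝ) a]
    linarith
  have h2 : ((a * (a - 1) * (q - 1) : ℕ) : ℝ) * (1 - 1 / (8 * q : ℝ)) ^ θ ≤ 1 / 2 := by
    have h3 : (1 - 1 / (8 * q : ℝ)) ^ θ ≤ 1 / (2 * a ^ 2 * q) := by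
      have h4 : 1 - 1 / (8 * q : ℝ) ≤ Real.exp (-(1 / (8 * q))) :=
        Real.one_sub_le_exp_neg _
      have h5 : 0 ≤ 1 - 1 / (8 * q : ℝ) := by
        rw [sub_nonneg, div_le_one (by positivity)]
        linarith
      calc (1 - 1 / (8 * q : ℝ)) ^ θ ≤ Real.exp (-(1 / (8 * q))) ^ θ := pow_le_pow_left₀ h5 h4 _
        _ = Real.exp (θ * -(1 / (8 * q))) := by rw [← Real.exp_nat_mul]
        _ ≤ Real.exp (-Real.log (2 * a ^ 2 * q)) := by
            apply Real.exp_le_exp.2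
            have h6 : Real.log (2 * a ^ 2 * q) ≤ θ * (1 / (8 * q)) := by
              rw [mul_one_div, le_div_iff₀ (by positivity)]
              linarith
            linarith
        _ = 1 / (2 * a ^ 2 * q) := by
            rw [Real.exp_neg, Real.exp_log (by positivity), one_div]
    have h4 : ((a * (a - 1) * (q - 1) : ℕ) : ℝ) ≤ a ^ 2 * q := by
      have h5 : a * (a - 1) * (q - 1) ≤ a ^ 2 * q := by
        rw [pow_two]
        exact Nat.mul_le_mul (Nat.mul_le_mul_left _ (Nat.sub_le _ _)) (Nat.sub_le _ _)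
      exact_mod_cast h5
    calc ((a * (a - 1) * (q - 1) : ℕ) : ℝ) * (1 - 1 / (8 * q : ℝ)) ^ θ ≤
        (a ^ 2 * q) * (1 / (2 * a ^ 2 * q)) := by
          apply mul_le_mul h4 h3 _ (by positivity)
          apply pow_nonneg
          rw [sub_nonneg, div_le_one (by positivity)]
          linarith
      _ = 1 / 2 := by
          field_simp
  linarith

/-- The two sufficient conditions on `θ`. -/
def Thr (a q θ : ℕ) : Prop :=
  a * (a - 1) * (q - 1) * (q ^ 2 - 1) ^ θ < q ^ (2 * θ) ∨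
    (38 ≤ a ∧ q ≤ a ∧ 8 * (q : ℝ) * Real.log (2 * (a : ℝ) ^ 2 * q) ≤ θ)

theorem sepLab_of_thr {a q N θ : ℕ} (hq : 1 ≤ q) (h : Thr a q θ) (C : Fin a → Finset (Fin N))
    (hC : ∀ i, (C i).card = q * a) (hθ : ∀ i j, i ≠ j → θ ≤ (C i ∩ C j).card) :
    SepLab (q := q) C := by
  rcases h with h | ⟨ha, hqa, h⟩
  · exact sepLab_of_bound hq C hC hθ h
  · exact sepLab_of_prob hq C hC hθ (prob_bound ha hq hqa h)

variable {n : ℕ}

theorem powMap_bulk' {a q θ : ℕ} (hq : 1 ≤ q) (h : Thr a q θ)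
    (lam : Fin (n + 1) → ℕ) (hlam : ∀ m, lam m + θ ≤ 2 * (q * a))
    (x : Sym[ℂ]^a (Sym[ℂ]^(q * a) (Fin (n + 1) → ℂ)))
    (hx : x ∈ hwSpace lam (plethAct a (q * a) (n + 1)))
    (hx0 : powMap a q (Fin (n + 1) → ℂ) x = 0) : x = 0 := by
  have h0 := hlam 0
  refine powMap_inj_of_sep (N := 2 * (q * a) - θ) (θ := θ) lam (fun m => by
    have := hlam m
    omega) (by omega) ?_ x hx hx0
  intro N' _ C hC hθ
  exact sepLab_of_thr hq h C hC hθ

theorem bulk' {a q θ : ℕ} (hq : 1 ≤ q) (h : Thr a q θ)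
    (lam : Fin (n + 1) → ℕ) (hlam : ∀ m, lam m + θ ≤ 2 * (q * a)) :
    plethMult a (q * a) (n + 1) lam ≤ plethMult (q * a) a (n + 1) lam :=
  finrank_le_of_inj (powMap a q (Fin (n + 1) → ℂ)) _ _ (fun x hx => powMap_hwSpace lam x hx)
    (fun x hx h0 => powMap_bulk' hq h lam hlam x hx h0)

theorem bulk_prop' {a q θ k : ℕ} (hq : 1 ≤ q) (h : Thr a q θ)
    (lam : Fin (n + 1) → ℕ) (h0 : lam 0 + θ ≤ 2 * (q * a) + a * k)
    (h1 : ∀ i, i ≠ 0 → lam i + θ ≤ 2 * (q * a)) (hk : ∀ i, i ≠ 0 → lam i ≤ q * a) :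
    plethMult a (q * a + k) (n + 1) lam ≤ plethMult (q * a + k) a (n + 1) lam := by
  apply reduction a (q * a) k lam hk
  intro c hc
  apply bulk' hq h
  intro m
  by_cases hm : m = 0
  · subst hm
    rw [Function.update_self]
    omega
  · rw [Function.update_of_ne hm]
    exact h1 m hm

end Vale.Agent.P181.H179
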