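import Vale.Agent.P181.H179.P1

set_option autoImplicit false

namespace Vale.Agent.P181.H179

open Vale.Agent.P181 Vale.Agent.P181.H280 Finset MvPolynomial

variable {n a : ℕ}

/-- The `m`-th letter (zero if `m ≥ n`). -/
noncomputable def xN (n m : ℕ) : MvPolynomial (Fin n) ℂ := if h : m < n then X ⟨m, h⟩ else 0

/-- The derivation dual to the `m`-th letter. -/
noncomputable def dN (n m : ℕ) : Derivation ℂ (MvPolynomial (Fin n) ℂ) (MvPolynomial (Fin n) ℂ) :=
  if h : m < n then pderiv ⟨m, h⟩ else 0

lemma dN_xN {m k : ℕ} (hm : m < n) : dN n m (xN n k) = if k = m then 1 else 0 := by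
  rw [dN, dif_pos hm, xN]
  by_cases hk : k = m
  · subst hk
    rw [dif_pos hm, if_pos rfl, pderiv_X_self]
  · rw [if_neg hk]
    split_ifs with h
    · exact pderiv_X_of_ne (fun hh => hk (congrArg Fin.val hh))
    · exact map_zero _

lemma dN_ge {m : ℕ} (hm : n ≤ m) (P : MvPolynomial (Fin n) ℂ) : dN n m P = 0 := by
  rw [dN, dif_neg (by omega)]
  rfl

/-- Highest weight forms of weight `c` on all polynomials. -/
def HWF (c : ℕ → ℂ) (F : MultilinearMap ℂ (fun _ : Fin a => MvPolynomial (Fin n) ℂ) ℂ) : Prop :=
  ∀ m k : ℕ, m ≤ k → ∀ Q : Fin a → MvPolynomial (Fin n) ℂ,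
    ∑ i, F (Function.update Q i (xN n k * dN n m (Q i))) = (if k = m then c m else 0) * F Q

/-- A highest weight form killed by all contractions with columns of length `l` is zero. -/
theorem chain {l : ℕ} (hl : l ≤ n) {c : ℕ → ℂ}
    {F : MultilinearMap ℂ (fun _ : Fin a => MvPolynomial (Fin n) ℂ) ℂ} (hF : HWF c F)
    (hc : ∀ m, m < l → c m + ((l - 1 - m : ℕ) : ℂ) ≠ 0)
    (h0 : ∀ e : Fin l → Fin a, ctr F (fun s : Fin l => xN n s) e = 0) : F = 0 := by
  have main : ∀ t r, r + t = l → ∀ e : Fin r → Fin a,
      ctr F (fun s : Fin r => xN n (t + s)) e = 0 := by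
    intro t
    induction t with
    | zero =>
      intro r hr e
      have hr' : r = l := by omega
      subst hr'
      simpa using h0 e
    | succ t ih =>
      intro r hr e
      have htn : t < n := by omega
      have h5 : (fun s : Fin r => xN n (t + 1 + s)) =
          fun s : Fin r => (fun s : Fin (r + 1) => xN n (t + s)) s.succ := by
        funext s
        simp only [Fin.val_succ]
        congr 1
        ring
      apply MultilinearMap.ext
      intro P
      have h1 := cap_step F (fun s : Fin (r + 1) => xN n (t + s)) (dN n t) (c t) (by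
          rw [dN_xN htn]
          simp) (by
          intro s
          rw [dN_xN htn, if_neg]
          simp only [Fin.val_succ]
          omega) (by
          intro k Q
          rw [hF t (t + k) (by omega) Q]
          congr 1
          by_cases hk : k = 0
          · subst hk
            simp
          · have hk' : (k : ℕ) ≠ 0 := fun h => hk (Fin.ext h)
            rw [if_neg hk, if_neg (by omega)]) e P
      have h2 : ∀ i, ctr F (fun s : Fin (r + 1) => xN n (t + s))
          (Fin.cons i e : Fin (r + 1) → Fin a) = 0 := fun i => ih (r + 1) (by omega) _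
      simp only [h2, zero_apply, Finset.sum_const_zero] at h1
      have h3 : c t + (r : ℂ) ≠ 0 := by
        have h := hc t (by omega)
        have hr' : l - 1 - t = r := by omega
        rwa [hr'] at h
      have h4 := (mul_eq_zero.1 h1.symm).resolve_left h3
      rw [h5, h4]
      rfl
  have h1 := main l 0 (by omega) (fun s => s.elim0)
  apply MultilinearMap.ext
  intro P
  have h2 := congrArg (fun G => G P) h1
  simp only [ctr_apply, zero_apply] at h2
  simpa [plc] using h2

/-- The monomials span. -/
lemma exists_mono {F : MultilinearMap ℂ (fun _ : Fin a => MvPolynomial (Fin n) ℂ) ℂ}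
    (hF : F ≠ 0) : ∃ d : Fin a → (Fin n →₀ ℕ), F (fun i => monomial (d i) 1) ≠ 0 := by
  by_contra h
  push Not at h
  apply hF
  apply MultilinearMap.ext
  intro P
  apply multilinear_zero_of_span F (Set.range (fun d : Fin n →₀ ℕ =>
    (monomial d 1 : MvPolynomial (Fin n) ℂ)))
  · intro w hw
    choose d hd using hw
    have hw' : w = fun i => monomial (d i) 1 := by
      funext i
      exact (hd i).symm
    rw [hw']
    exact h d
  · intro i
    have h1 := (basisMonomials (Fin n) ℂ).span_eq
    rw [coe_basisMonomials] at h1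
    rw [h1]
    trivial

/-- Weights of monomials. -/
lemma weight_mono {c : ℕ → ℂ} {F : MultilinearMap ℂ (fun _ : Fin a => MvPolynomial (Fin n) ℂ) ℂ}
    (hF : HWF c F) (d : Fin a → (Fin n →₀ ℕ)) (hne : F (fun i => monomial (d i) 1) ≠ 0)
    (m : Fin n) : c m = ((∑ i, d i m : ℕ) : ℂ) := by
  have h1 := hF m m le_rfl (fun i => monomial (d i) 1)
  rw [if_pos rfl] at h1
  have h2 : ∀ i, F (Function.update (fun i => (monomial (d i) 1 : MvPolynomial (Fin n) ℂ)) i
      (xN n m * dN n m (monomial (d i) 1))) = (d i m : ℂ) * F (fun i => monomial (d i) 1) := by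
    intro i
    have h3 : xN n m * dN n m (monomial (d i) 1) =
        (d i m : ℂ) • (monomial (d i) 1 : MvPolynomial (Fin n) ℂ) := by
      rw [xN, dN, dif_pos m.2, dif_pos m.2]
      rw [X_mul_pderiv_monomial, Nat.cast_smul_eq_nsmul]
    rw [h3, MultilinearMap.map_update_smul, smul_eq_mul]
    congr 2
    exact Function.update_eq_self i _
  rw [Finset.sum_congr rfl (fun i _ => h2 i), ← Finset.sum_mul] at h1
  have h4 := mul_right_cancel₀ hne h1
  rw [← h4]
  push_cast
  rfl

/-- A letter of weight zero does not occur. -/
lemma kill_letter {c : ℕ → ℂ} {F : MultilinearMap ℂ (fun _ : Fin a => MvPolynomial (Fin n) ℂ) ℂ}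
    (hF : HWF c F) {k : ℕ} (hk : c k = 0) (i : Fin a) (Q : Fin a → MvPolynomial (Fin n) ℂ)
    (R : MvPolynomial (Fin n) ℂ) (hQ : Q i = xN n k * R) : F Q = 0 := by
  classical
  by_cases hkn : k < n
  · have h1 : mulArg F (Function.update (fun _ => 1) i (xN n k)) = 0 := by
      by_contra hne
      obtain ⟨d, hd⟩ := exists_mono hne
      rw [mulArg_apply] at hd
      let d' : Fin a → (Fin n →₀ ℕ) := Function.update d i (Finsupp.single ⟨k, hkn⟩ 1 + d i)
      have h2 : (fun j => (Function.update (fun _ => (1 : MvPolynomial (Fin n) ℂ)) i (xN n k)) j *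
          monomial (d j) 1) = fun j => (monomial (d' j) 1 : MvPolynomial (Fin n) ℂ) := by
        funext j
        by_cases hj : j = i
        · subst hj
          simp only [d', Function.update_self]
          rw [xN, dif_pos hkn, X, monomial_mul, one_mul]
        · simp only [d', Function.update_of_ne hj, one_mul]
      rw [h2] at hd
      have h3 := weight_mono hF d' hd ⟨k, hkn⟩
      simp only [hk] at h3
      have h4 : (∑ j, d' j ⟨k, hkn⟩) = 0 := by exact_mod_cast h3.symm
      rw [Finset.sum_eq_zero_iff] at h4
      have h5 := h4 i (Finset.mem_univ _)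
      simp [d'] at h5
    have h2 : F Q = mulArg F (Function.update (fun _ => 1) i (xN n k)) (Function.update Q i R) := by
      rw [mulArg_apply]
      congr 1
      funext j
      by_cases hj : j = i
      · subst hj
        rw [Function.update_self, Function.update_self, hQ]
      · rw [Function.update_of_ne hj, Function.update_of_ne hj, one_mul]
    rw [h2, h1]
    rfl
  · apply F.map_coord_zero i
    rw [hQ, xN, dif_neg hkn, zero_mul]

/-- Contractions with the first letters preserve highest weight forms. -/
theorem HWF_ctr {l : ℕ} (hl : l ≤ n) {c : ℕ → ℂ}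
    {F : MultilinearMap ℂ (fun _ : Fin a => MvPolynomial (Fin n) ℂ) ℂ} (hF : HWF c F)
    (hc : ∀ m, l ≤ m → c m = 0) (e : Fin l → Fin a) :
    HWF (fun m => c m - if m < l then 1 else 0) (ctr F (fun s : Fin l => xN n s) e) := by
  intro m k hmk Q
  have h1 := ctr_der (xN n k • dN n m) F (if k = m then c m else 0) (hF m k hmk)
    (fun s : Fin l => xN n s) e Q
  have h2 : ∑ i, (ctr F (fun s : Fin l => xN n s) e)
      (Function.update Q i (xN n k * dN n m (Q i))) =
      ∑ i, ctr F (fun s : Fin l => xN n s) e
        (Function.update Q i ((xN n k • dN n m) (Q i))) := rfl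
  rw [h2, h1]
  by_cases hml : m < l
  · have hmn : m < n := by omega
    have h3 : ∀ u : Fin l, u ≠ ⟨m, hml⟩ → ctr F (Function.update (fun s : Fin l => xN n s) u
        ((xN n k • dN n m) (xN n u))) e Q = 0 := by
      intro u hu
      apply ctr_zero (u := u)
      rw [Function.update_self]
      have h4 : (xN n k • dN n m) (xN n u) = xN n k * dN n m (xN n u) := rfl
      rw [h4, dN_xN hmn, if_neg (fun h => hu (Fin.ext h)), mul_zero]
    rw [Finset.sum_eq_single (⟨m, hml⟩ : Fin l) (fun u _ hu => h3 u hu)
      (fun h => absurd (Finset.mem_univ _) h)]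
    have h5 : (xN n k • dN n m) (xN n ((⟨m, hml⟩ : Fin l) : ℕ)) = xN n k := by
      have h4 : (xN n k • dN n m) (xN n m) = xN n k * dN n m (xN n m) := rfl
      rw [h4, dN_xN hmn, if_pos rfl, mul_one]
    rw [h5]
    by_cases hkm : k = m
    · subst hkm
      have h6 : Function.update (fun s : Fin l => xN n s) ⟨k, hml⟩ (xN n k) =
          fun s : Fin l => xN n s := Function.update_eq_self (⟨k, hml⟩ : Fin l) _
      rw [h6, if_pos rfl, if_pos rfl]
      simp only [if_pos hml]
      ring
    · rw [if_neg hkm, if_neg hkm, zero_mul, zero_sub, neg_eq_zero]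
      by_cases hkl : k < l
      · apply ctr_letter (u := ⟨m, hml⟩) (v := ⟨k, hkl⟩)
        · intro h
          exact hkm (congrArg Fin.val h).symm
        · rw [Function.update_self, Function.update_of_ne]
          intro h
          exact hkm (congrArg Fin.val h)
      · rw [ctr_apply]
        apply Finset.sum_eq_zero
        intro σ _
        rw [kill_letter hF (hc k (by omega)) (e (σ.symm ⟨m, hml⟩)) _
          ((∏ s ∈ univ.erase (σ.symm ⟨m, hml⟩), if e s = e (σ.symm ⟨m, hml⟩) then
            (Function.update (fun s : Fin l => xN n s) ⟨m, hml⟩ (xN n k)) (σ s) else 1) *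
              Q (e (σ.symm ⟨m, hml⟩))), mul_zero]
        rw [← mul_assoc]
        congr 1
        rw [plc, ← Finset.mul_prod_erase univ _ (Finset.mem_univ (σ.symm ⟨m, hml⟩)), if_pos rfl,
          Equiv.apply_symm_apply, Function.update_self]
  · have h3 : ∀ u : Fin l, ctr F (Function.update (fun s : Fin l => xN n s) u
        ((xN n k • dN n m) (xN n u))) e Q = 0 := by
      intro u
      apply ctr_zero (u := u)
      rw [Function.update_self]
      have h4 : (xN n k • dN n m) (xN n u) = xN n k * dN n m (xN n u) := rfl
      rw [h4]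
      by_cases hmn : m < n
      · rw [dN_xN hmn, if_neg (by omega), mul_zero]
      · rw [dN_ge (by omega), mul_zero]
    rw [Finset.sum_eq_zero (fun u _ => h3 u)]
    simp only [if_neg hml, sub_zero]

end Vale.Agent.P181.H179
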