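import Vale.Agent.P181.H179.P2
import Mathlib.RingTheory.MvPolynomial.Homogeneous

set_option autoImplicit false

namespace Vale.Agent.P181.H179

open Vale.Agent.P181 Vale.Agent.P181.H280 Finset MvPolynomial

variable {n a : ℕ}

/-- The boxes of a list of columns of lengths `l`. -/
abbrev Box {N : ℕ} (l : Fin N → ℕ) := Σ t, Fin (l t)

/-- The value of the form on the columns of lengths `l`, filled by the first letters in an
alternating way, and placed in the rows `e`. -/
noncomputable def VV {N : ℕ} (F : MultilinearMap ℂ (fun _ : Fin a => MvPolynomial (Fin n) ℂ) ℂ)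
    (l : Fin N → ℕ) (e : Box l → Fin a) : ℂ :=
  ∑ σ : ∀ t, Equiv.Perm (Fin (l t)), (∏ t, ((Equiv.Perm.sign (σ t) : ℤ) : ℂ)) *
    F (fun i => ∏ p : Box l, if e p = i then xN n (σ p.1 p.2) else 1)

lemma VV_succ {N : ℕ} (F : MultilinearMap ℂ (fun _ : Fin a => MvPolynomial (Fin n) ℂ) ℂ)
    (l : Fin (N + 1) → ℕ) (e : Box l → Fin a) : VV F l e =
      VV (ctr F (fun s : Fin (l 0) => xN n s) (fun s => e ⟨0, s⟩)) (fun t => l t.succ)
        (fun p => e ⟨p.1.succ, p.2⟩) := by
  rw [VV, VV, ← Equiv.sum_comp (Fin.consEquiv (fun t => Equiv.Perm (Fin (l t)))),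
    Fintype.sum_prod_type, Finset.sum_comm]
  apply Finset.sum_congr rfl
  intro σ _
  rw [ctr_apply, Finset.mul_sum]
  apply Finset.sum_congr rfl
  intro σ0 _
  have h : (fun i => ∏ p : Box l, if e p = i then
      xN n ((Fin.consEquiv (fun t => Equiv.Perm (Fin (l t))) (σ0, σ)) p.1 p.2) else 1) =
      fun i => plc (fun s => e ⟨0, s⟩) (fun s => xN n (σ0 s)) i *
        ∏ p : Box (fun t => l t.succ), if e ⟨p.1.succ, p.2⟩ = i then
          xN n (σ p.1 p.2) else 1 := by
    funext i
    rw [Fintype.prod_sigma, Fin.prod_univ_succ, Fintype.prod_sigma]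
    rfl
  rw [h, Fin.prod_univ_succ]
  have h1 : (Fin.consEquiv (fun t => Equiv.Perm (Fin (l t))) (σ0, σ)) 0 = σ0 := rfl
  have h2 : ∀ t : Fin N, (Fin.consEquiv (fun t => Equiv.Perm (Fin (l t))) (σ0, σ)) t.succ = σ t :=
    fun _ => rfl
  simp only [h1, h2]
  ring

/-- A nonzero highest weight form does not vanish on some filling. -/
theorem exists_VV (N : ℕ) : ∀ (c : ℕ → ℕ)
    (F : MultilinearMap ℂ (fun _ : Fin a => MvPolynomial (Fin n) ℂ) ℂ),
    HWF (fun m => (c m : ℂ)) F → F ≠ 0 → (∀ m, n ≤ m → c m = 0) → (∀ m, c m ≤ N) →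
    ∃ N', N' ≤ N ∧ ∃ (l : Fin N' → ℕ) (e : Box l → Fin a), VV F l e ≠ 0 := by
  have base : ∀ (c : ℕ → ℕ) (F : MultilinearMap ℂ (fun _ : Fin a => MvPolynomial (Fin n) ℂ) ℂ),
      HWF (fun m => (c m : ℂ)) F → F ≠ 0 → (∀ m, c m = 0) →
      ∃ (l : Fin 0 → ℕ) (e : Box l → Fin a), VV F l e ≠ 0 := by
    intro c F hF hne hc
    refine ⟨fun t => t.elim0, fun p => p.1.elim0, ?_⟩
    obtain ⟨d, hd⟩ := exists_mono hne
    have h1 : ∀ i, d i = 0 := by
      intro i
      ext m
      have h2 := weight_mono hF d hd m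
      simp only [hc] at h2
      have h3 : (∑ j, d j m) = 0 := by exact_mod_cast h2.symm
      rw [Finset.sum_eq_zero_iff] at h3
      exact h3 i (Finset.mem_univ _)
    have h2 : (fun i => (monomial (d i) 1 : MvPolynomial (Fin n) ℂ)) = fun _ => 1 := by
      funext i
      rw [h1 i]
      rfl
    rw [h2] at hd
    rw [VV]
    simp only [Finset.univ_eq_empty, Finset.prod_empty, Fintype.sum_unique, one_mul]
    exact hd
  induction N with
  | zero =>
    intro c F hF hne _ hc
    obtain ⟨l, e, h⟩ := base c F hF hne (fun m => Nat.le_zero.1 (hc m))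
    exact ⟨0, le_rfl, l, e, h⟩
  | succ N ih =>
    intro c F hF hne hn hc
    by_cases h0 : ∀ m, c m = 0
    · obtain ⟨l, e, h⟩ := base c F hF hne h0
      exact ⟨0, Nat.zero_le _, l, e, h⟩
    · push Not at h0
      obtain ⟨m0, hm0⟩ := h0
      have hm0n : m0 < n := by
        by_contra h
        exact hm0 (hn m0 (by omega))
      -- the last letter of positive weight
      set g := Nat.findGreatest (fun m => c m ≠ 0) n with hg
      have hcg : c g ≠ 0 := Nat.findGreatest_spec (P := fun m => c m ≠ 0) hm0n.le hm0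
      have hgt : ∀ m, g < m → c m = 0 := by
        intro m hm
        by_cases hmn : m ≤ n
        · by_contra hcm
          exact Nat.findGreatest_is_greatest hm hmn hcm
        · exact hn m (by omega)
      have hgn : g < n := by
        by_contra h
        exact hcg (hn g (by omega))
      have hex : ∃ e0 : Fin (g + 1) → Fin a, ctr F (fun s : Fin (g + 1) => xN n s) e0 ≠ 0 := by
        by_contra hno
        push Not at hno
        apply hne
        apply chain (l := g + 1) (by omega) hF _ hno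
        intro m hm
        have h1 : (c m : ℂ) + ((g + 1 - 1 - m : ℕ) : ℂ) = ((c m + (g + 1 - 1 - m) : ℕ) : ℂ) := by
          push_cast
          rfl
        rw [h1, Nat.cast_ne_zero]
        by_cases hmg : m = g
        · rw [hmg]
          omega
        · omega
      obtain ⟨e0, he0⟩ := hex
      have hG := HWF_ctr (l := g + 1) (by omega) hF (fun m hm => by
        rw [hgt m (by omega)]
        simp) e0
      obtain ⟨d, hd⟩ := exists_mono he0
      have hpos : ∀ m, m < g + 1 → 1 ≤ c m := by
        intro m hm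
        have h1 := weight_mono hG d hd ⟨m, by omega⟩
        simp only [if_pos hm] at h1
        rw [sub_eq_iff_eq_add] at h1
        have h2 : c m = (∑ i, d i ⟨m, by omega⟩) + 1 := by exact_mod_cast h1
        omega
      obtain ⟨N', hN', l', e', hV⟩ := ih (fun m => c m - if m < g + 1 then 1 else 0)
        (ctr F (fun s : Fin (g + 1) => xN n s) e0) (by
          have h1 : (fun m => ((c m - if m < g + 1 then 1 else 0 : ℕ) : ℂ)) =
              fun m => (c m : ℂ) - if m < g + 1 then 1 else 0 := by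
            funext m
            by_cases hm : m < g + 1
            · rw [if_pos hm, if_pos hm, Nat.cast_sub (hpos m hm), Nat.cast_one]
            · rw [if_neg hm, if_neg hm, Nat.sub_zero, sub_zero]
          rw [h1]
          exact hG) he0 (by
          intro m hm
          simp only [hn m hm, Nat.zero_sub]) (by
          intro m
          by_cases hm : m < g + 1
          · simp only [if_pos hm]
            have := hc m
            omega
          · simp only [if_neg hm, hgt m (by omega), Nat.zero_sub, Nat.zero_le])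
      refine ⟨N' + 1, by omega, Fin.cons (g + 1) l', fun p =>
        Fin.cons (α := fun t => Fin ((Fin.cons (g + 1) l' : Fin (N' + 1) → ℕ) t) → Fin a) e0
          (fun t s => e' ⟨t, s⟩) p.1 p.2, ?_⟩
      rw [VV_succ]
      exact hV

section Props

variable {N : ℕ} {l : Fin N → ℕ}

lemma VV_symm {F : MultilinearMap ℂ (fun _ : Fin a => MvPolynomial (Fin n) ℂ) ℂ}
    (hs : IsSymm F) (τ : Equiv.Perm (Fin a)) (e : Box l → Fin a) :
    VV F l (fun p => τ (e p)) = VV F l e := by
  rw [VV, VV]
  apply Finset.sum_congr rfl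
  intro σ _
  congr 1
  rw [← hs τ.symm (fun i => ∏ p : Box l, if e p = i then xN n (σ p.1 p.2) else 1)]
  congr 1
  funext i
  apply Finset.prod_congr rfl
  intro p _
  have h : (τ (e p) = i) ↔ (e p = τ.symm i) := by
    rw [Equiv.eq_symm_apply]
  simp only [h]

lemma VV_perm (F : MultilinearMap ℂ (fun _ : Fin a => MvPolynomial (Fin n) ℂ) ℂ)
    (e : Box l → Fin a) (g : ∀ t, Equiv.Perm (Fin (l t))) :
    VV F l (fun p => e ⟨p.1, g p.1 p.2⟩) =
      (∏ t, ((Equiv.Perm.sign (g t) : ℤ) : ℂ)) * VV F l e := by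
  rw [VV, VV, ← Equiv.sum_comp (Equiv.mulRight g), Finset.mul_sum]
  apply Finset.sum_congr rfl
  intro σ _
  have h1 : ∀ t, ((Equiv.Perm.sign ((Equiv.mulRight g) σ t) : ℤ) : ℂ) =
      ((Equiv.Perm.sign (g t) : ℤ) : ℂ) * ((Equiv.Perm.sign (σ t) : ℤ) : ℂ) := by
    intro t
    have h2 : (Equiv.mulRight g) σ t = σ t * g t := rfl
    rw [h2, map_mul, Units.val_mul, Int.cast_mul, mul_comm]
  rw [Finset.prod_congr rfl (fun t _ => h1 t), Finset.prod_mul_distrib, mul_assoc]
  congr 3
  funext i
  rw [← Equiv.prod_comp (Equiv.sigmaCongrRight g)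
    (fun p : Box l => if e p = i then xN n (σ p.1 p.2) else 1)]
  rfl

lemma VV_anti (F : MultilinearMap ℂ (fun _ : Fin a => MvPolynomial (Fin n) ℂ) ℂ)
    (e : Box l → Fin a) (t : Fin N) {u v : Fin (l t)} (huv : u ≠ v)
    (h : e ⟨t, u⟩ = e ⟨t, v⟩) : VV F l e = 0 := by
  classical
  have h1 := VV_perm F e (Pi.mulSingle t (Equiv.swap u v))
  have h2 : (fun p : Box l => e ⟨p.1, (Pi.mulSingle t (Equiv.swap u v) :
      ∀ t, Equiv.Perm (Fin (l t))) p.1 p.2⟩) = e := by
    funext p
    obtain ⟨t', s⟩ := p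
    by_cases ht : t' = t
    · subst ht
      simp only [Pi.mulSingle_eq_same]
      by_cases hu : s = u
      · subst hu
        rw [Equiv.swap_apply_left, h]
      · by_cases hv : s = v
        · subst hv
          rw [Equiv.swap_apply_right, h]
        · rw [Equiv.swap_apply_of_ne_of_ne hu hv]
    · simp only [Pi.mulSingle_eq_of_ne ht]
      rfl
  have h3 : (∏ t', ((Equiv.Perm.sign ((Pi.mulSingle t (Equiv.swap u v) :
      ∀ t, Equiv.Perm (Fin (l t))) t') : ℤ) : ℂ)) = -1 := by
    rw [Finset.prod_eq_single t]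
    · rw [Pi.mulSingle_eq_same, Equiv.Perm.sign_swap huv]
      simp
    · intro t' _ ht
      rw [Pi.mulSingle_eq_of_ne ht, Equiv.Perm.sign_one]
      simp
    · intro hh
      exact absurd (Finset.mem_univ _) hh
  rw [h2, h3, neg_one_mul] at h1
  exact self_eq_neg.1 h1

/-- The form lives in degree `b`. -/
def IsDeg (b : ℕ) (F : MultilinearMap ℂ (fun _ : Fin a => MvPolynomial (Fin n) ℂ) ℂ) : Prop :=
  ∀ (P : Fin a → MvPolynomial (Fin n) ℂ) (i : Fin a) (d : ℕ), (P i).IsHomogeneous d → d ≠ b →
    F P = 0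

lemma xN_hom (m : ℕ) : (xN n m).IsHomogeneous 1 := by
  rw [xN]
  split_ifs
  · exact isHomogeneous_X _ _
  · exact isHomogeneous_zero _ _ _

lemma VV_card {b : ℕ} {F : MultilinearMap ℂ (fun _ : Fin a => MvPolynomial (Fin n) ℂ) ℂ}
    (hF : IsDeg b F) {e : Box l → Fin a} (h : VV F l e ≠ 0) (i : Fin a) :
    (univ.filter (fun p => e p = i)).card = b := by
  by_contra hne
  apply h
  rw [VV]
  apply Finset.sum_eq_zero
  intro σ _
  rw [hF _ i _ _ hne, mul_zero]
  have h1 : (∑ p : Box l, if e p = i then 1 else 0) = (univ.filter (fun p => e p = i)).card := by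
    rw [Finset.card_filter]
  rw [← h1]
  apply IsHomogeneous.prod
  intro p _
  split_ifs
  · exact xN_hom _
  · exact isHomogeneous_one _ _

end Props

end Vale.Agent.P181.H179
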