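import Vale.Agent.P181.H179.P3

set_option autoImplicit false

namespace Vale.Agent.P181.H179

open Vale.Agent.P181 Vale.Agent.P181.H280 Finset MvPolynomial

/-- A family of `q` layers, such that consecutive layers are separated, is constant. -/
lemma const_of_sep {a q : ℕ} (ρ : Fin a × Fin q → Fin a)
    (hfib : ∀ i, (univ.filter (fun r => ρ r = i)).card = q)
    (h1 : ∀ i j, i < j → ∀ k : Fin q, (k : ℕ) + 1 < q → ρ (i, k) ≠ ρ (j, k))
    (h2 : ∀ i j, i < j → ∀ k k' : Fin q, (k' : ℕ) = k + 1 → ρ (i, k) ≠ ρ (j, k')) :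
    ∃ τ : Equiv.Perm (Fin a), ∀ r, ρ r = τ r.1 := by
  classical
  -- the layers are injective
  have hinj0 : ∀ k : Fin q, (k : ℕ) + 1 < q → Function.Injective (fun i => ρ (i, k)) := by
    intro k hk i j hij
    by_contra hne
    rcases lt_or_gt_of_ne hne with h | h
    · exact h1 i j h k hk hij
    · exact h1 j i h k hk hij.symm
  have hcount : ∀ i', ∑ k : Fin q, (univ.filter (fun i => ρ (i, k) = i')).card = q := by
    intro i'
    refine Eq.trans ?_ (hfib i')
    simp only [Finset.card_filter]
    rw [Fintype.sum_prod_type, Finset.sum_comm]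
  have hinj : ∀ k : Fin q, Function.Injective (fun i => ρ (i, k)) := by
    intro k
    by_cases hk : (k : ℕ) + 1 < q
    · exact hinj0 k hk
    · have hlast : ∀ k' : Fin q, k' ≠ k → (k' : ℕ) + 1 < q := by
        intro k' hk'
        have h3 : (k' : ℕ) ≠ k := fun h => hk' (Fin.ext h)
        have := k'.2
        have := k.2
        omega
      have hone : ∀ k' : Fin q, k' ≠ k → ∀ i', (univ.filter (fun i => ρ (i, k') = i')).card = 1 := by
        intro k' hk' i'
        have hb : Function.Bijective (fun i => ρ (i, k')) :=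
          Finite.injective_iff_bijective.1 (hinj0 k' (hlast k' hk'))
        obtain ⟨i, hi⟩ := hb.2 i'
        rw [Finset.card_eq_one]
        refine ⟨i, ?_⟩
        ext j
        rw [Finset.mem_filter, Finset.mem_singleton]
        constructor
        · rintro ⟨_, hj⟩
          exact hb.1 (hj.trans hi.symm)
        · rintro rfl
          exact ⟨Finset.mem_univ _, hi⟩
      have hlayer : ∀ i', (univ.filter (fun i => ρ (i, k) = i')).card = 1 := by
        intro i'
        have h3 := hcount i'
        rw [← Finset.add_sum_erase univ _ (Finset.mem_univ k),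
          Finset.sum_congr rfl (fun k' hk' => hone k' (Finset.ne_of_mem_erase hk') i'),
          Finset.sum_const, Finset.card_erase_of_mem (Finset.mem_univ _), Finset.card_univ,
          Fintype.card_fin, smul_eq_mul, mul_one] at h3
        have := k.2
        omega
      have hsurj : Function.Surjective (fun i => ρ (i, k)) := by
        intro i'
        obtain ⟨i, hi⟩ := Finset.card_eq_one.1 (hlayer i')
        have h4 : i ∈ univ.filter (fun i => ρ (i, k) = i') := by
          rw [hi]
          exact Finset.mem_singleton_self i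
        exact ⟨i, (Finset.mem_filter.1 h4).2⟩
      exact Finite.injective_iff_surjective.2 hsurj
  have hbij : ∀ k : Fin q, Function.Bijective (fun i => ρ (i, k)) :=
    fun k => Finite.injective_iff_bijective.1 (hinj k)
  let L : Fin q → Equiv.Perm (Fin a) := fun k => Equiv.ofBijective _ (hbij k)
  have hL : ∀ k i, L k i = ρ (i, k) := fun k i => rfl
  have hstep : ∀ k k' : Fin q, (k' : ℕ) = k + 1 → L k = L k' := by
    intro k k' hk
    set μ : Equiv.Perm (Fin a) := (L k).trans (L k').symm with hμ
    have hle : ∀ i, μ i ≤ i := by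
      intro i
      by_contra hlt
      rw [not_le] at hlt
      apply h2 i (μ i) hlt k k' hk
      rw [← hL, ← hL, hμ, Equiv.trans_apply, Equiv.apply_symm_apply]
    have hsum : ∑ i, ((μ i : Fin a) : ℕ) = ∑ i : Fin a, (i : ℕ) :=
      Equiv.sum_comp μ (fun i : Fin a => (i : ℕ))
    have heq := (Finset.sum_eq_sum_iff_of_le (fun i _ => Fin.le_def.1 (hle i))).1 hsum
    ext i
    have h3 : μ i = i := Fin.ext (heq i (Finset.mem_univ i))
    rw [hμ, Equiv.trans_apply, Equiv.symm_apply_eq] at h3
    rw [h3]
  by_cases hq : q = 0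
  · subst hq
    exact ⟨1, fun r => r.2.elim0⟩
  · let k0 : Fin q := ⟨0, by omega⟩
    refine ⟨L k0, ?_⟩
    have hall : ∀ m (hm : m < q), L ⟨m, hm⟩ = L k0 := by
      intro m
      induction m with
      | zero => intro _; rfl
      | succ m ih =>
        intro hm
        rw [← ih (by omega)]
        exact (hstep ⟨m, by omega⟩ ⟨m + 1, hm⟩ rfl).symm
    intro r
    have h3 := hall r.2 r.2.2
    have h4 : ρ r = L ⟨(r.2 : ℕ), r.2.2⟩ r.1 := rfl
    rw [h4, h3]

variable {n a : ℕ}

lemma xN_mem (m : ℕ) : xN n m ∈ linS n := by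
  rw [xN]
  split_ifs
  · exact X_mem_linS _
  · exact Submodule.zero_mem _

lemma prod_mem_card {ι : Type*} (T : Finset ι) (z : ι → MvPolynomial (Fin n) ℂ)
    (hz : ∀ p, z p ∈ linS n) : ∏ p ∈ T, z p ∈ linS n ^ T.card := by
  classical
  induction T using Finset.induction with
  | empty =>
    rw [Finset.prod_empty, Finset.card_empty, pow_zero]
    exact Submodule.mem_one.2 ⟨1, map_one _⟩
  | insert j T hj ih =>
    rw [Finset.prod_insert hj, Finset.card_insert_of_notMem hj, pow_succ']
    exact Submodule.mul_mem_mul (hz j) ih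

/-- The relation given by the power map. -/
theorem PM {q N : ℕ} (F : MultilinearMap ℂ (fun _ : Fin a => MvPolynomial (Fin n) ℂ) ℂ)
    (hd : ∀ G ∈ linS n ^ a, F (fun _ => G ^ q) = 0) {l : Fin N → ℕ} (e : Box l → Fin a)
    (lab : Box l → Fin q)
    (hlab : ∀ i k, (univ.filter (fun p => e p = i ∧ lab p = k)).card = a) :
    ∑ π : Equiv.Perm (Fin a × Fin q), VV F l (fun p => (π.symm (e p, lab p)).1) = 0 := by
  classical
  simp only [VV]
  rw [Finset.sum_comm]
  apply Finset.sum_eq_zero
  intro σ _
  rw [← Finset.mul_sum]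
  let y : Fin a × Fin q → MvPolynomial (Fin n) ℂ := fun r =>
    ∏ p : Box l, if (e p, lab p) = r then xN n (σ p.1 p.2) else 1
  have hy : ∀ r, y r ∈ linS n ^ a := by
    intro r
    have h1 : y r = ∏ p ∈ univ.filter (fun p => e p = r.1 ∧ lab p = r.2), xN n (σ p.1 p.2) := by
      rw [Finset.prod_filter]
      apply Finset.prod_congr rfl
      intro p _
      simp only [Prod.ext_iff]
    have h2 := prod_mem_card (univ.filter (fun p => e p = r.1 ∧ lab p = r.2))
      (fun p : Box l => xN n (σ p.1 p.2)) (fun p => xN_mem _)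
    rw [hlab r.1 r.2] at h2
    rw [h1]
    exact h2
  have h1 := polar (rowProd q F) (linS n ^ a) (by
      intro G hG
      rw [rowProd_apply]
      simp only [Finset.prod_const, Finset.card_univ, Fintype.card_fin]
      exact hd G hG) y hy
  have h2 : ∀ π : Equiv.Perm (Fin a × Fin q), rowProd q F (fun r => y (π r)) =
      F (fun i => ∏ p : Box l, if (π.symm (e p, lab p)).1 = i then xN n (σ p.1 p.2) else 1) := by
    intro π
    rw [rowProd_apply]
    congr 1
    funext i
    simp only [y]
    rw [Finset.prod_comm]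
    apply Finset.prod_congr rfl
    intro p _
    have h3 : ∀ k : Fin q, ((e p, lab p) = π (i, k)) ↔ (i = (π.symm (e p, lab p)).1 ∧
        (π.symm (e p, lab p)).2 = k) := by
      intro k
      rw [← Equiv.symm_apply_eq, Prod.ext_iff]
      constructor
      · rintro ⟨h4, h5⟩
        exact ⟨h4.symm, h5⟩
      · rintro ⟨h4, h5⟩
        exact ⟨h4.symm, h5⟩
    simp only [h3]
    by_cases h4 : (π.symm (e p, lab p)).1 = i
    · rw [if_pos h4]
      simp only [h4, true_and]
      rw [Finset.prod_ite_eq, if_pos (Finset.mem_univ _)]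
    · rw [if_neg h4]
      apply Finset.prod_eq_one
      intro k _
      rw [if_neg]
      rintro ⟨h5, _⟩
      exact h4 h5.symm
  rw [Finset.sum_congr rfl (fun π _ => h2 π)] at h1
  rw [h1, mul_zero]

/-- A filling with a separating labelling is killed. -/
theorem VV_zero {q N : ℕ} {F : MultilinearMap ℂ (fun _ : Fin a => MvPolynomial (Fin n) ℂ) ℂ}
    (hs : IsSymm F) (hd : ∀ G ∈ linS n ^ a, F (fun _ => G ^ q) = 0) {l : Fin N → ℕ}
    (e : Box l → Fin a) (lab : Box l → Fin q)
    (hlab : ∀ i k, (univ.filter (fun p => e p = i ∧ lab p = k)).card = a)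
    (h1 : ∀ i j, i < j → ∀ k : Fin q, (k : ℕ) + 1 < q → ∃ t u v, e ⟨t, u⟩ = i ∧ e ⟨t, v⟩ = j ∧
      lab ⟨t, u⟩ = k ∧ lab ⟨t, v⟩ = k)
    (h2 : ∀ i j, i < j → ∀ k k' : Fin q, (k' : ℕ) = k + 1 → ∃ t u v, e ⟨t, u⟩ = i ∧
      e ⟨t, v⟩ = j ∧ lab ⟨t, u⟩ = k ∧ lab ⟨t, v⟩ = k') : VV F l e = 0 := by
  classical
  have hPM := PM F hd e lab hlab
  have hmain : ∀ π : Equiv.Perm (Fin a × Fin q), VV F l (fun p => (π.symm (e p, lab p)).1) =
      if (∃ τ : Equiv.Perm (Fin a), ∀ r, (π.symm r).1 = τ r.1) then VV F l e else 0 := by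
    intro π
    by_cases hτ : ∃ τ : Equiv.Perm (Fin a), ∀ r, (π.symm r).1 = τ r.1
    · rw [if_pos hτ]
      obtain ⟨τ, hτ⟩ := hτ
      simp only [hτ]
      exact VV_symm hs τ e
    · rw [if_neg hτ]
      by_contra hne
      apply hτ
      have hsep : ∀ t u v, u ≠ v → (π.symm (e ⟨t, u⟩, lab ⟨t, u⟩)).1 ≠
          (π.symm (e ⟨t, v⟩, lab ⟨t, v⟩)).1 := by
        intro t u v huv heq
        exact hne (VV_anti F _ t huv heq)
      apply const_of_sep (fun r => (π.symm r).1)
      · intro i
        have h3 : (univ.filter (fun r => (π.symm r).1 = i)).card =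
            (univ.filter (fun r : Fin a × Fin q => r.1 = i)).card := by
          apply Finset.card_bij (fun r _ => π.symm r)
          · intro r hr
            rw [Finset.mem_filter] at hr ⊢
            exact ⟨Finset.mem_univ _, hr.2⟩
          · intro r _ r' _ h
            exact π.symm.injective h
          · intro r hr
            rw [Finset.mem_filter] at hr
            refine ⟨π r, ?_, π.symm_apply_apply r⟩
            rw [Finset.mem_filter, Equiv.symm_apply_apply]
            exact ⟨Finset.mem_univ _, hr.2⟩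
        rw [h3, Finset.card_filter, Fintype.sum_prod_type, Finset.sum_eq_single i]
        · simp
        · intro j _ hj
          simp [hj]
        · intro h
          exact absurd (Finset.mem_univ _) h
      · intro i j hij k hk
        obtain ⟨t, u, v, hu, hv, hku, hkv⟩ := h1 i j hij k hk
        have h3 := hsep t u v (by
          rintro rfl
          rw [hu] at hv
          exact hij.ne hv)
        rw [hu, hv, hku, hkv] at h3
        exact h3
      · intro i j hij k k' hk
        obtain ⟨t, u, v, hu, hv, hku, hkv⟩ := h2 i j hij k k' hk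
        have h3 := hsep t u v (by
          rintro rfl
          rw [hu] at hv
          exact hij.ne hv)
        rw [hu, hv, hku, hkv] at h3
        exact h3
  rw [Finset.sum_congr rfl (fun π _ => hmain π), ← Finset.sum_filter, Finset.sum_const,
    nsmul_eq_mul] at hPM
  refine (mul_eq_zero.1 hPM).resolve_left ?_
  intro h0
  rw [Nat.cast_eq_zero, Finset.card_eq_zero] at h0
  have h3 : (1 : Equiv.Perm (Fin a × Fin q)) ∈ (∅ : Finset (Equiv.Perm (Fin a × Fin q))) := by
    rw [← h0]
    exact Finset.mem_filter.2 ⟨Finset.mem_univ _, 1, fun r => rfl⟩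
  exact absurd h3 (Finset.notMem_empty _)

end Vale.Agent.P181.H179
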