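import Vale.Agent.P181.H179.P4

set_option autoImplicit false

open scoped TensorProduct

namespace Vale.Agent.P181.H179

open Vale.Agent.P181 Vale.Agent.P181.H280 MvPolynomial

variable {n : ℕ}

/-- Highest weight vectors give highest weight forms (all letters). -/
theorem hwForm_all {a b : ℕ} (lam : Fin n → ℕ)
    (l : (Fin a → Fin b → (Fin n → ℂ)) →₀ ℂ) (hx : elOf l ∈ hwSpace lam (plethAct a b n))
    (M K : Fin n) (hMK : M ≤ K) (P : Fin a → MvPolynomial (Fin n) ℂ)
    (hP : ∀ i, P i ∈ linS n ^ b) :
    ∑ i, formOf l (Function.update P i (X K * pderiv M (P i))) =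
      (if K = M then (lam M : ℂ) else 0) * formOf l P := by
  classical
  let D' : Derivation ℂ (MvPolynomial (Fin n) ℂ) (MvPolynomial (Fin n) ℂ) :=
    (X K : MvPolynomial (Fin n) ℂ) • pderiv M
  have hD' : ∀ Q, D' Q = X K * pderiv M Q := fun Q => rfl
  have hD'X : ∀ j, D' (X j) = if j = M then X K else 0 := by
    intro j
    rw [hD']
    by_cases hj : j = M
    · rw [hj, pderiv_X_self, if_pos rfl, mul_one]
    · rw [pderiv_X_of_ne hj, if_neg hj, mul_zero]
  let c0 : ℂ := if K = M then (lam M : ℂ) else 0
  let Φ : MultilinearMap ℂ (fun _ : Fin a => MvPolynomial (Fin n) ℂ) ℂ :=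
    opForm D'.toLinearMap (formOf l) - c0 • formOf l
  have hΦ : Φ P = 0 := by
    apply multilinear_zero_of_span Φ
      (Set.range (fun c : Fin b → Fin n => ∏ j, (X (c j) : MvPolynomial (Fin n) ℂ)))
    · intro w hw
      choose c hc using hw
      let y : Fin a × Fin b → MvPolynomial (Fin n) ℂ := fun p => X (c p.1 p.2)
      have hw' : w = fun i => ∏ j, y (i, j) := by
        funext i
        exact (hc i).symm
      -- the action of a matrix
      have hact : ∀ (g : Matrix (Fin n) (Fin n) ℂ) (p : Fin a → Fin b → MvPolynomial (Fin n) ℂ),
          IsBorel g → (∀ i j, evL n (p i j) = fun v => (Matrix.toLin' g v) (c i j)) →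
          formOf l (fun i => ∏ j, p i j) = (∏ i, g i i ^ lam i) * formOf l w := by
        intro g p hg hp
        have h1 := formOf_lin l p (fun i j => (LinearMap.proj (c i j)) ∘ₗ Matrix.toLin' g)
          (fun i j => hp i j)
        rw [h1, ← symEval_act (Matrix.toLin' g) (fun i j => LinearMap.proj (c i j)) (elOf l)]
        have h2 : symMap a (symMap b (Matrix.toLin' g)) (elOf l) =
            (∏ i, g i i ^ lam i) • elOf l := hx g hg
        rw [h2, map_smul, smul_eq_mul]
        congr 1
        rw [hw']
        exact (formOf_lin l (fun i j => X (c i j)) (fun i j => LinearMap.proj (c i j))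
          (fun i j => evL_X _)).symm
      have hΦw : Φ w = ∑ p, rowProd b (formOf l) (Function.update y p (D' (y p))) -
          c0 * formOf l w := by
        have h1 := opForm_prod D' (formOf l) y
        rw [← hw'] at h1
        rw [← h1]
        rfl
      rw [hΦw]
      rcases eq_or_lt_of_le hMK with hkm | hkm
      · -- weights
        have hKM : K = M := hkm.symm
        have hc0 : c0 = lam M := if_pos hkm.symm
        have h1 : ∀ p, rowProd b (formOf l) (Function.update y p (D' (y p))) =
            (if c p.1 p.2 = M then 1 else 0) * formOf l w := by
          intro p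
          simp only [y]
          rw [hD'X]
          split_ifs with hcp
          · rw [one_mul, hKM, ← hcp, hw']
            have h2 : Function.update (fun p : Fin a × Fin b =>
                (X (c p.1 p.2) : MvPolynomial (Fin n) ℂ)) p (X (c p.1 p.2)) = y :=
              Function.update_eq_self p y
            rw [h2, rowProd_apply]
          · rw [zero_mul]
            exact MultilinearMap.map_update_zero _ _ _
        rw [Finset.sum_congr rfl (fun p _ => h1 p), ← Finset.sum_mul, hc0, ← sub_mul]
        by_cases hz : formOf l w = 0
        · rw [hz, mul_zero]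
        · have h3 := hact (Matrix.diagonal (Function.update 1 M 2))
            (fun i j => (Function.update (1 : Fin n → ℂ) M 2 (c i j)) • X (c i j)) (by
              constructor
              · intro i j hij
                exact Matrix.diagonal_apply_ne _ hij.ne'
              · intro i
                rw [Matrix.diagonal_apply_eq]
                by_cases hi : i = M
                · rw [hi, Function.update_self]; norm_num
                · rw [Function.update_of_ne hi]; norm_num) (by
              intro i j
              rw [map_smul, evL_X]
              funext v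
              rw [Matrix.toLin'_apply, Matrix.mulVec_diagonal]
              rfl)
          have h4 : formOf l (fun i => ∏ j,
              (Function.update (1 : Fin n → ℂ) M 2 (c i j)) • (X (c i j) : MvPolynomial (Fin n) ℂ)) =
              (∏ p : Fin a × Fin b, Function.update (1 : Fin n → ℂ) M 2 (c p.1 p.2)) *
                formOf l w := by
            have h5 := MultilinearMap.map_smul_univ (rowProd b (formOf l))
              (fun p : Fin a × Fin b => Function.update (1 : Fin n → ℂ) M 2 (c p.1 p.2)) y
            rw [rowProd_apply, rowProd_apply, ← hw', smul_eq_mul] at h5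
            exact h5
          rw [h4] at h3
          have h6 := mul_right_cancel₀ hz h3
          have h7 : ∏ p : Fin a × Fin b, Function.update (1 : Fin n → ℂ) M 2 (c p.1 p.2) =
              2 ^ (Finset.univ.filter (fun p : Fin a × Fin b => c p.1 p.2 = M)).card := by
            rw [← Finset.prod_const, Finset.prod_filter]
            apply Finset.prod_congr rfl
            intro p _
            by_cases hp : c p.1 p.2 = M
            · rw [hp, Function.update_self, if_pos rfl]
            · rw [Function.update_of_ne hp, if_neg hp]
              rfl
          have h8 : ∏ i, (Matrix.diagonal (Function.update (1 : Fin n → ℂ) M 2)) i i ^ lam i =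
              2 ^ lam M := by
            rw [Finset.prod_eq_single M]
            · rw [Matrix.diagonal_apply_eq, Function.update_self]
            · intro i _ hi
              rw [Matrix.diagonal_apply_eq, Function.update_of_ne hi]
              simp
            · intro hh
              exact absurd (Finset.mem_univ _) hh
          rw [h7, h8] at h6
          have h9 : (Finset.univ.filter (fun p : Fin a × Fin b => c p.1 p.2 = M)).card =
              lam M := by
            have h10 : (2 : ℕ) ^ (Finset.univ.filter
                (fun p : Fin a × Fin b => c p.1 p.2 = M)).card = 2 ^ lam M := by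
              exact_mod_cast h6
            exact Nat.pow_right_injective le_rfl h10
          have h11 : ∑ p : Fin a × Fin b, (if c p.1 p.2 = M then (1 : ℂ) else 0) = lam M := by
            rw [← h9, Finset.sum_boole]
          rw [h11, sub_self, zero_mul]
      · -- raising operators
        have hMK' : M < K := hkm
        have hc0 : c0 = 0 := if_neg hkm.ne'
        rw [hc0, zero_mul, sub_zero]
        apply first_order' (rowProd b (formOf l)) y (fun p => D' (y p)) (formOf l w)
        intro t
        rw [rowProd_apply]
        have h3 := hact (Matrix.transvection M K t)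
          (fun i j => y (i, j) + t • D' (y (i, j))) (by
            constructor
            · intro i j hij
              rw [Matrix.transvection, Matrix.add_apply, Matrix.one_apply_ne hij.ne',
                Matrix.single_apply_of_ne, add_zero]
              rintro ⟨rfl, rfl⟩
              exact absurd hij (not_lt.2 hMK'.le)
            · intro i
              rw [Matrix.transvection, Matrix.add_apply, Matrix.one_apply_eq,
                Matrix.single_apply_of_ne, add_zero]
              · exact one_ne_zero
              · rintro ⟨rfl, h5⟩
                exact hMK'.ne h5.symm) (by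
            intro i j
            simp only [y]
            rw [map_add, map_smul, hD'X, evL_X]
            funext v
            rw [Matrix.toLin'_apply, Matrix.transvection, Matrix.add_mulVec, Matrix.one_mulVec]
            rw [Pi.add_apply, Pi.add_apply, Pi.smul_apply]
            congr 1
            by_cases hp : c i j = M
            · rw [if_pos hp, evL_X, hp]
              simp [Matrix.mulVec, dotProduct, Matrix.single_apply]
            · rw [if_neg hp, map_zero]
              simp [Matrix.mulVec, dotProduct, Ne.symm hp])
        rw [h3]
        have h8 : ∏ i, (Matrix.transvection M K t) i i ^ lam i = 1 := by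
          apply Finset.prod_eq_one
          intro i _
          rw [Matrix.transvection, Matrix.add_apply, Matrix.one_apply_eq,
            Matrix.single_apply_of_ne, add_zero, one_pow]
          rintro ⟨rfl, h5⟩
          exact hMK'.ne h5.symm
        rw [h8, one_mul]
    · intro i
      exact span_pow_eq _ _ (hP i)
  have h1 : Φ P = opForm D'.toLinearMap (formOf l) P - c0 * formOf l P := rfl
  rw [h1, sub_eq_zero, opForm_apply] at hΦ
  exact hΦ

lemma linS_pow (b : ℕ) : linS n ^ b = homogeneousSubmodule (Fin n) ℂ b := by
  rw [← homogeneousSubmodule_one_pow, homogeneousSubmodule_one_eq_span_X]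
  rfl

/-- The homogeneous component commutes with the polarization operators. -/
lemma hom_comm (b : ℕ) (M K : Fin n) (P : MvPolynomial (Fin n) ℂ) :
    homogeneousComponent b (X K * pderiv M P) = X K * pderiv M (homogeneousComponent b P) := by
  induction P using MvPolynomial.induction_on' with
  | add p q hp hq => simp only [map_add, mul_add, hp, hq]
  | monomial d c =>
    have h1 : (monomial d c : MvPolynomial (Fin n) ℂ).IsHomogeneous (d.degree) :=
      isHomogeneous_monomial c rfl
    rw [homogeneousComponent_of_mem h1]
    by_cases hd : d M = 0
    · have h2 : pderiv M (monomial d c : MvPolynomial (Fin n) ℂ) = 0 := by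
        rw [pderiv_monomial, hd, Nat.cast_zero, mul_zero, map_zero]
      split_ifs
      · rw [h2, mul_zero, map_zero]
      · rw [h2, mul_zero, map_zero, map_zero, mul_zero]
    · have h2 : (X K * pderiv M (monomial d c : MvPolynomial (Fin n) ℂ)).IsHomogeneous
          d.degree := by
        rw [pderiv_monomial]
        have h3 := (isHomogeneous_X ℂ K).mul (isHomogeneous_monomial (R := ℂ)
          (d := d - Finsupp.single M 1) (c * (d M : ℂ)) rfl)
        have h4 : 1 + (d - Finsupp.single M 1).degree = d.degree := by
          have h5 : Finsupp.single M 1 + (d - Finsupp.single M 1) = d := by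
            apply add_tsub_cancel_of_le
            rw [Finsupp.single_le_iff]
            omega
          conv_rhs => rw [← h5]
          rw [map_add, Finsupp.degree_single]
        rw [← h4]
        exact h3
      rw [homogeneousComponent_of_mem h2]
      split_ifs
      · rfl
      · rw [map_zero, mul_zero]

/-- The form extended to all polynomials. -/
noncomputable def fullForm {a b : ℕ} (l : (Fin a → Fin b → (Fin n → ℂ)) →₀ ℂ) :
    MultilinearMap ℂ (fun _ : Fin a => MvPolynomial (Fin n) ℂ) ℂ :=
  (formOf l).compLinearMap (fun _ => homogeneousComponent b)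

lemma fullForm_apply {a b : ℕ} (l : (Fin a → Fin b → (Fin n → ℂ)) →₀ ℂ)
    (P : Fin a → MvPolynomial (Fin n) ℂ) :
    fullForm l P = formOf l (fun i => homogeneousComponent b (P i)) := rfl

lemma hom_mem (b : ℕ) (P : MvPolynomial (Fin n) ℂ) :
    homogeneousComponent b P ∈ linS n ^ b := by
  rw [linS_pow]
  exact homogeneousComponent_mem _ _

lemma hom_self {b : ℕ} {P : MvPolynomial (Fin n) ℂ} (hP : P ∈ linS n ^ b) :
    homogeneousComponent b P = P := by
  rw [linS_pow] at hP
  rw [homogeneousComponent_of_mem hP, if_pos rfl]

lemma fullForm_symm {a b : ℕ} (l : (Fin a → Fin b → (Fin n → ℂ)) →₀ ℂ) :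
    IsSymm (fullForm l) := by
  intro σ P
  rw [fullForm_apply, fullForm_apply]
  exact formOf_symm l σ (fun i => homogeneousComponent b (P i))

lemma fullForm_deg {a b : ℕ} (l : (Fin a → Fin b → (Fin n → ℂ)) →₀ ℂ) :
    IsDeg b (fullForm l) := by
  intro P i d hd hne
  rw [fullForm_apply]
  apply (formOf l).map_coord_zero i
  rw [homogeneousComponent_of_mem hd, if_neg (Ne.symm hne)]

lemma fullForm_pow {a q : ℕ} (l : (Fin a → Fin (q * a) → (Fin n → ℂ)) →₀ ℂ)
    (h0 : powMap a q (Fin n → ℂ) (elOf l) = 0) (G : MvPolynomial (Fin n) ℂ)
    (hG : G ∈ linS n ^ a) : fullForm l (fun _ => G ^ q) = 0 := by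
  rw [fullForm_apply]
  have h1 : G ^ q ∈ linS n ^ (q * a) := by
    rw [mul_comm, pow_mul]
    exact Submodule.pow_mem_pow _ hG q
  simp only [hom_self h1]
  exact formOf_pow l h0 G hG

/-- The weight as a function on `ℕ`. -/
def wt (lam : Fin n → ℕ) (m : ℕ) : ℕ := if h : m < n then lam ⟨m, h⟩ else 0

lemma fullForm_hw {a b : ℕ} (lam : Fin n → ℕ) (l : (Fin a → Fin b → (Fin n → ℂ)) →₀ ℂ)
    (hx : elOf l ∈ hwSpace lam (plethAct a b n)) :
    HWF (fun m => (wt lam m : ℂ)) (fullForm l) := by
  intro m k hmk Q
  by_cases hm : m < n
  · by_cases hk : k < n
    · have h1 := hwForm_all lam l hx ⟨m, hm⟩ ⟨k, hk⟩ hmk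
        (fun i => homogeneousComponent b (Q i)) (fun i => hom_mem b (Q i))
      have h2 : (if k = m then (wt lam m : ℂ) else 0) =
          if (⟨k, hk⟩ : Fin n) = ⟨m, hm⟩ then (lam ⟨m, hm⟩ : ℂ) else 0 := by
        simp only [wt, dif_pos hm, Fin.mk.injEq]
      rw [h2, fullForm_apply, ← h1]
      apply Finset.sum_congr rfl
      intro i _
      rw [fullForm_apply]
      congr 1
      funext j
      by_cases hj : j = i
      · subst hj
        rw [Function.update_self, Function.update_self, xN, dN, dif_pos hk, dif_pos hm, hom_comm]
      · rw [Function.update_of_ne hj, Function.update_of_ne hj]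
    · rw [if_neg (by omega), zero_mul]
      apply Finset.sum_eq_zero
      intro i _
      apply (fullForm l).map_coord_zero i
      rw [Function.update_self, xN, dif_neg hk, zero_mul]
  · have h1 : (if k = m then (wt lam m : ℂ) else 0) = 0 := by
      rw [wt, dif_neg hm]
      simp
    rw [h1, zero_mul]
    apply Finset.sum_eq_zero
    intro i _
    apply (fullForm l).map_coord_zero i
    rw [Function.update_self, dN_ge (by omega), mul_zero]

/-- The form determines the element. -/
lemma elOf_zero_of_fullForm {a b : ℕ} (l : (Fin a → Fin b → (Fin n → ℂ)) →₀ ℂ)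
    (h : fullForm l = 0) : elOf l = 0 := by
  apply elOf_eq_zero
  intro P hP
  have h1 := congrArg (fun G => G P) h
  simp only [fullForm_apply, zero_apply] at h1
  have h2 : (fun i => homogeneousComponent b (P i)) = P := by
    funext i
    exact hom_self (hP i)
  rwa [h2] at h1

end Vale.Agent.P181.H179
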