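import Mathlib.Algebra.Group.Fin.Basic
import Mathlib.Algebra.BigOperators.Ring.Finset
import Mathlib.Algebra.BigOperators.Intervals
import Mathlib.Algebra.Order.Ring.Pow
import Mathlib.Data.Real.Basic
import Mathlib.Data.Fintype.BigOperators
import Mathlib.Order.Interval.Finset.Fin
import Mathlib.Tactic

set_option autoImplicit false

namespace Vale.Agent.P181.H179

open Finset

lemma block_sum {q : ℕ} [NeZero q] (x : ℝ) (k : Fin q) (R : Finset (Fin q)) :
    ∑ w : Fin q, ∏ p ∈ R, (if p + w = k then x else 1) = q - R.card * (1 - x) := by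
  have h1 : ∀ w : Fin q, ∏ p ∈ R, (if p + w = k then x else 1) =
      if k - w ∈ R then x else 1 := by
    intro w
    by_cases h : k - w ∈ R
    · rw [if_pos h, Finset.prod_eq_single_of_mem (k - w) h]
      · rw [sub_add_cancel, if_pos rfl]
      · intro p _ hp
        rw [if_neg]
        intro h'
        exact hp (by rw [← h', add_sub_cancel_right])
    · rw [if_neg h]
      apply Finset.prod_eq_one
      intro p hp
      rw [if_neg]
      intro h'
      apply h
      rw [← h', add_sub_cancel_right]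
      exact hp
  rw [Finset.sum_congr rfl (fun w _ => h1 w), ← Equiv.sum_comp (Equiv.subLeft k)]
  have h2 : ∀ v : Fin q, (if k - (Equiv.subLeft k) v ∈ R then x else 1) =
      1 - if v ∈ R then (1 - x) else 0 := by
    intro v
    rw [Equiv.subLeft_apply, sub_sub_cancel]
    split_ifs <;> ring
  rw [Finset.sum_congr rfl (fun v _ => h2 v), Finset.sum_sub_distrib, Finset.sum_const,
    Finset.card_univ, Fintype.card_fin, nsmul_eq_mul, mul_one, Finset.sum_ite_mem,
    Finset.univ_inter, Finset.sum_const, nsmul_eq_mul]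

lemma row_sum {a q : ℕ} [NeZero q] {x : ℝ} (hx0 : 0 ≤ x) (hx1 : x ≤ 1) (k : Fin q)
    (R : Finset (Fin a × Fin q)) :
    ∑ ω : Fin a → Fin q, ∏ r ∈ R, (if r.2 + ω r.1 = k then x else 1) ≤
      (q : ℝ) ^ a * (1 - (1 - x) / q) ^ R.card := by
  classical
  have hq : (1 : ℝ) ≤ q := by
    exact_mod_cast Nat.one_le_iff_ne_zero.2 (NeZero.ne q)
  let Rb : Fin a → Finset (Fin q) := fun β => univ.filter (fun p => (β, p) ∈ R)
  have h1 : ∀ ω : Fin a → Fin q, ∏ r ∈ R, (if r.2 + ω r.1 = k then x else 1) =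
      ∏ β, ∏ p ∈ Rb β, (if p + ω β = k then x else 1) := by
    intro ω
    have h2 := Finset.prod_ite_mem univ R (fun r : Fin a × Fin q =>
      (if r.2 + ω r.1 = k then x else (1 : ℝ)))
    rw [Finset.univ_inter] at h2
    rw [← h2, Fintype.prod_prod_type]
    apply Finset.prod_congr rfl
    intro β _
    rw [Finset.prod_filter]
  have hcard : R.card = ∑ β, (Rb β).card := by
    have h2 := Finset.sum_ite_mem univ R (fun _ : Fin a × Fin q => 1)
    rw [Finset.univ_inter] at h2
    rw [Finset.card_eq_sum_ones, ← h2, Fintype.sum_prod_type]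
    apply Finset.sum_congr rfl
    intro β _
    rw [Finset.card_filter]
  rw [Finset.sum_congr rfl (fun ω _ => h1 ω)]
  have h3 := Finset.prod_univ_sum (fun _ : Fin a => (univ : Finset (Fin q)))
    (fun β w => ∏ p ∈ Rb β, (if p + w = k then x else (1 : ℝ)))
  rw [Fintype.piFinset_univ] at h3
  rw [← h3, hcard, ← Finset.prod_pow_eq_pow_sum]
  have h4 : (q : ℝ) ^ a = ∏ _β : Fin a, (q : ℝ) := by
    rw [Finset.prod_const, Finset.card_univ, Fintype.card_fin]
  rw [h4, ← Finset.prod_mul_distrib]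
  apply Finset.prod_le_prod
  · intro β _
    apply Finset.sum_nonneg
    intro w _
    apply Finset.prod_nonneg
    intro p _
    split_ifs
    · exact hx0
    · exact zero_le_one
  · intro β _
    rw [block_sum]
    have h5 := one_add_mul_le_pow (a := -((1 - x) / q)) (by
      have : (1 - x) / q ≤ 1 := by
        rw [div_le_one (by linarith)]
        linarith
      linarith) (Rb β).card
    have h6 : (q : ℝ) - (Rb β).card * (1 - x) = q * (1 + (Rb β).card * (-((1 - x) / q))) := by
      field_simp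
      ring
    rw [h6]
    apply mul_le_mul_of_nonneg_left _ (by linarith)
    rw [sub_eq_add_neg]
    exact h5

/-- The labels of a row with block structure `φ` and shifts `γ`. -/
def lb {a q N : ℕ} [NeZero q] (φ : Fin N → Fin a × Fin q) (γ : Fin a → Fin q) (t : Fin N) :
    Fin q := (φ t).2 + γ (φ t).1

lemma row_sum' {a q N : ℕ} [NeZero q] {x : ℝ} (hx0 : 0 ≤ x) (hx1 : x ≤ 1) (k : Fin q)
    (φ : Fin N → Fin a × Fin q) (T : Finset (Fin N)) (hφ : Set.InjOn φ T) :
    ∑ γ : Fin a → Fin q, ∏ t ∈ T, (if lb φ γ t = k then x else 1) ≤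
      (q : ℝ) ^ a * (1 - (1 - x) / q) ^ T.card := by
  classical
  have h1 := row_sum hx0 hx1 k (T.image φ)
  rw [Finset.card_image_of_injOn hφ] at h1
  refine le_trans (le_of_eq ?_) h1
  apply Finset.sum_congr rfl
  intro γ _
  rw [Finset.prod_image (fun s hs t ht h => hφ hs ht h)]
  rfl

lemma sum_update {ι Γ : Type*} [Fintype ι] [DecidableEq ι] [Fintype Γ] (i : ι)
    (f : (ι → Γ) → ℝ) : ∑ ω : ι → Γ, ∑ γ : Γ, f (Function.update ω i γ) =
      Fintype.card Γ * ∑ ω, f ω := by
  have h1 : ∑ ω : ι → Γ, ∑ γ : Γ, f (Function.update ω i γ) =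
      ∑ p : (ι → Γ) × Γ, f (Function.update p.1 i p.2) := by
    rw [Fintype.sum_prod_type]
  have h2 : ∑ p : (ι → Γ) × Γ, f p.1 = Fintype.card Γ * ∑ ω, f ω := by
    rw [Fintype.sum_prod_type, Finset.mul_sum]
    apply Finset.sum_congr rfl
    intro ω _
    simp only [Finset.sum_const, Finset.card_univ, nsmul_eq_mul]
  rw [h1, ← h2]
  apply Finset.sum_nbij' (fun p => (Function.update p.1 i p.2, p.1 i))
    (fun p => (Function.update p.1 i p.2, p.1 i))
  · intro p _; exact Finset.mem_univ _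
  · intro p _; exact Finset.mem_univ _
  · intro p _
    simp
  · intro p _
    simp
  · intro p _; rfl

/-- The indicator that the pattern `(k, k')` does not occur on `S`. -/
noncomputable def bad {a q N : ℕ} [NeZero q] (φ ψ : Fin N → Fin a × Fin q) (S : Finset (Fin N))
    (k k' : Fin q) (γ γ' : Fin a → Fin q) : ℝ :=
  ∏ t ∈ S, (if lb φ γ t = k ∧ lb ψ γ' t = k' then 0 else 1)

lemma bad_sum {a q N : ℕ} [NeZero q] (φ : Fin a → Fin N → Fin a × Fin q)
    (S : Finset (Fin N)) {i j : Fin a} (hij : i ≠ j) (hi : Set.InjOn (φ i) S)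
    (hj : Set.InjOn (φ j) S) (k k' : Fin q) :
    ∑ ω : Fin a → (Fin a → Fin q), bad (φ i) (φ j) S k k' (ω i) (ω j) ≤
      Fintype.card (Fin a → (Fin a → Fin q)) * (1 - 1 / (q : ℝ) ^ 2) ^ S.card := by
  classical
  have hq : (1 : ℝ) ≤ q := by
    exact_mod_cast Nat.one_le_iff_ne_zero.2 (NeZero.ne q)
  have hq0 : (0 : ℝ) < q := by linarith
  have hqi : 1 / (q : ℝ) ≤ 1 := by
    rw [div_le_one hq0]
    exact hq
  have hqi0 : 0 ≤ 1 / (q : ℝ) := by positivity
  have hcardΓ : (Fintype.card (Fin a → Fin q) : ℝ) = (q : ℝ) ^ a := by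
    simp
  have hpos : (0 : ℝ) < (q : ℝ) ^ a := by positivity
  let h : (Fin a → Fin q) → ℝ := fun γ' =>
    ∏ t ∈ S, (if lb (φ j) γ' t = k' then (1 - 1 / (q : ℝ)) else 1)
  -- the inner sum
  have h1 : ∀ γ', ∑ γ, bad (φ i) (φ j) S k k' γ γ' ≤ (q : ℝ) ^ a * h γ' := by
    intro γ'
    have h2 := row_sum' (x := 0) le_rfl zero_le_one k (φ i)
      (S.filter (fun t => lb (φ j) γ' t = k')) (hi.mono (by
        intro t ht
        exact (Finset.mem_filter.1 ht).1))
    have h3 : h γ' = (1 - (1 - 0) / (q : ℝ)) ^ (S.filter (fun t => lb (φ j) γ' t = k')).card := by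
      simp only [h]
      rw [← Finset.prod_filter, Finset.prod_const]
      norm_num
    rw [h3]
    refine le_trans (le_of_eq ?_) h2
    apply Finset.sum_congr rfl
    intro γ _
    rw [bad, Finset.prod_filter]
    apply Finset.prod_congr rfl
    intro t _
    by_cases h4 : lb (φ j) γ' t = k'
    · simp [h4]
    · simp [h4]
  have h2 : ∑ γ', h γ' ≤ (q : ℝ) ^ a * (1 - 1 / (q : ℝ) ^ 2) ^ S.card := by
    have h3 := row_sum' (x := 1 - 1 / (q : ℝ)) (by linarith) (by linarith) k' (φ j) S hj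
    have h4 : 1 - (1 - (1 - 1 / (q : ℝ))) / q = 1 - 1 / (q : ℝ) ^ 2 := by
      field_simp
      ring
    rw [h4] at h3
    exact h3
  have h3 := sum_update i (fun ω : Fin a → (Fin a → Fin q) =>
    bad (φ i) (φ j) S k k' (ω i) (ω j))
  have h4 := sum_update j (fun ω : Fin a → (Fin a → Fin q) => h (ω j))
  simp only [Function.update_self, Function.update_of_ne hij.symm] at h3 h4
  rw [hcardΓ] at h3 h4
  have h5 : (q : ℝ) ^ a * ∑ ω : Fin a → (Fin a → Fin q),
      bad (φ i) (φ j) S k k' (ω i) (ω j) ≤ (q : ℝ) ^ a * ∑ ω : Fin a → (Fin a → Fin q), h (ω j) := by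
    rw [← h3, Finset.mul_sum]
    exact Finset.sum_le_sum (fun ω _ => h1 (ω j))
  have h6 : (q : ℝ) ^ a * ∑ ω : Fin a → (Fin a → Fin q), h (ω j) ≤
      (q : ℝ) ^ a * (Fintype.card (Fin a → (Fin a → Fin q)) * (1 - 1 / (q : ℝ) ^ 2) ^ S.card) := by
    rw [← h4]
    refine (Finset.sum_le_sum (fun ω _ => h2)).trans (le_of_eq ?_)
    rw [Finset.sum_const, Finset.card_univ, nsmul_eq_mul]
    ring
  exact le_of_mul_le_mul_left (h5.trans h6) hpos

/-- The union bound. -/
lemma union_bound {Ω P : Type*} [Fintype Ω] [Nonempty Ω] (T : Finset P) (f : P → Ω → ℝ) (c : ℝ)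
    (hf : ∀ p ∈ T, ∀ ω, 0 ≤ f p ω) (hs : ∀ p ∈ T, ∑ ω, f p ω ≤ Fintype.card Ω * c)
    (hc : (T.card : ℝ) * c < 1) : ∃ ω, ∀ p ∈ T, f p ω < 1 := by
  by_contra hno
  push Not at hno
  have hpos : (0 : ℝ) < Fintype.card Ω := by
    exact_mod_cast Fintype.card_pos
  have h1 : (Fintype.card Ω : ℝ) ≤ ∑ ω, ∑ p ∈ T, f p ω := by
    have h2 : ∀ ω ∈ (univ : Finset Ω), (1 : ℝ) ≤ ∑ p ∈ T, f p ω := by
      intro ω _
      obtain ⟨p, hp, h3⟩ := hno ω
      exact h3.trans (Finset.single_le_sum (f := fun p => f p ω) (fun p hp => hf p hp ω) hp)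
    have h3 := Finset.sum_le_sum h2
    simp only [Finset.sum_const, Finset.card_univ, nsmul_eq_mul, mul_one] at h3
    exact h3
  rw [Finset.sum_comm] at h1
  have h2 := Finset.sum_le_sum hs
  rw [Finset.sum_const, nsmul_eq_mul] at h2
  have h3 : (T.card : ℝ) * (Fintype.card Ω * c) < Fintype.card Ω := by
    calc _ = ((T.card : ℝ) * c) * Fintype.card Ω := by ring
      _ < 1 * Fintype.card Ω := mul_lt_mul_of_pos_right hc hpos
      _ = _ := one_mul _
  linarith

lemma card_pairs (a : ℕ) :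
    (univ.filter (fun p : Fin a × Fin a => p.1 < p.2)).card * 2 = a * (a - 1) := by
  have h1 : (univ.filter (fun p : Fin a × Fin a => p.1 < p.2)).card = ∑ j : Fin a, (j : ℕ) := by
    rw [Finset.card_filter, Fintype.sum_prod_type, Finset.sum_comm]
    apply Finset.sum_congr rfl
    intro j _
    rw [← Finset.card_filter]
    have h2 : univ.filter (fun i : Fin a => i < j) = Finset.Iio j := by
      ext i
      simp
    simp only [h2, Fin.card_Iio]
  rw [h1, Fin.sum_univ_eq_sum_range (fun i => i), Finset.sum_range_id_mul_two]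

/-- A labelling of the columns of each row with `a` columns for each label, such that any two rows
`i < j` share columns with labels `(k, k)` and `(k, k + 1)` for every `k < q - 1`. -/
def SepLab {a q N : ℕ} (C : Fin a → Finset (Fin N)) : Prop :=
  ∃ lab : Fin a → Fin N → Fin q, (∀ i k, ((C i).filter (fun t => lab i t = k)).card = a) ∧
    (∀ i j, i < j → ∀ k : Fin q, (k : ℕ) + 1 < q → ∃ t ∈ C i ∩ C j, lab i t = k ∧ lab j t = k) ∧
    ∀ i j, i < j → ∀ k k' : Fin q, (k' : ℕ) = k + 1 → ∃ t ∈ C i ∩ C j, lab i t = k ∧ lab j t = k'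

theorem sepLab_of_bound {a q N θ : ℕ} (hq : 1 ≤ q) (C : Fin a → Finset (Fin N))
    (hC : ∀ i, (C i).card = q * a) (hθ : ∀ i j, i ≠ j → θ ≤ (C i ∩ C j).card)
    (hb : a * (a - 1) * (q - 1) * (q ^ 2 - 1) ^ θ < q ^ (2 * θ)) : SepLab (q := q) C := by
  classical
  haveI : NeZero q := ⟨by omega⟩
  by_cases ha : a = 0
  · subst ha
    exact ⟨fun i => i.elim0, fun i => i.elim0, fun i => i.elim0, fun i => i.elim0⟩
  have hqR : (1 : ℝ) ≤ q := by exact_mod_cast hq
  have hq0 : (0 : ℝ) < q := by linarith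
  let z : Fin a × Fin q := (⟨0, by omega⟩, ⟨0, by omega⟩)
  have hE : ∀ i, Nonempty ({t // t ∈ C i} ≃ Fin a × Fin q) := by
    intro i
    refine ⟨Fintype.equivOfCardEq ?_⟩
    rw [Fintype.card_coe, hC, Fintype.card_prod, Fintype.card_fin, Fintype.card_fin, mul_comm]
  let E : ∀ i, {t // t ∈ C i} ≃ Fin a × Fin q := fun i => (hE i).some
  let φ : Fin a → Fin N → Fin a × Fin q := fun i t => if h : t ∈ C i then E i ⟨t, h⟩ else z
  have hφ : ∀ i t (h : t ∈ C i), φ i t = E i ⟨t, h⟩ := fun i t h => dif_pos h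
  have hinj : ∀ i, Set.InjOn (φ i) (C i) := by
    intro i s hs t ht hst
    have hs' : s ∈ C i := hs
    have ht' : t ∈ C i := ht
    rw [hφ i s hs', hφ i t ht'] at hst
    exact congrArg Subtype.val ((E i).injective hst)
  -- sizes
  have hsize : ∀ (γ : Fin a → Fin q) i k,
      ((C i).filter (fun t => lb (φ i) γ t = k)).card = a := by
    intro γ i k
    have h1 : ((C i).filter (fun t => lb (φ i) γ t = k)).card =
        (univ.filter (fun r : Fin a × Fin q => r.2 + γ r.1 = k)).card := by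
      apply Finset.card_bij (fun t _ => φ i t)
      · intro t ht
        rw [Finset.mem_filter] at ht ⊢
        exact ⟨Finset.mem_univ _, ht.2⟩
      · intro s hs t ht hst
        rw [Finset.mem_filter] at hs ht
        exact hinj i hs.1 ht.1 hst
      · intro r hr
        rw [Finset.mem_filter] at hr
        refine ⟨((E i).symm r : Fin N), ?_, ?_⟩
        · rw [Finset.mem_filter]
          refine ⟨((E i).symm r).2, ?_⟩
          rw [lb, hφ i _ ((E i).symm r).2]
          simp only [Subtype.coe_eta, Equiv.apply_symm_apply]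
          exact hr.2
        · rw [hφ i _ ((E i).symm r).2]
          simp only [Subtype.coe_eta, Equiv.apply_symm_apply]
    rw [h1, Finset.card_filter, Fintype.sum_prod_type]
    have h2 : ∀ β : Fin a, ∑ p : Fin q, (if p + γ β = k then 1 else 0) = 1 := by
      intro β
      rw [Finset.sum_eq_single (k - γ β)]
      · rw [sub_add_cancel, if_pos rfl]
      · intro p _ hp
        rw [if_neg]
        intro h'
        exact hp (by rw [← h', add_sub_cancel_right])
      · intro h
        exact absurd (Finset.mem_univ _) h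
    simp only [h2, Finset.sum_const, Finset.card_univ, Fintype.card_fin, smul_eq_mul, mul_one]
  -- patterns
  have hPr := card_pairs a
  set Pr : Finset (Fin a × Fin a) := univ.filter (fun p => p.1 < p.2) with hPrdef
  let kk : Fin (q - 1) → Fin q := fun k => ⟨k, by omega⟩
  let kk' : Fin (q - 1) → Bool → Fin q := fun k d =>
    if d then ⟨k + 1, by have := k.2; omega⟩ else ⟨k, by omega⟩
  let f : (Fin a × Fin a) × (Fin (q - 1) × Bool) → (Fin a → (Fin a → Fin q)) → ℝ :=
    fun p ω => bad (φ p.1.1) (φ p.1.2) (C p.1.1 ∩ C p.1.2) (kk p.2.1) (kk' p.2.1 p.2.2)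
      (ω p.1.1) (ω p.1.2)
  set x : ℝ := 1 - 1 / (q : ℝ) ^ 2 with hx
  have hx0 : 0 ≤ x := by
    rw [hx, sub_nonneg, div_le_one (by positivity)]
    exact one_le_pow₀ hqR
  have hx1 : x ≤ 1 := by
    rw [hx]
    have : 0 ≤ 1 / (q : ℝ) ^ 2 := by positivity
    linarith
  obtain ⟨ω, hω⟩ := union_bound (Pr ×ˢ (univ : Finset (Fin (q - 1) × Bool))) f (x ^ θ) (by
      intro p _ ω
      apply Finset.prod_nonneg
      intro t _
      split_ifs
      · exact le_rfl
      · exact zero_le_one) (by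
      intro p hp
      have hlt : p.1.1 < p.1.2 := (Finset.mem_filter.1 (Finset.mem_product.1 hp).1).2
      refine (bad_sum φ (C p.1.1 ∩ C p.1.2) hlt.ne ((hinj p.1.1).mono (by
        intro t ht
        exact (Finset.mem_inter.1 ht).1)) ((hinj p.1.2).mono (by
        intro t ht
        exact (Finset.mem_inter.1 ht).2)) _ _).trans ?_
      apply mul_le_mul_of_nonneg_left _ (Nat.cast_nonneg _)
      exact pow_le_pow_of_le_one hx0 hx1 (hθ _ _ hlt.ne)) (by
      rw [Finset.card_product, Finset.card_univ, Fintype.card_prod, Fintype.card_fin,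
        Fintype.card_bool]
      have h1 : x = ((q ^ 2 - 1 : ℕ) : ℝ) / (q : ℝ) ^ 2 := by
        rw [Nat.cast_sub (Nat.one_le_pow _ _ hq), hx]
        push_cast
        field_simp
      rw [h1, div_pow, ← pow_mul, mul_div_assoc', div_lt_one (by positivity)]
      have h2 : ((Pr.card * ((q - 1) * 2) : ℕ) : ℝ) * ((q ^ 2 - 1 : ℕ) : ℝ) ^ θ =
          ((Pr.card * 2 * (q - 1) * (q ^ 2 - 1) ^ θ : ℕ) : ℝ) := by
        push_cast
        ring
      rw [h2, hPr]
      exact_mod_cast hb)
  have hzero : ∀ i j, i < j → ∀ (k : Fin (q - 1)) (d : Bool),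
      ∃ t ∈ C i ∩ C j, lb (φ i) (ω i) t = kk k ∧ lb (φ j) (ω j) t = kk' k d := by
    intro i j hij k d
    by_contra hno
    have h1 : f ((i, j), (k, d)) ω = 1 := by
      apply Finset.prod_eq_one
      intro t ht
      rw [if_neg]
      rintro ⟨h2, h3⟩
      exact hno ⟨t, ht, h2, h3⟩
    have h2 := hω ((i, j), (k, d)) (Finset.mem_product.2
      ⟨Finset.mem_filter.2 ⟨Finset.mem_univ _, hij⟩, Finset.mem_univ _⟩)
    rw [h1] at h2
    exact lt_irrefl _ h2
  refine ⟨fun i t => lb (φ i) (ω i) t, fun i k => hsize (ω i) i k, ?_, ?_⟩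
  · intro i j hij k hk
    obtain ⟨t, ht, h1, h2⟩ := hzero i j hij ⟨k, by omega⟩ false
    exact ⟨t, ht, h1, h2⟩
  · intro i j hij k k' hk
    have := k'.2
    obtain ⟨t, ht, h1, h2⟩ := hzero i j hij ⟨k, by omega⟩ true
    refine ⟨t, ht, h1, h2.trans ?_⟩
    exact Fin.ext hk.symm

end Vale.Agent.P181.H179
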