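import Vale.Agent.P181.H179.P5
import Vale.Agent.P181.H179.P6

set_option autoImplicit false

open scoped TensorProduct

namespace Vale.Agent.P181.H179

open Vale.Agent.P181 Vale.Agent.P181.H280 Finset MvPolynomial

variable {n : ℕ}

/-- If all families of `a` sets of `q a` columns, among at most `N` columns, with pairwise
intersections of size at least `θ` have separating labellings, the power map is injective on the
highest weight vectors of weight `lam` with all entries at most `N ≤ 2 q a - θ`. -/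
theorem powMap_inj_of_sep {a q N θ : ℕ} (lam : Fin n → ℕ) (hlam : ∀ m, lam m ≤ N)
    (hN : N + θ ≤ 2 * (q * a))
    (hsep : ∀ N', N' ≤ N → ∀ C : Fin a → Finset (Fin N'), (∀ i, (C i).card = q * a) →
      (∀ i j, i ≠ j → θ ≤ (C i ∩ C j).card) → SepLab (q := q) C)
    (x : Sym[ℂ]^a (Sym[ℂ]^(q * a) (Fin n → ℂ))) (hx : x ∈ hwSpace lam (plethAct a (q * a) n))
    (h0 : powMap a q (Fin n → ℂ) x = 0) : x = 0 := by
  classical
  obtain ⟨l, rfl⟩ := exists_elOf x
  apply elOf_zero_of_fullForm
  by_contra hne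
  obtain ⟨N', hN', l', e, hV⟩ := exists_VV N (wt lam) (fullForm l) (fullForm_hw lam l hx) hne
    (fun m hm => by rw [wt, dif_neg (by omega)]) (fun m => by
      rw [wt]
      split_ifs
      · exact hlam _
      · exact Nat.zero_le _)
  have hcol : ∀ t u v, u ≠ v → e ⟨t, u⟩ ≠ e ⟨t, v⟩ := fun t u v huv h =>
    hV (VV_anti _ e t huv h)
  have hrow := VV_card (fullForm_deg l) hV
  let C : Fin a → Finset (Fin N') := fun i => univ.filter (fun t => ∃ s, e ⟨t, s⟩ = i)
  -- boxes of a row and columns of a row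
  have hbij : ∀ i (Q : Fin N' → Prop) [DecidablePred Q],
      (univ.filter (fun p : Box l' => e p = i ∧ Q p.1)).card = ((C i).filter Q).card := by
    intro i Q _
    apply Finset.card_bij (fun p _ => p.1)
    · intro p hp
      rw [Finset.mem_filter] at hp
      rw [Finset.mem_filter, Finset.mem_filter]
      exact ⟨⟨Finset.mem_univ _, p.2, hp.2.1⟩, hp.2.2⟩
    · intro p hp p' hp' h
      rw [Finset.mem_filter] at hp hp'
      obtain ⟨t, s⟩ := p
      obtain ⟨t', s'⟩ := p'
      simp only at h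
      subst h
      by_contra hss
      have h1 : s ≠ s' := fun h => hss (by rw [h])
      exact hcol t s s' h1 (hp.2.1.trans hp'.2.1.symm)
    · intro t ht
      rw [Finset.mem_filter, Finset.mem_filter] at ht
      obtain ⟨⟨_, s, hs⟩, hQ⟩ := ht
      exact ⟨⟨t, s⟩, Finset.mem_filter.2 ⟨Finset.mem_univ _, hs, hQ⟩, rfl⟩
  have hC : ∀ i, (C i).card = q * a := by
    intro i
    have h1 := hbij i (fun _ => True)
    simp only [and_true, Finset.filter_true] at h1
    rw [← h1]
    exact hrow i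
  have hint : ∀ i j, i ≠ j → θ ≤ (C i ∩ C j).card := by
    intro i j _
    have h1 := Finset.card_union_add_card_inter (C i) (C j)
    have h2 : (C i ∪ C j).card ≤ N' := by
      have h3 := Finset.card_le_univ (C i ∪ C j)
      rwa [Fintype.card_fin] at h3
    rw [hC, hC] at h1
    omega
  obtain ⟨lab, hsize, hk, hkk⟩ := hsep N' hN' C hC hint
  apply hV
  apply VV_zero (q := q) (fullForm_symm l) (fun G hG => fullForm_pow l h0 G hG) e
    (fun p => lab (e p) p.1)
  · intro i k
    have h1 : (univ.filter (fun p : Box l' => e p = i ∧ lab (e p) p.1 = k)) =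
        univ.filter (fun p : Box l' => e p = i ∧ lab i p.1 = k) := by
      ext p
      rw [Finset.mem_filter, Finset.mem_filter]
      constructor
      · rintro ⟨h2, h3, h4⟩
        exact ⟨h2, h3, by rw [← h3]; exact h4⟩
      · rintro ⟨h2, h3, h4⟩
        exact ⟨h2, h3, by rw [h3]; exact h4⟩
    rw [h1]
    exact (hbij i (fun t => lab i t = k)).trans (hsize i k)
  · intro i j hij k hk1
    obtain ⟨t, ht, h1, h2⟩ := hk i j hij k hk1
    rw [Finset.mem_inter, Finset.mem_filter, Finset.mem_filter] at ht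
    obtain ⟨⟨_, u, hu⟩, ⟨_, v, hv⟩⟩ := ht
    exact ⟨t, u, v, hu, hv, by simp only [hu, h1], by simp only [hv, h2]⟩
  · intro i j hij k k' hk1
    obtain ⟨t, ht, h1, h2⟩ := hkk i j hij k k' hk1
    rw [Finset.mem_inter, Finset.mem_filter, Finset.mem_filter] at ht
    obtain ⟨⟨_, u, hu⟩, ⟨_, v, hv⟩⟩ := ht
    exact ⟨t, u, v, hu, hv, by simp only [hu, h1], by simp only [hv, h2]⟩

/-- The power map is injective on the bulk. -/
theorem powMap_bulk {a q θ : ℕ} (hq : 1 ≤ q)
    (hb : a * (a - 1) * (q - 1) * (q ^ 2 - 1) ^ θ < q ^ (2 * θ))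
    (lam : Fin (n + 1) → ℕ) (hlam : ∀ m, lam m + θ ≤ 2 * (q * a))
    (x : Sym[ℂ]^a (Sym[ℂ]^(q * a) (Fin (n + 1) → ℂ)))
    (hx : x ∈ hwSpace lam (plethAct a (q * a) (n + 1)))
    (hx0 : powMap a q (Fin (n + 1) → ℂ) x = 0) : x = 0 := by
  have h0 := hlam 0
  refine powMap_inj_of_sep (N := 2 * (q * a) - θ) (θ := θ) lam (fun m => by
    have := hlam m
    omega) (by omega) ?_ x hx hx0
  intro N' _ C hC hθ
  exact sepLab_of_bound hq C hC hθ hb

theorem bulk {a q θ : ℕ} (hq : 1 ≤ q)
    (hb : a * (a - 1) * (q - 1) * (q ^ 2 - 1) ^ θ < q ^ (2 * θ))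
    (lam : Fin (n + 1) → ℕ) (hlam : ∀ m, lam m + θ ≤ 2 * (q * a)) :
    plethMult a (q * a) (n + 1) lam ≤ plethMult (q * a) a (n + 1) lam :=
  finrank_le_of_inj (powMap a q (Fin (n + 1) → ℂ)) _ _ (fun x hx => powMap_hwSpace lam x hx)
    (fun x hx h0 => powMap_bulk hq hb lam hlam x hx h0)

end Vale.Agent.P181.H179
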