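import Vale.Agent.P181.H179.Window

set_option autoImplicit false

open scoped TensorProduct

namespace Vale.Agent.P181.H179

open Vale.Agent.P181 Vale.Agent.P181.H280

section HW

variable {n a : ℕ}

/-- The functional on `Sym^(a+1) V` given by one functional `ξ` and `a` copies of the first
coordinate. -/
noncomputable def eta (a : ℕ) : Module.Dual ℂ (Fin (n + 1) → ℂ) →ₗ[ℂ]
    Module.Dual ℂ (Sym[ℂ]^(a + 1) (Fin (n + 1) → ℂ)) where
  toFun ξ := symEval (Fin.cons ξ (fun _ => crd 0))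
  map_add' ξ η := by
    apply LinearMap.ext
    intro x
    rw [LinearMap.add_apply, ← evalM_apply, ← evalM_apply, ← evalM_apply]
    have h := MultilinearMap.map_update_add (evalM x)
      (Fin.cons 0 (fun _ => crd 0) : Fin (a + 1) → Module.Dual ℂ (Fin (n + 1) → ℂ)) 0 ξ η
    simp only [Fin.update_cons_zero] at h
    exact h
  map_smul' c ξ := by
    apply LinearMap.ext
    intro x
    rw [RingHom.id_apply, LinearMap.smul_apply, ← evalM_apply, ← evalM_apply]
    have h := MultilinearMap.map_update_smul (evalM x)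
      (Fin.cons 0 (fun _ => crd 0) : Fin (a + 1) → Module.Dual ℂ (Fin (n + 1) → ℂ)) 0 c ξ
    simp only [Fin.update_cons_zero] at h
    exact h

lemma eta_apply (ξ : Module.Dual ℂ (Fin (n + 1) → ℂ)) :
    eta a ξ = symEval (Fin.cons ξ (fun _ => crd 0)) := rfl

/-- The monomial functional attached to `c`. -/
noncomputable def mono {b : ℕ} (c : Fin b → Fin (n + 1)) :
    Module.Dual ℂ (Sym[ℂ]^b (Fin (n + 1) → ℂ)) := symEval (fun j => crd (c j))

lemma mono_eq_eta (c : Fin (a + 1) → Fin (n + 1)) (j : Fin (a + 1))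
    (h : ∀ i, i ≠ j → c i = 0) : mono c = eta a (crd (c j)) := by
  rw [mono, eta_apply]
  apply LinearMap.ext
  intro x
  rw [← symEval_perm x _ (Equiv.swap 0 j)]
  congr 1
  congr 1
  funext i
  refine Fin.cases ?_ (fun i => ?_) i
  · rw [Fin.cons_zero, Equiv.swap_apply_left]
  · rw [Fin.cons_succ, h]
    intro hi
    have h1 : i.succ = Equiv.swap 0 j j := by
      rw [← Equiv.apply_eq_iff_eq (Equiv.swap 0 j), hi, Equiv.swap_apply_self]
    rw [Equiv.swap_apply_right] at h1
    exact Fin.succ_ne_zero i h1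

lemma eigW_eta (k : Fin (n + 1)) (hk : k ≠ 0) : EigW k (eta a (crd k)) 1 := by
  have h1 : eta a (crd k) = symEval (fun j => crd ((Fin.cons k (fun _ => 0) :
      Fin (a + 1) → Fin (n + 1)) j)) := by
    rw [eta_apply]
    congr 1
    funext j
    refine Fin.cases ?_ (fun j => ?_) j
    · rfl
    · rfl
  rw [h1]
  have h2 := eigW_crd k (Fin.cons k (fun _ => 0) : Fin (a + 1) → Fin (n + 1))
  have h3 : (Finset.univ.filter (fun j =>
      (Fin.cons k (fun _ => 0) : Fin (a + 1) → Fin (n + 1)) j = k)).card = 1 := by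
    rw [Finset.card_eq_one]
    refine ⟨0, ?_⟩
    ext j
    rw [Finset.mem_filter, Finset.mem_singleton]
    refine Fin.cases ?_ (fun j => ?_) j
    · simp
    · simp only [Fin.cons_succ, Finset.mem_univ, true_and]
      exact ⟨fun h => absurd h.symm hk, fun h => absurd h (Fin.succ_ne_zero j)⟩
  rw [h3] at h2
  exact h2

lemma eigW_smul {b : ℕ} {k : Fin (n + 1)} {φ : Module.Dual ℂ (Sym[ℂ]^b (Fin (n + 1) → ℂ))}
    {d : ℕ} (h : EigW k φ d) (c : ℂ) : EigW k (c • φ) d := by
  rw [EigW] at h ⊢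
  rw [LinearMap.smul_comp, h, smul_comm]

/-- A highest weight vector pairs to zero when many of the functionals are `eta ξ`. -/
lemma eta_zero_of {B : ℕ} {lam : Fin (n + 1) → ℕ}
    {x : Sym[ℂ]^B (Sym[ℂ]^(a + 1) (Fin (n + 1) → ℂ))}
    (hx : x ∈ hwSpace lam (plethAct B (a + 1) (n + 1))) (I : Finset (Fin B)) (hI : I.Nonempty)
    (hlam : ∀ k, k ≠ 0 → lam k < I.card)
    (ψ : Fin B → Module.Dual ℂ (Sym[ℂ]^(a + 1) (Fin (n + 1) → ℂ)))
    (ξ : Module.Dual ℂ (Fin (n + 1) → ℂ)) (hξ : ξ (Pi.single 0 1) = 0)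
    (h0 : ∀ i ∈ I, ψ i = eta a ξ) : symEval ψ x = 0 := by
  classical
  by_cases hξ0 : ∀ j, ξ (Pi.single j 1) = 0
  · have h1 : ξ = 0 := by
      apply LinearMap.pi_ext'
      intro j
      apply LinearMap.ext_ring
      rw [LinearMap.comp_apply, LinearMap.single_apply, hξ0 j]
      rfl
    obtain ⟨i0, hi0⟩ := hI
    have h2 : ψ i0 = 0 := by
      rw [h0 i0 hi0, h1, map_zero]
    rw [← evalM_apply]
    exact MultilinearMap.map_coord_zero (evalM x) i0 h2
  · push Not at hξ0
    obtain ⟨k, hk, hkmin⟩ : ∃ k, ξ (Pi.single k 1) ≠ 0 ∧ ∀ j, j < k → ξ (Pi.single j 1) = 0 := by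
      obtain ⟨k, hk⟩ := Finset.exists_minimal
        (s := Finset.univ.filter (fun j => ξ (Pi.single j 1) ≠ 0)) (by
          obtain ⟨j, hj⟩ := hξ0
          exact ⟨j, Finset.mem_filter.2 ⟨Finset.mem_univ _, hj⟩⟩)
      refine ⟨k, (Finset.mem_filter.1 hk.1).2, ?_⟩
      intro j hj
      by_contra hne
      have h1 := hk.2 (Finset.mem_filter.2 ⟨Finset.mem_univ _, hne⟩) hj.le
      exact absurd hj (not_lt.2 h1)
    have hk0 : k ≠ 0 := by
      rintro rfl
      exact hk hξ
    set c : ℂ := ξ (Pi.single k 1) with hc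
    let α : Module.Dual ℂ (Fin (n + 1) → ℂ) := c⁻¹ • ξ - crd k
    have hα : ∀ j, j ≤ k → α (Pi.single j 1) = 0 := by
      intro j hj
      have h1 : α (Pi.single j 1) = c⁻¹ * ξ (Pi.single j 1) - (Pi.single j 1 : Fin (n + 1) → ℂ) k :=
        rfl
      rcases eq_or_lt_of_le hj with h | h
      · rw [h1, h, ← hc, inv_mul_cancel₀ hk, Pi.single_eq_same, sub_self]
      · rw [h1, hkmin j h, mul_zero, Pi.single_eq_of_ne h.ne', sub_zero]
    have hξα : ξ = c • ((crd k) ∘ₗ unip k α) := by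
      apply LinearMap.ext
      intro v
      have h1 : (c • ((crd k) ∘ₗ unip k α)) v = c * (v k + α v * (Pi.single k 1 : Fin (n + 1) → ℂ) k)
        := rfl
      have h2 : α v = c⁻¹ * ξ v - v k := rfl
      rw [h1, h2, Pi.single_eq_same, mul_one, add_sub_cancel, mul_inv_cancel_left₀ hk]
    have hcrd0 : (crd 0) ∘ₗ unip k α = (crd 0 : Module.Dual ℂ (Fin (n + 1) → ℂ)) := by
      apply LinearMap.ext
      intro v
      have h1 : ((crd 0) ∘ₗ unip k α) v = v 0 + α v * (Pi.single k 1 : Fin (n + 1) → ℂ) 0 := rfl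
      rw [h1, Pi.single_eq_of_ne hk0.symm, mul_zero, add_zero]
      rfl
    have heta : eta a ξ = (c • eta a (crd k)) ∘ₗ symMap (a + 1) (unip k α) := by
      rw [hξα, map_smul, LinearMap.smul_comp]
      congr 1
      apply LinearMap.ext
      intro y
      rw [LinearMap.comp_apply, eta_apply, eta_apply, symEval_symMap]
      congr 1
      congr 1
      funext j
      refine Fin.cases ?_ (fun j => ?_) j
      · rfl
      · rw [Fin.cons_succ, Fin.cons_succ, hcrd0]
    obtain ⟨hB, hdiag⟩ := unip_borel (k := k) (α := α) hα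
    have h1 : symMap B (symMap (a + 1) (unip k α)) x = x := by
      have h2 : symMap B (symMap (a + 1) (Matrix.toLin' (LinearMap.toMatrix' (unip k α)))) x =
        (∏ i, (LinearMap.toMatrix' (unip k α)) i i ^ lam i) • x := hx _ hB
      rw [Matrix.toLin'_toMatrix'] at h2
      rw [h2]
      simp only [hdiag, one_pow, Finset.prod_const_one, one_smul]
    let ψ' : Fin B → Module.Dual ℂ (Sym[ℂ]^(a + 1) (Fin (n + 1) → ℂ)) :=
      fun i => if i ∈ I then c • eta a (crd k) else (ψ i) ∘ₗ symMap (a + 1) (unip k (-α))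
    have h2 : ψ = fun i => (ψ' i) ∘ₗ symMap (a + 1) (unip k α) := by
      funext i
      by_cases hi : i ∈ I
      · have h3 : ψ' i = c • eta a (crd k) := if_pos hi
        rw [h3, h0 i hi, heta]
      · have h3 : ψ' i = (ψ i) ∘ₗ symMap (a + 1) (unip k (-α)) := if_neg hi
        rw [h3, LinearMap.comp_assoc, ← symMap_comp, unip_comp (hα k le_rfl), symMap_id,
          LinearMap.comp_id]
    rw [h2, ← symEval_symMap, h1]
    -- weights
    rw [← evalM_apply]
    apply multilinear_zero_of_spans (evalM x) (fun i => if i ∈ I then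
      {(c • eta a (crd k) : Module.Dual ℂ (Sym[ℂ]^(a + 1) (Fin (n + 1) → ℂ)))} else
      Set.range (fun c : Fin (a + 1) → Fin (n + 1) =>
      (symEval (fun j => crd (c j)) : (Sym[ℂ]^(a + 1) (Fin (n + 1) → ℂ)) →ₗ[ℂ] ℂ)))
    · intro w hw
      have h1 : ∀ i, ∃ d, EigW k (w i) d ∧ (i ∈ I → d = 1) := by
        intro i
        have h2 := hw i
        by_cases hi : i ∈ I
        · rw [if_pos hi, Set.mem_singleton_iff] at h2
          rw [h2]
          exact ⟨1, eigW_smul (eigW_eta k hk0) c, fun _ => rfl⟩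
        · rw [if_neg hi] at h2
          obtain ⟨c, hc⟩ := h2
          rw [← hc]
          exact ⟨_, eigW_crd k c, fun h => absurd h hi⟩
      choose d hd hd' using h1
      rw [evalM_apply]
      by_contra hne
      have h3 := weight_eq hx k w d hd hne
      have h4 : I.card ≤ ∑ i, d i := by
        calc I.card = ∑ i ∈ I, d i := by
              rw [Finset.sum_congr rfl (fun i hi => hd' i hi), Finset.sum_const, smul_eq_mul,
                mul_one]
          _ ≤ ∑ i, d i := Finset.sum_le_sum_of_subset (Finset.subset_univ I)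
      rw [h3] at h4
      exact absurd h4 (not_le.2 (hlam k hk0))
    · intro i
      by_cases hi : i ∈ I
      · rw [if_pos hi]
        have h3 : ψ' i = c • eta a (crd k) := if_pos hi
        rw [h3]
        exact Submodule.subset_span (Set.mem_singleton _)
      · rw [if_neg hi, span_crd]
        exact Submodule.mem_top

/-- The same with different `ξ`, by polarization. -/
lemma eta_zero {B : ℕ} {lam : Fin (n + 1) → ℕ}
    {x : Sym[ℂ]^B (Sym[ℂ]^(a + 1) (Fin (n + 1) → ℂ))}
    (hx : x ∈ hwSpace lam (plethAct B (a + 1) (n + 1))) (I : Finset (Fin B)) (hI : I.Nonempty)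
    (hlam : ∀ k, k ≠ 0 → lam k < I.card)
    (ψ : Fin B → Module.Dual ℂ (Sym[ℂ]^(a + 1) (Fin (n + 1) → ℂ)))
    (ξ : Fin B → Module.Dual ℂ (Fin (n + 1) → ℂ)) (hξ : ∀ i ∈ I, ξ i (Pi.single 0 1) = 0)
    (h0 : ∀ i ∈ I, ψ i = eta a (ξ i)) : symEval ψ x = 0 := by
  classical
  let S : Submodule ℂ (Module.Dual ℂ (Fin (n + 1) → ℂ)) :=
    LinearMap.ker (Module.Dual.eval ℂ (Fin (n + 1) → ℂ) (Pi.single 0 1))
  have hS : ∀ η, η ∈ S ↔ η (Pi.single 0 1) = 0 := fun η => Iff.rfl
  let f : MultilinearMap ℂ (fun _ : {i // i ∈ I} => Module.Dual ℂ (Fin (n + 1) → ℂ)) ℂ :=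
    ((evalM x).domDomRestrict (fun i => i ∈ I) (fun i => ψ i)).compLinearMap (fun _ => eta a)
  have hf : ∀ y, f y = symEval (fun i => if h : i ∈ I then eta a (y ⟨i, h⟩) else ψ i) x :=
    fun _ => rfl
  have hpol := polar f S (by
    intro η hη
    rw [hf]
    apply eta_zero_of hx I hI hlam _ η ((hS η).1 hη)
    intro i hi
    rw [dif_pos hi]) (fun i => ξ i) (fun i => (hS _).2 (hξ i i.2))
  have hsym : ∀ π : Equiv.Perm {i // i ∈ I},
      f (fun p => ξ (π p)) = symEval ψ x := by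
    intro π
    rw [hf, ← symEval_perm x ψ (Equiv.Perm.ofSubtype π)]
    congr 1
    congr 1
    funext i
    by_cases hi : i ∈ I
    · rw [dif_pos hi, Equiv.Perm.ofSubtype_apply_of_mem π hi, h0 _ (π ⟨i, hi⟩).2]
    · rw [dif_neg hi, Equiv.Perm.ofSubtype_apply_of_not_mem π hi]
  rw [Finset.sum_congr rfl (fun π _ => hsym π), Finset.sum_const, nsmul_eq_mul,
    Finset.card_univ] at hpol
  refine (mul_eq_zero.1 hpol).resolve_left ?_
  exact_mod_cast Fintype.card_ne_zero

/-- The first basis vector to the power `a`. -/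
noncomputable def ezPow (a n : ℕ) : Sym[ℂ]^a (Fin (n + 1) → ℂ) :=
  SymmetricPower.tprod ℂ (fun _ => ez n)

lemma mono_ezPow_zero {b : ℕ} : (mono (fun _ => 0) : Module.Dual ℂ (Sym[ℂ]^b (Fin (n + 1) → ℂ)))
    (ezPow b n) = (Fintype.card (Equiv.Perm (Fin b)) : ℂ) := by
  rw [mono, ezPow, symEval_tprod]
  have h1 : (crd 0 : Module.Dual ℂ (Fin (n + 1) → ℂ)) (ez n) = 1 := by
    change (Pi.single 0 1 : Fin (n + 1) → ℂ) 0 = 1
    exact Pi.single_eq_same _ _
  simp only [h1, Finset.prod_const_one, Finset.sum_const, Finset.card_univ, nsmul_eq_mul, mul_one]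

lemma mono_ezPow {b : ℕ} (c : Fin b → Fin (n + 1)) (j : Fin b) (hj : c j ≠ 0) :
    mono c (ezPow b n) = 0 := by
  rw [mono, ezPow, symEval_tprod]
  apply Finset.sum_eq_zero
  intro e _
  apply Finset.prod_eq_zero (Finset.mem_univ j)
  change (Pi.single 0 1 : Fin (n + 1) → ℂ) (c j) = 0
  exact Pi.single_eq_of_ne hj _

lemma ezPow_ne (a : ℕ) : ezPow a n ≠ 0 := by
  intro h
  have h1 := mono_ezPow_zero (n := n) (b := a)
  rw [h, map_zero] at h1
  have h2 : (Fintype.card (Equiv.Perm (Fin a)) : ℂ) ≠ 0 := by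
    exact_mod_cast Fintype.card_ne_zero
  exact h2 h1.symm

/-- The functionals vanishing on `e_1^a` are spanned by monomials. -/
lemma mem_span_mono {b : ℕ} (φ : Module.Dual ℂ (Sym[ℂ]^b (Fin (n + 1) → ℂ)))
    (h : φ (ezPow b n) = 0) :
    φ ∈ Submodule.span ℂ {ψ | ∃ c : Fin b → Fin (n + 1), (∃ j, c j ≠ 0) ∧ ψ = mono c} := by
  set T : Set (Module.Dual ℂ (Sym[ℂ]^b (Fin (n + 1) → ℂ))) :=
    {ψ | ∃ c : Fin b → Fin (n + 1), (∃ j, c j ≠ 0) ∧ ψ = mono c} with hT
  have h1 : φ ∈ Submodule.span ℂ (insert (mono (fun _ => 0)) T) := by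
    have h2 : (⊤ : Submodule ℂ (Module.Dual ℂ (Sym[ℂ]^b (Fin (n + 1) → ℂ)))) ≤
        Submodule.span ℂ (insert (mono (fun _ => 0)) T) := by
      rw [← span_crd (n := n) b, Submodule.span_le]
      rintro _ ⟨c, rfl⟩
      apply Submodule.subset_span
      by_cases hc : ∃ j, c j ≠ 0
      · exact Set.mem_insert_of_mem _ ⟨c, hc, rfl⟩
      · push Not at hc
        have h3 : c = fun _ => 0 := funext hc
        rw [h3]
        exact Set.mem_insert _ _
    exact h2 Submodule.mem_top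
  obtain ⟨t, s, hs, hφ⟩ := Submodule.mem_span_insert.1 h1
  have hs0 : s (ezPow b n) = 0 := by
    clear hφ
    induction hs using Submodule.span_induction with
    | mem z hz =>
      obtain ⟨c, ⟨j, hj⟩, rfl⟩ := hz
      exact mono_ezPow c j hj
    | zero => rfl
    | add x y _ _ hx hy => rw [LinearMap.add_apply, hx, hy, add_zero]
    | smul r x _ hx => rw [LinearMap.smul_apply, hx, smul_zero]
  rw [hφ, LinearMap.add_apply, LinearMap.smul_apply, hs0, add_zero, mono_ezPow_zero,
    smul_eq_mul, mul_eq_zero] at h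
  have ht : t = 0 := by
    refine h.resolve_right ?_
    exact_mod_cast Fintype.card_ne_zero
  rw [hφ, ht, zero_smul, zero_add]
  exact hs

end HW

end Vale.Agent.P181.H179
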