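import Vale.Agent.P181.H179.Stable

set_option autoImplicit false

open scoped TensorProduct

namespace Vale.Agent.P181.H179

open Vale.Agent.P181 Vale.Agent.P181.H280

section HW

variable {n a : ℕ}

/-- A highest weight vector of `Sym^B(Sym^(a+1) V)` with long first row vanishes on the
functionals which vanish on `e_1^(a+1)`. -/
theorem vanish {B : ℕ} {lam : Fin (n + 1) → ℕ}
    {x : Sym[ℂ]^B (Sym[ℂ]^(a + 1) (Fin (n + 1) → ℂ))}
    (hx : x ∈ hwSpace lam (plethAct B (a + 1) (n + 1)))
    (hN : ∑ k : Fin n, lam k.succ < 2 * B)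
    (hlam : ∀ k, k ≠ 0 → lam k + ∑ k : Fin n, lam k.succ < 2 * B)
    (φ : Fin B → Module.Dual ℂ (Sym[ℂ]^(a + 1) (Fin (n + 1) → ℂ)))
    (hφ : ∀ i, φ i (ezPow (a + 1) n) = 0) : symEval φ x = 0 := by
  classical
  rw [← evalM_apply]
  apply multilinear_zero_of_spans (evalM x) (fun _ =>
    {ψ | ∃ c : Fin (a + 1) → Fin (n + 1), (∃ j, c j ≠ 0) ∧ ψ = mono c})
  · intro w hw
    choose c hc hwc using hw
    rw [evalM_apply]
    by_contra hne
    -- number of nonzero entries
    let z : Fin B → ℕ := fun i => (Finset.univ.filter (fun j => c i j ≠ 0)).card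
    have hz1 : ∀ i, 1 ≤ z i := by
      intro i
      obtain ⟨j, hj⟩ := hc i
      exact Finset.card_pos.2 ⟨j, Finset.mem_filter.2 ⟨Finset.mem_univ _, hj⟩⟩
    have hzk : ∀ i, z i = ∑ k : Fin n, (Finset.univ.filter (fun j => c i j = k.succ)).card := by
      intro i
      have h1 : (Finset.univ.filter (fun j => c i j ≠ 0)) =
          (Finset.univ : Finset (Fin n)).biUnion
            (fun k => Finset.univ.filter (fun j => c i j = k.succ)) := by
        ext j
        simp only [Finset.mem_filter, Finset.mem_univ, true_and, Finset.mem_biUnion]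
        constructor
        · intro h
          obtain ⟨k, hk⟩ := Fin.exists_succ_eq.2 h
          exact ⟨k, hk.symm⟩
        · rintro ⟨k, hk⟩
          rw [hk]
          exact Fin.succ_ne_zero k
      change (Finset.univ.filter (fun j => c i j ≠ 0)).card = _
      rw [h1, Finset.card_biUnion]
      intro k _ k' _ hkk'
      change Disjoint _ _
      rw [Finset.disjoint_left]
      intro j hj hj'
      rw [Finset.mem_filter] at hj hj'
      apply hkk'
      apply Fin.succ_injective
      rw [← hj.2, ← hj'.2]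
    have hsum : ∑ i, z i = ∑ k : Fin n, lam k.succ := by
      simp only [hzk]
      rw [Finset.sum_comm]
      apply Finset.sum_congr rfl
      intro k _
      apply weight_eq hx k.succ w _ _ hne
      intro i
      rw [hwc i]
      exact eigW_crd k.succ (c i)
    -- the factors with exactly one nonzero entry
    let I : Finset (Fin B) := Finset.univ.filter (fun i => z i = 1)
    have hIcard : 2 * B ≤ I.card + ∑ k : Fin n, lam k.succ := by
      have h1 : ∀ i, 2 ≤ (if z i = 1 then 1 else 0) + z i := by
        intro i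
        have := hz1 i
        split_ifs with h <;> omega
      calc 2 * B = ∑ _i : Fin B, 2 := by
            rw [Finset.sum_const, Finset.card_univ, Fintype.card_fin, smul_eq_mul, mul_comm]
        _ ≤ ∑ i, ((if z i = 1 then 1 else 0) + z i) := Finset.sum_le_sum (fun i _ => h1 i)
        _ = I.card + ∑ k : Fin n, lam k.succ := by
            rw [Finset.sum_add_distrib, hsum, Finset.card_filter]
    have hI : I.Nonempty := by
      rw [← Finset.card_pos]
      omega
    have hone : ∀ i ∈ I, ∃ j, c i j ≠ 0 ∧ ∀ l, l ≠ j → c i l = 0 := by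
      intro i hi
      have h1 : z i = 1 := (Finset.mem_filter.1 hi).2
      obtain ⟨j, hj⟩ := Finset.card_eq_one.1 h1
      have hj1 : j ∈ Finset.univ.filter (fun j => c i j ≠ 0) := by
        rw [hj]; exact Finset.mem_singleton_self j
      refine ⟨j, (Finset.mem_filter.1 hj1).2, ?_⟩
      intro l hl
      by_contra hne'
      have h2 : l ∈ Finset.univ.filter (fun j => c i j ≠ 0) :=
        Finset.mem_filter.2 ⟨Finset.mem_univ _, hne'⟩
      rw [hj, Finset.mem_singleton] at h2
      exact hl h2
    let ξ : Fin B → Module.Dual ℂ (Fin (n + 1) → ℂ) := fun i =>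
      if h : ∃ j, c i j ≠ 0 ∧ ∀ l, l ≠ j → c i l = 0 then crd (c i h.choose) else 0
    apply hne
    apply eta_zero hx I hI (fun k hk => by have := hlam k hk; omega) w ξ
    · intro i hi
      have h := hone i hi
      have h1 : ξ i = crd (c i h.choose) := dif_pos h
      rw [h1]
      change (Pi.single 0 1 : Fin (n + 1) → ℂ) (c i h.choose) = 0
      exact Pi.single_eq_of_ne h.choose_spec.1 _
    · intro i hi
      have h := hone i hi
      have h1 : ξ i = crd (c i h.choose) := dif_pos h
      rw [h1, hwc i]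
      exact mono_eq_eta (c i) h.choose h.choose_spec.2
  · intro i
    exact mem_span_mono (φ i) (hφ i)

/-- A criterion for divisibility by a vector. -/
lemma mem_range_of_vanish {W : Type} [AddCommGroup W] [Module ℂ W] [Module.Finite ℂ W] {b : ℕ}
    {w : W} (hw : w ≠ 0) (x : Sym[ℂ]^(b + 1) W)
    (h : ∀ φ : Fin (b + 1) → Module.Dual ℂ W, (∀ i, φ i w = 0) → symEval φ x = 0) :
    x ∈ LinearMap.range (mulBy b w) := by
  obtain ⟨η, hη⟩ : ∃ η : Module.Dual ℂ W, η w ≠ 0 := by
    by_contra hcon
    push Not at hcon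
    exact hw ((Module.forall_dual_apply_eq_zero_iff ℂ w).1 hcon)
  let α : W →ₗ[ℂ] ℂ := (η w)⁻¹ • η
  have hα : α w = 1 := inv_mul_cancel₀ hη
  let p : W →ₗ[ℂ] W := LinearMap.id - α.smulRight w
  have hp : ∀ v, v = p v + α v • w := by
    intro v
    have h1 : p v = v - α v • w := rfl
    rw [h1, sub_add_cancel]
  have hpw : p w = 0 := by
    have h1 : p w = w - α w • w := rfl
    rw [h1, hα, one_smul, sub_self]
  have h1 := sub_symMap_mem (b := b) w p α hp x
  have h2 : symMap (b + 1) p x = 0 := by
    apply symEval_separates Set.univ Submodule.span_univ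
    intro φ _
    rw [symEval_symMap]
    apply h
    intro i
    rw [LinearMap.comp_apply, hpw, map_zero]
  rw [h2, sub_zero] at h1
  exact h1

lemma exists_divW {W : Type} [AddCommGroup W] [Module ℂ W] [Module.Finite ℂ W] (b : ℕ)
    {w : W} (hw : w ≠ 0) : ∃ δ : (Sym[ℂ]^(b + 1) W) →ₗ[ℂ] (Sym[ℂ]^b W),
      δ ∘ₗ mulBy b w = LinearMap.id := by
  apply LinearMap.exists_leftInverse_of_injective
  rw [LinearMap.ker_eq_bot']
  intro x hx
  exact mulBy_eq_zero b hw x hx

/-- **Stability of the right side.** -/
theorem right_stable (a b : ℕ) (lam : Fin (n + 1) → ℕ) (c : ℕ) (h : lam 0 = c + (a + 1))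
    (hN : ∑ k : Fin n, lam k.succ < 2 * (b + 1))
    (hlam : ∀ k, k ≠ 0 → lam k + ∑ k : Fin n, lam k.succ < 2 * (b + 1)) :
    plethMult (b + 1) (a + 1) (n + 1) lam ≤
      plethMult b (a + 1) (n + 1) (Function.update lam 0 c) := by
  have hw := ezPow_ne (n := n) (a + 1)
  obtain ⟨δ, hδ⟩ := exists_divW b hw
  have hdiv : ∀ x : Sym[ℂ]^(b + 1) (Sym[ℂ]^(a + 1) (Fin (n + 1) → ℂ)),
      x ∈ hwSpace lam (plethAct (b + 1) (a + 1) (n + 1)) →
      mulBy b (ezPow (a + 1) n) (δ x) = x := by
    intro x hx
    obtain ⟨y, hy⟩ := mem_range_of_vanish hw x (fun φ hφ => vanish hx hN hlam φ hφ)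
    rw [← hy]
    have h1 := LinearMap.congr_fun hδ y
    rw [LinearMap.comp_apply, LinearMap.id_apply] at h1
    rw [h1]
  refine finrank_le_of_inj δ (hwSpace lam (plethAct (b + 1) (a + 1) (n + 1)))
    (hwSpace (Function.update lam 0 c) (plethAct b (a + 1) (n + 1))) ?_ ?_
  · intro x hx g hg
    have h1 := hdiv x hx
    set y : Sym[ℂ]^b (Sym[ℂ]^(a + 1) (Fin (n + 1) → ℂ)) := δ x with hy
    have h2 : symMap (b + 1) (symMap (a + 1) (Matrix.toLin' g)) x = (∏ i, g i i ^ lam i) • x :=
      hx g hg
    have h3 : symMap (a + 1) (Matrix.toLin' g) (ezPow (a + 1) n) =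
        g 0 0 ^ (a + 1) • ezPow (a + 1) n := by
      rw [ezPow, symMap_tprod, borel_ez hg]
      have h3 := MultilinearMap.map_smul_univ
        (SymmetricPower.tprod ℂ (ι := Fin (a + 1)) (M := Fin (n + 1) → ℂ)) (fun _ => g 0 0)
        (fun _ => ez n)
      rw [Finset.prod_const, Finset.card_univ, Fintype.card_fin] at h3
      exact h3
    have h5 : symMap (b + 1) (symMap (a + 1) (Matrix.toLin' g)) (mulBy b (ezPow (a + 1) n) y) =
        g 0 0 ^ (a + 1) • mulBy b (ezPow (a + 1) n)
          (symMap b (symMap (a + 1) (Matrix.toLin' g)) y) := by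
      rw [symMap_mulBy, h3, mulBy_smul]
      rfl
    rw [h1, h2, prod_update g lam c (a + 1) h, mul_smul] at h5
    have h6 : g 0 0 ^ (a + 1) ≠ 0 := pow_ne_zero _ (hg.2 0)
    have h7 : (∏ i, g i i ^ (Function.update lam 0 c i)) • x =
        mulBy b (ezPow (a + 1) n) (symMap b (symMap (a + 1) (Matrix.toLin' g)) y) := by
      have h8 := congrArg (fun z => (g 0 0 ^ (a + 1))⁻¹ • z) h5
      simp only [smul_smul, inv_mul_cancel₀ h6, one_smul] at h8
      rw [← mul_assoc, inv_mul_cancel₀ h6, one_mul] at h8
      exact h8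
    have h9 : mulBy b (ezPow (a + 1) n) (symMap b (symMap (a + 1) (Matrix.toLin' g)) y -
        (∏ i, g i i ^ (Function.update lam 0 c i)) • y) = 0 := by
      rw [map_sub, map_smul, h1, ← h7, sub_self]
    have h10 := sub_eq_zero.1 (mulBy_eq_zero b hw _ h9)
    exact h10
  · intro x hx h0
    have h1 := hdiv x hx
    have h2 : δ x = 0 := h0
    rw [h2, map_zero] at h1
    exact h1.symm

/-- **Monotonicity of the left side.** -/
theorem left_mono (a b : ℕ) (lam : Fin (n + 1) → ℕ) (c : ℕ) (h : lam 0 = c + a) :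
    plethMult a b (n + 1) (Function.update lam 0 c) ≤ plethMult a (b + 1) (n + 1) lam := by
  obtain ⟨δ, hδ⟩ := exists_div b n
  refine finrank_le_of_inj (symMap a (mulBy b (ez n)))
    (hwSpace (Function.update lam 0 c) (plethAct a b (n + 1)))
    (hwSpace lam (plethAct a (b + 1) (n + 1))) ?_ ?_
  · intro y hy g hg
    have h1 : symMap a (symMap b (Matrix.toLin' g)) y =
        (∏ i, g i i ^ (Function.update lam 0 c i)) • y := hy g hg
    have h2 : symMap (b + 1) (Matrix.toLin' g) ∘ₗ mulBy b (ez n) =
        (g 0 0 • mulBy b (ez n)) ∘ₗ symMap b (Matrix.toLin' g) := by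
      apply LinearMap.ext
      intro z
      rw [LinearMap.comp_apply, LinearMap.comp_apply, symMap_mulBy, borel_ez hg, mulBy_smul]
    have h5 : symMap a (symMap (b + 1) (Matrix.toLin' g)) (symMap a (mulBy b (ez n)) y) =
        g 0 0 ^ a • symMap a (mulBy b (ez n)) (symMap a (symMap b (Matrix.toLin' g)) y) := by
      rw [← LinearMap.comp_apply, ← symMap_comp, h2, symMap_comp, symMap_smul]
      rfl
    rw [h1, map_smul, smul_smul, ← prod_update g lam c a h] at h5
    exact h5
  · intro z _ hz
    have h1 := congrArg (symMap a δ) hz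
    rw [map_zero, ← LinearMap.comp_apply, ← symMap_comp, hδ, symMap_id] at h1
    exact h1

/-- Foulkes' inequality for `b ≥ (a - 1)^2`. -/
lemma quadratic {a b : ℕ} (hab : (a - 1) ^ 2 ≤ b) (m : ℕ) (lam : Fin m → ℕ) :
    plethMult a b m lam ≤ plethMult b a m lam := by
  refine finrank_le_of_inj (foulkesHowe a b (Fin m → ℂ)) (hwSpace lam (plethAct a b m))
    (hwSpace lam (plethAct b a m)) ?_ ?_
  · intro x hx g hg
    have h1 := LinearMap.congr_fun (foulkesHowe_equivariant a b (Matrix.toLin' g)) x
    rw [LinearMap.comp_apply, LinearMap.comp_apply] at h1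
    have h2 : symMap a (symMap b (Matrix.toLin' g)) x = (∏ i, g i i ^ lam i) • x := hx g hg
    rw [h2, map_smul] at h1
    exact h1.symm
  · intro x _ hx
    exact (injective_iff_map_eq_zero _).1 (foulkesHowe_injective hab) x hx

/-- **Foulkes' inequality for partitions with a long first row.** -/
theorem stable (a b : ℕ) (d : ℕ) (hd : (a + 1 - 1) ^ 2 ≤ b + d) :
    ∀ lam : Fin (n + 1) → ℕ, ∑ k : Fin n, lam k.succ < 2 * (b + 1) →
    (∀ k, k ≠ 0 → lam k + ∑ k : Fin n, lam k.succ < 2 * (b + 1)) →
    plethMult (a + 1) b (n + 1) lam ≤ plethMult b (a + 1) (n + 1) lam := by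
  induction d generalizing b with
  | zero =>
    intro lam _ _
    exact quadratic (by simpa using hd) (n + 1) lam
  | succ d ih =>
    intro lam hN hlam
    have hs : ∀ k : Fin n, Function.update lam 0 (lam 0 + (a + 1)) k.succ = lam k.succ :=
      fun k => Function.update_of_ne (Fin.succ_ne_zero k) _ _
    have h0 : Function.update (Function.update lam 0 (lam 0 + (a + 1))) 0 (lam 0) = lam := by
      rw [Function.update_idem, Function.update_eq_self]
    have h1 := left_mono (a + 1) b (Function.update lam 0 (lam 0 + (a + 1))) (lam 0)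
      (Function.update_self _ _ _)
    have h2 := ih (b + 1) (by omega) (Function.update lam 0 (lam 0 + (a + 1))) (by
      simp only [hs]
      omega) (by
      intro k hk
      simp only [hs]
      rw [Function.update_of_ne hk]
      have := hlam k hk
      omega)
    have h3 := right_stable a b (Function.update lam 0 (lam 0 + (a + 1))) (lam 0)
      (Function.update_self _ _ _) (by simp only [hs]; exact hN) (by
      intro k hk
      simp only [hs]
      rw [Function.update_of_ne hk]
      exact hlam k hk)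
    rw [h0] at h1 h3
    exact (h1.trans h2).trans h3

end HW

end Vale.Agent.P181.H179
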