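import Vale.Agent.P181.H179.Div

set_option autoImplicit false

open scoped TensorProduct

namespace Vale.Agent.P181.H179

open Vale.Agent.P181 Vale.Agent.P181.H280

section Step

variable {n : ℕ}

/-- The first basis vector. -/
noncomputable def ez (n : ℕ) : Fin (n + 1) → ℂ := Pi.single 0 1

lemma borel_ez {g : Matrix (Fin (n + 1)) (Fin (n + 1)) ℂ} (hg : IsBorel g) :
    Matrix.toLin' g (ez n) = g 0 0 • ez n := by
  rw [ez, Matrix.toLin'_apply, Matrix.mulVec_single_one]
  funext i
  rw [Pi.smul_apply, smul_eq_mul, Matrix.col_apply]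
  by_cases hi : i = 0
  · rw [hi, Pi.single_eq_same, mul_one]
  · rw [Pi.single_eq_of_ne hi, mul_zero]
    exact hg.1 i 0 (Fin.pos_of_ne_zero hi)

lemma ez_ne : ez n ≠ 0 := by
  intro h
  have h1 := congrFun h 0
  rw [ez, Pi.single_eq_same] at h1
  exact one_ne_zero h1

/-- The weight product, after changing the first weight. -/
lemma prod_update (g : Matrix (Fin (n + 1)) (Fin (n + 1)) ℂ) (lam : Fin (n + 1) → ℕ) (c d : ℕ)
    (h : lam 0 = c + d) : ∏ i, g i i ^ lam i =
      g 0 0 ^ d * ∏ i, g i i ^ (Function.update lam 0 c i) := by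
  rw [Fin.prod_univ_succ, Fin.prod_univ_succ, h, Function.update_self, pow_add]
  have h1 : ∀ i : Fin n, Function.update lam 0 c i.succ = lam i.succ :=
    fun i => Function.update_of_ne (Fin.succ_ne_zero i) _ _
  simp only [h1]
  ring

/-- **Right side.** Multiplication by `e_1^a`. -/
theorem right_step (a b : ℕ) (lam : Fin (n + 1) → ℕ) (c : ℕ) (h : lam 0 = c + a) :
    plethMult b a (n + 1) (Function.update lam 0 c) ≤ plethMult (b + 1) a (n + 1) lam := by
  let w : Sym[ℂ]^a (Fin (n + 1) → ℂ) := SymmetricPower.tprod ℂ (fun _ => ez n)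
  have hw : w ≠ 0 := by
    intro h0
    have h1 := evalPow_tprod a (crd 0) (fun _ => ez n)
    have h2 : (SymmetricPower.tprod ℂ (fun _ : Fin a => ez n)) = 0 := h0
    rw [h2, map_zero] at h1
    have h3 : (crd 0 : Module.Dual ℂ (Fin (n + 1) → ℂ)) (ez n) = 1 := by
      change (Pi.single 0 1 : Fin (n + 1) → ℂ) 0 = 1
      exact Pi.single_eq_same _ _
    rw [h3, Finset.prod_const_one] at h1
    exact zero_ne_one h1
  refine finrank_le_of_inj (mulBy b w)
    (hwSpace (Function.update lam 0 c) (plethAct b a (n + 1)))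
    (hwSpace lam (plethAct (b + 1) a (n + 1))) ?_ (fun x _ hx => mulBy_eq_zero b hw x hx)
  intro x hx g hg
  have h1 : symMap b (symMap a (Matrix.toLin' g)) x =
      (∏ i, g i i ^ (Function.update lam 0 c i)) • x := hx g hg
  have h2 : symMap a (Matrix.toLin' g) w = g 0 0 ^ a • w := by
    rw [symMap_tprod, borel_ez hg]
    have h3 := MultilinearMap.map_smul_univ
      (SymmetricPower.tprod ℂ (ι := Fin a) (M := Fin (n + 1) → ℂ)) (fun _ => g 0 0)
      (fun _ => ez n)
    rw [Finset.prod_const, Finset.card_univ, Fintype.card_fin] at h3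
    exact h3
  have h4 : symMap (b + 1) (symMap a (Matrix.toLin' g)) (mulBy b w x) =
      (∏ i, g i i ^ lam i) • mulBy b w x := by
    rw [symMap_mulBy, h1, h2, mulBy_smul, map_smul, LinearMap.smul_apply, smul_smul,
      prod_update g lam c a h, mul_comm]
  exact h4

/-- Division by the first basis vector. -/
lemma exists_div (b n : ℕ) : ∃ δ : (Sym[ℂ]^(b + 1) (Fin (n + 1) → ℂ)) →ₗ[ℂ]
    (Sym[ℂ]^b (Fin (n + 1) → ℂ)), δ ∘ₗ mulBy b (ez n) = LinearMap.id := by
  apply LinearMap.exists_leftInverse_of_injective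
  rw [LinearMap.ker_eq_bot']
  intro x hx
  exact mulBy_eq_zero b ez_ne x hx

/-- A highest weight vector with small lower weights is divisible by `e_1` in all factors. -/
theorem divisible {a b : ℕ} {lam : Fin (n + 1) → ℕ}
    {x : Sym[ℂ]^a (Sym[ℂ]^(b + 1) (Fin (n + 1) → ℂ))}
    (hx : x ∈ hwSpace lam (plethAct a (b + 1) (n + 1))) (hlam : ∀ i, i ≠ 0 → lam i ≤ b)
    {δ : (Sym[ℂ]^(b + 1) (Fin (n + 1) → ℂ)) →ₗ[ℂ] (Sym[ℂ]^b (Fin (n + 1) → ℂ))}
    (hδ : δ ∘ₗ mulBy b (ez n) = LinearMap.id) :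
    symMap a (mulBy b (ez n)) (symMap a δ x) = x := by
  classical
  set π : (Sym[ℂ]^(b + 1) (Fin (n + 1) → ℂ)) →ₗ[ℂ] (Sym[ℂ]^(b + 1) (Fin (n + 1) → ℂ)) :=
    mulBy b (ez n) ∘ₗ δ with hπ
  have h1 : symMap a (mulBy b (ez n)) (symMap a δ x) = symMap a π x := by
    rw [hπ, symMap_comp]
    rfl
  rw [h1]
  have h2 : π ∘ₗ mulBy b (ez n) = mulBy b (ez n) := by
    rw [hπ, LinearMap.comp_assoc, hδ, LinearMap.comp_id]
  rw [← sub_eq_zero]
  apply symEval_separates Set.univ Submodule.span_univ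
  intro φ _
  rw [map_sub, sub_eq_zero, symEval_symMap]
  -- split `φ` along the projection
  have h3 : φ = (fun i => (φ i) ∘ₗ π) + (fun i => φ i - (φ i) ∘ₗ π) := by
    funext i
    rw [Pi.add_apply, add_sub_cancel]
  have h4 := MultilinearMap.map_add_univ (evalM x) (fun i => (φ i) ∘ₗ π)
    (fun i => φ i - (φ i) ∘ₗ π)
  rw [← h3] at h4
  rw [← evalM_apply x φ, h4,
    ← Finset.add_sum_erase Finset.univ _ (Finset.mem_univ (Finset.univ : Finset (Fin a)))]
  have h5 : (Finset.univ : Finset (Fin a)).piecewise (fun i => (φ i) ∘ₗ π)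
      (fun i => φ i - (φ i) ∘ₗ π) = fun i => (φ i) ∘ₗ π := by
    funext i
    simp
  rw [h5, evalM_apply, left_eq_add]
  apply Finset.sum_eq_zero
  intro s hs
  have hs1 : s ≠ Finset.univ := (Finset.mem_erase.1 hs).1
  obtain ⟨j, hj⟩ : ∃ j, j ∉ s := by
    by_contra hcon
    push Not at hcon
    exact hs1 (Finset.eq_univ_iff_forall.2 hcon)
  rw [evalM_apply]
  apply kill_zero hx hlam _ j
  rw [Finset.piecewise_eq_of_notMem _ _ _ hj, LinearMap.sub_comp, LinearMap.comp_assoc]
  have h6 : π ∘ₗ mulBy b (Pi.single 0 1 : Fin (n + 1) → ℂ) =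
      mulBy b (Pi.single 0 1 : Fin (n + 1) → ℂ) := h2
  rw [h6, sub_self]

/-- **Left side.** Division by `e_1` in all factors. -/
theorem left_step (a b : ℕ) (lam : Fin (n + 1) → ℕ) (c : ℕ) (h : lam 0 = c + a)
    (hlam : ∀ i, i ≠ 0 → lam i ≤ b) :
    plethMult a (b + 1) (n + 1) lam ≤ plethMult a b (n + 1) (Function.update lam 0 c) := by
  obtain ⟨δ, hδ⟩ := exists_div b n
  have hinj : ∀ z : Sym[ℂ]^a (Sym[ℂ]^b (Fin (n + 1) → ℂ)),
      symMap a (mulBy b (ez n)) z = 0 → z = 0 := by
    intro z hz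
    have h1 := congrArg (symMap a δ) hz
    rw [map_zero, ← LinearMap.comp_apply, ← symMap_comp, hδ, symMap_id] at h1
    exact h1
  refine finrank_le_of_inj (symMap a δ) (hwSpace lam (plethAct a (b + 1) (n + 1)))
    (hwSpace (Function.update lam 0 c) (plethAct a b (n + 1))) ?_ ?_
  · intro x hx g hg
    have hdiv := divisible hx hlam hδ
    set y : Sym[ℂ]^a (Sym[ℂ]^b (Fin (n + 1) → ℂ)) := symMap a δ x with hy
    have h1 : symMap a (symMap (b + 1) (Matrix.toLin' g)) x = (∏ i, g i i ^ lam i) • x := hx g hg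
    -- equivariance of the multiplication
    have h2 : symMap (b + 1) (Matrix.toLin' g) ∘ₗ mulBy b (ez n) =
        (g 0 0 • mulBy b (ez n)) ∘ₗ symMap b (Matrix.toLin' g) := by
      apply LinearMap.ext
      intro z
      rw [LinearMap.comp_apply, LinearMap.comp_apply, symMap_mulBy, borel_ez hg, mulBy_smul]
    have h5 : symMap a (symMap (b + 1) (Matrix.toLin' g)) (symMap a (mulBy b (ez n)) y) =
        g 0 0 ^ a • symMap a (mulBy b (ez n)) (symMap a (symMap b (Matrix.toLin' g)) y) := by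
      rw [← LinearMap.comp_apply, ← symMap_comp, h2, symMap_comp, symMap_smul]
      rfl
    rw [hdiv, h1, prod_update g lam c a h, mul_smul] at h5
    have h6 : g 0 0 ^ a ≠ 0 := pow_ne_zero _ (hg.2 0)
    have h7 : (∏ i, g i i ^ (Function.update lam 0 c i)) • x =
        symMap a (mulBy b (ez n)) (symMap a (symMap b (Matrix.toLin' g)) y) := by
      have h8 := congrArg (fun z => (g 0 0 ^ a)⁻¹ • z) h5
      simp only [smul_smul, inv_mul_cancel₀ h6, one_smul] at h8
      rw [← mul_assoc, inv_mul_cancel₀ h6, one_mul] at h8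
      exact h8
    have h9 : symMap a (mulBy b (ez n)) (symMap a (symMap b (Matrix.toLin' g)) y -
        (∏ i, g i i ^ (Function.update lam 0 c i)) • y) = 0 := by
      rw [map_sub, map_smul, hdiv, ← h7, sub_self]
    have h10 := sub_eq_zero.1 (hinj _ h9)
    exact h10
  · intro x hx h0
    have hdiv := divisible hx hlam hδ
    have h1 : symMap a δ x = 0 := h0
    rw [h1, map_zero] at hdiv
    exact hdiv.symm

/-- If the first weight is too small there are no highest weight vectors. -/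
theorem left_zero (a b : ℕ) (lam : Fin (n + 1) → ℕ) (h : lam 0 < a)
    (hlam : ∀ i, i ≠ 0 → lam i ≤ b) : plethMult a (b + 1) (n + 1) lam = 0 := by
  classical
  have h1 : ∀ x : Sym[ℂ]^a (Sym[ℂ]^(b + 1) (Fin (n + 1) → ℂ)),
      x ∈ hwSpace lam (plethAct a (b + 1) (n + 1)) → x = 0 := by
    intro x hx
    apply symEval_separates _ (span_crd (n := n) (b + 1))
    intro φ hφ
    choose c hc using hφ
    by_contra hne
    -- every factor contains the first coordinate
    have h2 : ∀ i, ∃ j, c i j = 0 := by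
      intro i
      by_contra hcon
      push Not at hcon
      apply hne
      apply kill_zero hx hlam φ i
      rw [← hc i]
      apply sym_hom_ext
      intro v
      rw [LinearMap.comp_apply, mulBy_tprod, LinearMap.zero_apply, symEval_tprod]
      apply Finset.sum_eq_zero
      intro e _
      apply Finset.prod_eq_zero (Finset.mem_univ (e.symm 0))
      rw [Equiv.apply_symm_apply, Fin.cons_zero]
      have h3 : (crd (c i (e.symm 0)) : Module.Dual ℂ (Fin (n + 1) → ℂ)) (Pi.single 0 1) =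
        (Pi.single 0 1 : Fin (n + 1) → ℂ) (c i (e.symm 0)) := rfl
      rw [h3, Pi.single_eq_of_ne (hcon _)]
    have h4 := weight_eq hx 0 φ (fun i => (Finset.univ.filter (fun j => c i j = 0)).card)
      (fun i => by rw [← hc i]; exact eigW_crd 0 (c i)) hne
    have h5 : ∀ i, 1 ≤ (Finset.univ.filter (fun j => c i j = 0)).card := by
      intro i
      obtain ⟨j, hj⟩ := h2 i
      exact Finset.card_pos.2 ⟨j, Finset.mem_filter.2 ⟨Finset.mem_univ _, hj⟩⟩
    have h6 : a ≤ ∑ i : Fin a, (Finset.univ.filter (fun j => c i j = 0)).card := by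
      calc a = ∑ _i : Fin a, 1 := by simp
        _ ≤ _ := Finset.sum_le_sum (fun i _ => h5 i)
    omega
  have h2 : hwSpace lam (plethAct a (b + 1) (n + 1)) = ⊥ := by
    rw [eq_bot_iff]
    intro x hx
    exact h1 x hx
  rw [plethMult, h2]
  exact finrank_bot ℂ _

end Step

end Vale.Agent.P181.H179
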