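import Vale.Agent.P181.H179.TailL

/-!
P181: almost all partitions have many long columns.
-/

set_option autoImplicit false

namespace Vale.Agent.P181.H179.TL

open Finset Vale.Agent.P181.H676

/-- The growth of the number of partitions with at most `n + 1` parts. -/
def Growth (Cg : ℝ) : Prop := ∀ n N T : ℕ, 2 * T ≤ N → (n + 1) ^ 2 ≤ N - T →
  ((Lam (n + 1) N).card : ℝ) ≤
    Cg * Real.exp (2 * ((n : ℝ) + 1) * T / N) * ((Lam (n + 1) (N - T)).card : ℝ)

lemma choose_le {z m : ℕ} (hm : 1 ≤ m) :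
    (((z + m).choose m : ℕ) : ℝ) ≤ (((z : ℝ) + m) * Real.exp 1 / m) ^ m := by
  have hm0 : (0 : ℝ) < m := by exact_mod_cast hm
  have h1 := Nat.choose_le_pow_div (α := ℝ) m (z + m)
  have h2 := Real.pow_div_factorial_le_exp (m : ℝ) (Nat.cast_nonneg m) m
  have hf : (0 : ℝ) < (Nat.factorial m : ℝ) := by exact_mod_cast Nat.factorial_pos m
  have h3 : ((z + m : ℕ) : ℝ) ^ m / (Nat.factorial m : ℝ) =
      (((z : ℝ) + m) / m) ^ m * ((m : ℝ) ^ m / (Nat.factorial m : ℝ)) := by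
    push_cast
    rw [div_pow]
    field_simp
  have h4 : (((z : ℝ) + m) * Real.exp 1 / m) ^ m = (((z : ℝ) + m) / m) ^ m * Real.exp m := by
    have h5 : ((z : ℝ) + m) * Real.exp 1 / m = (((z : ℝ) + m) / m) * Real.exp 1 := by ring
    rw [h5, mul_pow, ← Real.exp_nat_mul, mul_one]
  rw [h4]
  refine h1.trans ?_
  rw [h3]
  exact mul_le_mul_of_nonneg_left h2 (by positivity)

/-- **Almost all partitions have many long columns.** -/
theorem tail2 {Cg : ℝ} (hg : Growth Cg) (hCg : 0 ≤ Cg) {r m b z : ℕ} (hr : 1 ≤ r) (hm : 1 ≤ m)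
    (hmr : m ≤ r) (hb : 2 * (r + m) ≤ b) (hz : 42 * (z + m) * (r + m) ≤ m * b) :
    ((((Lam (r + m) ((r + m) * b)).filter
      (fun l => l (Fin.natAdd r ⟨0, hm⟩) < z)).card : ℕ) : ℝ) * 2 ^ m ≤
      Cg * ((Lam (r + m) ((r + m) * b)).card : ℝ) := by
  obtain ⟨a, ha⟩ : ∃ a, a = r + m := ⟨_, rfl⟩
  have ha0 : 0 < a := by omega
  obtain ⟨M, hM⟩ : ∃ M, M = b / a := ⟨_, rfl⟩
  have hMa : M * a ≤ b := by
    rw [hM]
    exact Nat.div_mul_le_self b a
  have hMb : b < a * (M + 1) := by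
    rw [hM]
    exact Nat.lt_mul_div_succ b ha0
  obtain ⟨T, hT⟩ : ∃ T, T = m * (M * (r + m)) := ⟨_, rfl⟩
  have hTb : T ≤ m * b := by
    rw [hT, ← ha]
    exact Nat.mul_le_mul_left m hMa
  have hN : (r + m) * b = r * b + m * b := by ring
  have hmb : m * b ≤ r * b := Nat.mul_le_mul_right b hmr
  have h2T : 2 * T ≤ (r + m) * b := by omega
  obtain ⟨N, hNe⟩ : ∃ N, N = (r + m) * b := ⟨_, rfl⟩
  rw [← hNe] at h2T ⊢
  have hNT : r ^ 2 ≤ N - T := by
    have h1 : r * (2 * (r + m)) ≤ r * b := Nat.mul_le_mul_left r hb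
    have h2 : r ^ 2 * 2 ≤ r * (2 * (r + m)) := by
      have : r * (2 * (r + m)) = r ^ 2 * 2 + 2 * (r * m) := by ring
      omega
    have h3 : 2 * (r * b) ≥ N := by
      rw [hNe, hN]
      omega
    have h4 : r * b ≤ N := by
      rw [hNe, hN]
      omega
    omega
  have e1 := few (z := z) (N := N) hr hm
  have e2 := many (M := M) (N := N - T) (T := T) hr (le_of_eq hT.symm)
  rw [Nat.sub_add_cancel (by omega)] at e2
  obtain ⟨r', hr'⟩ : ∃ r', r = r' + 1 := ⟨r - 1, by omega⟩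
  have e3 : ((Lam r N).card : ℝ) ≤ Cg * Real.exp (2 * (r : ℝ) * T / N) *
      ((Lam r (N - T)).card : ℝ) := by
    have h1 := hg r' N T h2T (by rw [← hr']; exact hNT)
    rw [← hr'] at h1
    have h2 : ((r' : ℝ) + 1) = r := by
      rw [hr']
      push_cast
      ring
    rw [h2] at h1
    exact h1
  have hm0 : (0 : ℝ) < m := by exact_mod_cast hm
  have hr0 : (0 : ℝ) < r := by exact_mod_cast hr
  have hNpos : (0 : ℝ) < N := by
    have : 0 < N := by
      rw [hNe]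
      exact Nat.mul_pos (by omega) (by omega)
    exact_mod_cast this
  have hE : Real.exp (2 * (r : ℝ) * T / N) ≤ Real.exp 1 ^ (2 * m) := by
    rw [← Real.exp_nat_mul, Real.exp_le_exp, mul_one, div_le_iff₀ hNpos]
    have h1 : 2 * r * T ≤ 2 * m * N := by
      have h2 : r * T ≤ (r + m) * (m * b) := Nat.mul_le_mul (by omega) hTb
      calc 2 * r * T = 2 * (r * T) := by ring
        _ ≤ 2 * ((r + m) * (m * b)) := Nat.mul_le_mul_left 2 h2
        _ = 2 * m * N := by rw [hNe]; ring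
    have h3 : ((2 * r * T : ℕ) : ℝ) ≤ ((2 * m * N : ℕ) : ℝ) := by exact_mod_cast h1
    push_cast at h3 ⊢
    linarith
  have hch := choose_le (z := z) hm
  obtain ⟨Y, hY⟩ : ∃ Y : ℝ, Y = ((z : ℝ) + m) * Real.exp 1 ^ 3 / m := ⟨_, rfl⟩
  have hY0 : 0 < Y := by
    rw [hY]
    have := Real.exp_pos 1
    positivity
  have hYe : (((z : ℝ) + m) * Real.exp 1 / m) ^ m * Real.exp 1 ^ (2 * m) = Y ^ m := by
    rw [hY, pow_mul, ← mul_pow]
    congr 1
    ring
  have hYM : 2 * Y ≤ (M : ℝ) + 1 := by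
    have h1 : 42 * (z + m) ≤ m * (M + 1) := by
      have h2 : 42 * (z + m) * a ≤ m * (M + 1) * a := by
        calc 42 * (z + m) * a ≤ m * b := by rw [ha]; exact hz
          _ ≤ m * (a * (M + 1)) := Nat.mul_le_mul_left m hMb.le
          _ = m * (M + 1) * a := by ring
      exact Nat.le_of_mul_le_mul_right h2 ha0
    have h3 : (42 : ℝ) * ((z : ℝ) + m) ≤ m * ((M : ℝ) + 1) := by exact_mod_cast h1
    have h4 : Real.exp 1 ^ 3 ≤ 21 := by
      have h5 := Real.exp_one_lt_d9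
      have h6 := Real.exp_pos 1
      calc Real.exp 1 ^ 3 ≤ (2.75 : ℝ) ^ 3 := pow_le_pow_left₀ h6.le (by linarith) 3
        _ ≤ 21 := by norm_num
    rw [hY, mul_div_assoc', div_le_iff₀ hm0]
    have h5 : (0 : ℝ) ≤ (z : ℝ) + m := by positivity
    have h6 : 2 * (((z : ℝ) + m) * Real.exp 1 ^ 3) ≤ 42 * ((z : ℝ) + m) := by nlinarith
    linarith
  obtain ⟨B, hB⟩ : ∃ B : ℝ, B = ((((Lam (r + m) N).filter
      (fun l => l (Fin.natAdd r ⟨0, hm⟩) < z)).card : ℕ) : ℝ) := ⟨_, rfl⟩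
  have hB0 : 0 ≤ B := by
    rw [hB]
    exact Nat.cast_nonneg _
  obtain ⟨P, hP⟩ : ∃ P : ℝ, P = ((Lam r (N - T)).card : ℝ) := ⟨_, rfl⟩
  have hP0 : 0 ≤ P := by
    rw [hP]
    exact Nat.cast_nonneg _
  rw [← hB]
  rw [← hP] at e3
  have f1 : B ≤ (((z + m).choose m : ℕ) : ℝ) * ((Lam r N).card : ℝ) := by
    rw [hB]
    exact_mod_cast e1
  have f2 : ((M : ℝ) + 1) ^ m * P ≤ ((Lam (r + m) N).card : ℝ) := by
    rw [hP]
    exact_mod_cast e2
  have f3 : B ≤ Cg * (Y ^ m * P) := by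
    have h1 : (0 : ℝ) ≤ (((z + m).choose m : ℕ) : ℝ) := Nat.cast_nonneg _
    calc B ≤ (((z + m).choose m : ℕ) : ℝ) * ((Lam r N).card : ℝ) := f1
      _ ≤ (((z + m).choose m : ℕ) : ℝ) * (Cg * Real.exp (2 * (r : ℝ) * T / N) * P) :=
          mul_le_mul_of_nonneg_left e3 h1
      _ ≤ (((z + m).choose m : ℕ) : ℝ) * (Cg * Real.exp 1 ^ (2 * m) * P) := by
          apply mul_le_mul_of_nonneg_left _ h1
          apply mul_le_mul_of_nonneg_right _ hP0
          exact mul_le_mul_of_nonneg_left hE hCg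
      _ ≤ (((z : ℝ) + m) * Real.exp 1 / m) ^ m * (Cg * Real.exp 1 ^ (2 * m) * P) := by
          apply mul_le_mul_of_nonneg_right hch
          have := Real.exp_pos 1
          positivity
      _ = Cg * (((((z : ℝ) + m) * Real.exp 1 / m) ^ m * Real.exp 1 ^ (2 * m)) * P) := by ring
      _ = Cg * (Y ^ m * P) := by rw [hYe]
  calc B * 2 ^ m ≤ Cg * (Y ^ m * P) * 2 ^ m := mul_le_mul_of_nonneg_right f3 (by positivity)
    _ = Cg * ((2 * Y) ^ m * P) := by rw [mul_pow]; ring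
    _ ≤ Cg * (((M : ℝ) + 1) ^ m * P) := by
        apply mul_le_mul_of_nonneg_left _ hCg
        apply mul_le_mul_of_nonneg_right _ hP0
        exact pow_le_pow_left₀ (by positivity) hYM m
    _ ≤ Cg * ((Lam (r + m) N).card : ℝ) := mul_le_mul_of_nonneg_left f2 hCg

end Vale.Agent.P181.H179.TL
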