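import Vale.Agent.P181.H676.Tail

/-!
P181: partitions with few long columns.
-/

set_option autoImplicit false

namespace Vale.Agent.P181.H179.TL

open Finset Vale.Agent.P181.H676

/-- Add `k j` columns of length `r + j + 1` and `R` boxes in the first row. -/
def up {r m : ℕ} (R : ℕ) (μ : Fin r → ℕ) (k : Fin m → ℕ) : Fin (r + m) → ℕ := fun i =>
  (if h : (i : ℕ) < r then μ ⟨i, h⟩ else 0) + (∑ j : Fin m, if (i : ℕ) ≤ r + j then k j else 0) +
    if (i : ℕ) = 0 then R else 0

/-- Full columns of the long lengths. -/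
theorem many {r m M N T : ℕ} (hr : 1 ≤ r) (hT : m * (M * (r + m)) ≤ T) :
    (M + 1) ^ m * (Lam r N).card ≤ (Lam (r + m) (N + T)).card := by
  classical
  have hsum : ∀ k : Fin m → Fin (M + 1), ∑ j : Fin m, (r + j + 1) * (k j : ℕ) ≤ T := by
    intro k
    refine le_trans (Finset.sum_le_sum (g := fun _ => M * (r + m)) ?_) ?_
    · intro j _
      have h1 : (k j : ℕ) ≤ M := by have := (k j).2; omega
      have h2 : r + (j : ℕ) + 1 ≤ r + m := by have := j.2; omega
      calc (r + (j : ℕ) + 1) * (k j : ℕ) ≤ (r + m) * M := Nat.mul_le_mul h2 h1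
        _ = M * (r + m) := Nat.mul_comm _ _
    · rw [Finset.sum_const, Finset.card_univ, Fintype.card_fin, smul_eq_mul]
      exact hT
  have hcard : (M + 1) ^ m * (Lam r N).card =
      ((Lam r N) ×ˢ (univ : Finset (Fin m → Fin (M + 1)))).card := by
    rw [Finset.card_product, Finset.card_univ, Fintype.card_fun, Fintype.card_fin,
      Fintype.card_fin, Nat.mul_comm]
  rw [hcard]
  apply Finset.card_le_card_of_injOn (fun x => up (T - ∑ j : Fin m, (r + j + 1) * (x.2 j : ℕ)) x.1
    (fun j => (x.2 j : ℕ)))
  · rintro ⟨μ, k⟩ hx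
    rw [Finset.mem_coe, Finset.mem_product] at hx
    obtain ⟨hμ1, hμ2⟩ := mem_Lam.1 hx.1
    simp only at hμ1 hμ2
    rw [Finset.mem_coe, mem_Lam]
    constructor
    · intro i i' hii
      have h0 : (i : ℕ) ≤ i' := hii
      simp only [up]
      have h1 : (if h : (i' : ℕ) < r then μ ⟨i', h⟩ else 0) ≤
          (if h : (i : ℕ) < r then μ ⟨i, h⟩ else 0) := by
        by_cases h : (i' : ℕ) < r
        · rw [dif_pos h, dif_pos (by omega)]
          exact hμ1 (by rw [Fin.le_def]; exact h0)
        · rw [dif_neg h]
          exact Nat.zero_le _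
      have h2 : (∑ j : Fin m, if (i' : ℕ) ≤ r + j then (k j : ℕ) else 0) ≤
          ∑ j : Fin m, if (i : ℕ) ≤ r + j then (k j : ℕ) else 0 := by
        apply Finset.sum_le_sum
        intro j _
        by_cases h : (i' : ℕ) ≤ r + j
        · rw [if_pos h, if_pos (by omega)]
        · rw [if_neg h]
          exact Nat.zero_le _
      have h3 : (if (i' : ℕ) = 0 then T - ∑ j : Fin m, (r + j + 1) * (k j : ℕ) else 0) ≤
          if (i : ℕ) = 0 then T - ∑ j : Fin m, (r + j + 1) * (k j : ℕ) else 0 := by
        by_cases h : (i' : ℕ) = 0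
        · rw [if_pos h, if_pos (by omega)]
        · rw [if_neg h]
          exact Nat.zero_le _
      exact Nat.add_le_add (Nat.add_le_add h1 h2) h3
    · simp only [up]
      rw [Finset.sum_add_distrib, Finset.sum_add_distrib]
      have h1 : ∑ i : Fin (r + m), (if h : (i : ℕ) < r then μ ⟨i, h⟩ else 0) = N := by
        rw [Fin.sum_univ_add]
        have h2 : ∑ i : Fin r, (if h : ((Fin.castAdd m i : Fin (r + m)) : ℕ) < r then
            μ ⟨(Fin.castAdd m i : Fin (r + m)), h⟩ else 0) = ∑ i, μ i := by
          apply Finset.sum_congr rfl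
          intro i _
          rw [dif_pos (by rw [Fin.val_castAdd]; exact i.2)]
          rfl
        have h3 : ∑ i : Fin m, (if h : ((Fin.natAdd r i : Fin (r + m)) : ℕ) < r then
            μ ⟨(Fin.natAdd r i : Fin (r + m)), h⟩ else 0) = 0 := by
          apply Finset.sum_eq_zero
          intro i _
          rw [dif_neg (by rw [Fin.val_natAdd]; omega)]
        rw [h2, h3, add_zero, hμ2]
      have h4 : ∑ i : Fin (r + m), (∑ j : Fin m, if (i : ℕ) ≤ r + j then (k j : ℕ) else 0) =
          ∑ j : Fin m, (r + j + 1) * (k j : ℕ) := by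
        rw [Finset.sum_comm]
        apply Finset.sum_congr rfl
        intro j _
        rw [← Finset.sum_filter, Finset.sum_const, smul_eq_mul]
        congr 1
        have h5 : univ.filter (fun i : Fin (r + m) => (i : ℕ) ≤ r + j) =
            Finset.Iic (⟨r + j, by have := j.2; omega⟩ : Fin (r + m)) := by
          ext i
          rw [Finset.mem_filter, Finset.mem_Iic, Fin.le_def]
          exact ⟨fun h => h.2, fun h => ⟨Finset.mem_univ _, h⟩⟩
        rw [h5, Fin.card_Iic]
      have h6 : ∑ i : Fin (r + m), (if (i : ℕ) = 0 then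
          T - ∑ j : Fin m, (r + j + 1) * (k j : ℕ) else 0) =
          T - ∑ j : Fin m, (r + j + 1) * (k j : ℕ) := by
        rw [Finset.sum_eq_single (⟨0, by omega⟩ : Fin (r + m))]
        · rw [if_pos rfl]
        · intro i _ hi
          rw [if_neg]
          intro h
          exact hi (Fin.ext h)
        · intro h
          exact absurd (Finset.mem_univ _) h
      rw [h1, h4, h6]
      have := hsum k
      omega
  · rintro ⟨μ, k⟩ _ ⟨μ', k'⟩ _ h
    simp only at h
    have hk : ∀ j0 : ℕ, j0 ≤ m → ∑ j : Fin m, (if j0 ≤ (j : ℕ) then (k j : ℕ) else 0) =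
        ∑ j : Fin m, (if j0 ≤ (j : ℕ) then (k' j : ℕ) else 0) := by
      intro j0 hj0
      rcases Nat.lt_or_ge j0 m with hlt | hge
      · have h1 := congrFun h ⟨r + j0, by omega⟩
        simp only [up] at h1
        rw [dif_neg (by omega), dif_neg (by omega), if_neg (by omega), if_neg (by omega)] at h1
        simp only [zero_add, add_zero, Nat.add_le_add_iff_left] at h1
        exact h1
      · rw [Finset.sum_eq_zero, Finset.sum_eq_zero]
        · intro j _
          rw [if_neg (by have := j.2; omega)]
        · intro j _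
          rw [if_neg (by have := j.2; omega)]
    have hkk : k = k' := by
      funext j0
      have h1 := hk j0 (by have := j0.2; omega)
      have h2 := hk (j0 + 1) (by have := j0.2; omega)
      have h3 : ∀ f : Fin m → Fin (M + 1), ∑ j : Fin m, (if (j0 : ℕ) ≤ (j : ℕ) then (f j : ℕ)
          else 0) = (f j0 : ℕ) + ∑ j : Fin m, (if (j0 : ℕ) + 1 ≤ (j : ℕ) then (f j : ℕ) else 0) := by
        intro f
        have h4 : (f j0 : ℕ) = ∑ j : Fin m, (if j = j0 then (f j : ℕ) else 0) := by
          rw [Finset.sum_ite_eq' univ j0 (fun j => (f j : ℕ)), if_pos (Finset.mem_univ _)]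
        rw [h4, ← Finset.sum_add_distrib]
        apply Finset.sum_congr rfl
        intro j _
        by_cases h5 : j = j0
        · subst h5
          rw [if_pos le_rfl, if_pos rfl, if_neg (by omega), add_zero]
        · have h6 : (j : ℕ) ≠ j0 := fun h => h5 (Fin.ext h)
          rw [if_neg h5, zero_add]
          by_cases h7 : (j0 : ℕ) ≤ j
          · rw [if_pos h7, if_pos (by omega)]
          · rw [if_neg h7, if_neg (by omega)]
      rw [h3 k, h3 k'] at h1
      apply Fin.ext
      omega
    subst hkk
    have hμ : μ = μ' := by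
      funext i
      have h1 := congrFun h ⟨i, by have := i.2; omega⟩
      simp only [up] at h1
      rw [dif_pos i.2, dif_pos i.2] at h1
      have h2 : μ ⟨(i : ℕ), i.2⟩ = μ i := rfl
      have h3 : μ' ⟨(i : ℕ), i.2⟩ = μ' i := rfl
      rw [h2, h3] at h1
      omega
    rw [hμ]

/-- Few columns of the long lengths. -/
theorem few {r m z N : ℕ} (hr : 1 ≤ r) (hm : 1 ≤ m) :
    ((Lam (r + m) N).filter (fun l => l (Fin.natAdd r ⟨0, hm⟩) < z)).card ≤
      (z + m).choose m * (Lam r N).card := by
  classical
  let g : (Fin (r + m) → ℕ) → Fin m → ℕ := fun l j => l (Fin.natAdd r (Fin.rev j)) + j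
  let h : (Fin (r + m) → ℕ) → Fin r → ℕ := fun l i => l (Fin.castAdd m i) +
    if (i : ℕ) = 0 then ∑ j : Fin m, l (Fin.natAdd r j) else 0
  have hcard : (z + m).choose m * (Lam r N).card =
      ((powersetCard m (range (z + m))) ×ˢ (Lam r N)).card := by
    rw [Finset.card_product, Finset.card_powersetCard, Finset.card_range]
  rw [hcard]
  have hmono : ∀ l : Fin (r + m) → ℕ, Antitone l → StrictMono (g l) := by
    intro l hl j j' hjj
    simp only [g]
    have h1 : l (Fin.natAdd r (Fin.rev j)) ≤ l (Fin.natAdd r (Fin.rev j')) := by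
      apply hl
      rw [Fin.le_def, Fin.val_natAdd, Fin.val_natAdd, Fin.val_rev, Fin.val_rev]
      have : (j : ℕ) < j' := hjj
      omega
    have h2 : (j : ℕ) < j' := hjj
    omega
  apply Finset.card_le_card_of_injOn (fun l => (univ.image (g l), h l))
  · intro l hl
    rw [Finset.mem_coe, Finset.mem_filter, mem_Lam] at hl
    obtain ⟨⟨h1, h2⟩, h3⟩ := hl
    rw [Finset.mem_coe, Finset.mem_product, Finset.mem_powersetCard, mem_Lam]
    refine ⟨⟨?_, ?_⟩, ?_, ?_⟩
    · intro y hy
      obtain ⟨j, _, rfl⟩ := Finset.mem_image.1 hy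
      rw [Finset.mem_range]
      simp only [g]
      have h4 : l (Fin.natAdd r (Fin.rev j)) ≤ l (Fin.natAdd r ⟨0, hm⟩) := by
        apply h1
        rw [Fin.le_def, Fin.val_natAdd, Fin.val_natAdd]
        simp
      have h5 := j.2
      omega
    · rw [Finset.card_image_of_injective _ (hmono l h1).injective, Finset.card_univ,
        Fintype.card_fin]
    · intro i i' hii
      have h0 : (i : ℕ) ≤ i' := hii
      simp only [h]
      have h4 : l (Fin.castAdd m i') ≤ l (Fin.castAdd m i) := h1 (by
        rw [Fin.le_def, Fin.val_castAdd, Fin.val_castAdd]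
        exact h0)
      have h5 : (if (i' : ℕ) = 0 then ∑ j : Fin m, l (Fin.natAdd r j) else 0) ≤
          if (i : ℕ) = 0 then ∑ j : Fin m, l (Fin.natAdd r j) else 0 := by
        by_cases h6 : (i' : ℕ) = 0
        · rw [if_pos h6, if_pos (by omega)]
        · rw [if_neg h6]
          exact Nat.zero_le _
      exact Nat.add_le_add h4 h5
    · simp only [h]
      rw [Finset.sum_add_distrib]
      have h6 : ∑ i : Fin r, (if (i : ℕ) = 0 then ∑ j : Fin m, l (Fin.natAdd r j) else 0) =
          ∑ j : Fin m, l (Fin.natAdd r j) := by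
        rw [Finset.sum_eq_single (⟨0, by omega⟩ : Fin r)]
        · rw [if_pos rfl]
        · intro i _ hi
          rw [if_neg]
          intro h7
          exact hi (Fin.ext h7)
        · intro h7
          exact absurd (Finset.mem_univ _) h7
      rw [h6, ← Fin.sum_univ_add]
      exact h2
  · intro l hl l' hl' hll
    rw [Finset.mem_coe, Finset.mem_filter, mem_Lam] at hl hl'
    have h1 : univ.image (g l) = univ.image (g l') := congrArg Prod.fst hll
    have h2 : h l = h l' := congrArg Prod.snd hll
    have h3 : g l = g l' := by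
      rw [← StrictMono.range_inj (hmono l hl.1.1) (hmono l' hl'.1.1)]
      have h4 := congrArg (fun s : Finset ℕ => (s : Set ℕ)) h1
      simp only [Finset.coe_image, Finset.coe_univ, Set.image_univ] at h4
      exact h4
    have h5 : ∀ j : Fin m, l (Fin.natAdd r j) = l' (Fin.natAdd r j) := by
      intro j
      have h6 := congrFun h3 (Fin.rev j)
      simp only [g, Fin.rev_rev] at h6
      omega
    have h7 : ∀ i : Fin r, l (Fin.castAdd m i) = l' (Fin.castAdd m i) := by
      intro i
      have h8 := congrFun h2 i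
      simp only [h] at h8
      rw [Finset.sum_congr rfl (fun j _ => h5 j)] at h8
      omega
    funext i
    refine Fin.addCases h7 h5 i

end Vale.Agent.P181.H179.TL
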