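import Vale.Agent.P181.GP.Final

/-!
P181: `b = q a` with `1 ≤ q ≤ a^(1/6)`, uniformly: almost all partitions.
-/

set_option autoImplicit false

namespace Vale.Agent.P181.H179.UniB

open Filter Real Vale.Agent.P181 Vale.Agent.P181.H280 Vale.Agent.P181.H179

theorem ev_log : ∀ᶠ a : ℕ in atTop, (2 : ℝ) ≤ Real.log a :=
  (tendsto_log_atTop.comp tendsto_natCast_atTop_atTop).eventually_ge_atTop 2

theorem ev_pow : ∀ᶠ a : ℕ in atTop,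
    (14000 : ℝ) * (21 * Real.log a) ^ 14 * Real.log a ≤ (a : ℝ) ^ ((1 : ℝ) / 6) := by
  have h := (isLittleO_log_rpow_rpow_atTop (15 : ℝ) (show (0 : ℝ) < 1 / 6 by norm_num))
  have h2 := h.def (show (0 : ℝ) < 1 / ((14000 : ℝ) * 21 ^ 14) by positivity)
  have h3 := tendsto_natCast_atTop_atTop (R := ℝ) |>.eventually h2
  filter_upwards [h3, ev_log] with a ha hl
  have hl0 : 0 ≤ Real.log a := by linarith
  rw [Real.norm_of_nonneg (Real.rpow_nonneg hl0 _),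
    Real.norm_of_nonneg (Real.rpow_nonneg (Nat.cast_nonneg _) _)] at ha
  have e : Real.log (a : ℝ) ^ (15 : ℝ) = Real.log a ^ 15 := by
    rw [← Real.rpow_natCast]; norm_num
  rw [e] at ha
  have hc : (0 : ℝ) < (14000 : ℝ) * 21 ^ 14 := by positivity
  have h5 : (14000 : ℝ) * (21 * Real.log a) ^ 14 * Real.log a
      = ((14000 : ℝ) * 21 ^ 14) * Real.log a ^ 15 := by ring
  rw [h5]
  calc ((14000 : ℝ) * 21 ^ 14) * Real.log a ^ 15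
      ≤ ((14000 : ℝ) * 21 ^ 14) * (1 / ((14000 : ℝ) * 21 ^ 14) * (a : ℝ) ^ ((1 : ℝ) / 6)) :=
        mul_le_mul_of_nonneg_left ha hc.le
    _ = (a : ℝ) ^ ((1 : ℝ) / 6) := by field_simp

theorem ev_36 : ∀ᶠ a : ℕ in atTop, (36 : ℝ) ≤ (a : ℝ) ^ ((7 : ℝ) / 30) :=
  ((tendsto_rpow_atTop (show (0 : ℝ) < 7 / 30 by norm_num)).comp
    tendsto_natCast_atTop_atTop).eventually_ge_atTop 36

theorem num : ∀ᶠ a : ℕ in atTop, ∀ q : ℕ, (q : ℝ) ≤ (a : ℝ) ^ ((1 : ℝ) / 6) →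
    ∃ s : ℕ, 1 ≤ s ∧ 14000 * (s : ℝ) ^ 14 * (q : ℝ) ^ 5 * Real.log a ≤ a ∧
    a * (a * (q * a) + 1) ≤ 2 ^ (s / 4) := by
  filter_upwards [ev_log, ev_pow, ev_36, eventually_ge_atTop 1] with a hl hp h36 ha1 q hq
  set L := Real.log (a : ℝ) with hL
  have ha0 : (0 : ℝ) < a := by exact_mod_cast ha1
  have hL0 : 0 < L := by linarith
  refine ⟨⌈20 * L⌉₊, ?_, ?_, ?_⟩
  · exact Nat.one_le_iff_ne_zero.2 (Nat.ceil_pos.2 (by linarith)).ne'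
  · have hs : (⌈20 * L⌉₊ : ℝ) ≤ 21 * L := by
      have := Nat.ceil_lt_add_one (a := 20 * L) (by linarith)
      linarith
    have hq5 : (q : ℝ) ^ 5 ≤ (a : ℝ) ^ ((5 : ℝ) / 6) := by
      calc (q : ℝ) ^ 5 ≤ ((a : ℝ) ^ ((1 : ℝ) / 6)) ^ 5 := by gcongr
        _ = (a : ℝ) ^ ((5 : ℝ) / 6) := by
          rw [← Real.rpow_natCast, ← Real.rpow_mul ha0.le]; norm_num
    calc 14000 * (⌈20 * L⌉₊ : ℝ) ^ 14 * (q : ℝ) ^ 5 * L
        ≤ 14000 * (21 * L) ^ 14 * (a : ℝ) ^ ((5 : ℝ) / 6) * L := by gcongr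
      _ = (14000 * (21 * L) ^ 14 * L) * (a : ℝ) ^ ((5 : ℝ) / 6) := by ring
      _ ≤ (a : ℝ) ^ ((1 : ℝ) / 6) * (a : ℝ) ^ ((5 : ℝ) / 6) := by gcongr
      _ = a := by rw [← Real.rpow_add ha0]; norm_num
  · set s := ⌈20 * L⌉₊ with hs
    have h1 : 20 * L ≤ s := Nat.le_ceil _
    have h2 : (s : ℝ) / 4 - 1 ≤ ((s / 4 : ℕ) : ℝ) := by
      have h3 : s < 4 * (s / 4) + 4 := by omega
      have h4 : (s : ℝ) < 4 * ((s / 4 : ℕ) : ℝ) + 4 := by exact_mod_cast h3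
      linarith
    have h5 : 5 * L - 1 ≤ ((s / 4 : ℕ) : ℝ) := by linarith
    have h6 : (a : ℝ) ^ ((17 : ℝ) / 5) / 2 ≤ (2 : ℝ) ^ ((s / 4 : ℕ)) := by
      have h7 : (2 : ℝ) ^ ((s / 4 : ℕ)) = (2 : ℝ) ^ (((s / 4 : ℕ)) : ℝ) :=
        (Real.rpow_natCast _ _).symm
      rw [h7]
      have h8 : (2 : ℝ) ^ (5 * L - 1) ≤ (2 : ℝ) ^ (((s / 4 : ℕ)) : ℝ) :=
        Real.rpow_le_rpow_of_exponent_le (by norm_num) h5
      refine le_trans ?_ h8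
      rw [Real.rpow_sub (by norm_num), Real.rpow_one]
      have h9 : (a : ℝ) ^ ((17 : ℝ) / 5) ≤ (2 : ℝ) ^ (5 * L) := by
        rw [Real.rpow_def_of_pos ha0, Real.rpow_def_of_pos (by norm_num : (0 : ℝ) < 2)]
        apply Real.exp_le_exp.2
        have := Real.log_two_gt_d9
        rw [← hL]
        nlinarith
      linarith
    have h10 : (a : ℝ) * (a * (q * a) + 1) ≤ 18 * (a : ℝ) ^ ((19 : ℝ) / 6) := by
      have h11 : (a : ℝ) * (a * (q * a)) ≤ (a : ℝ) ^ ((19 : ℝ) / 6) := by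
        calc (a : ℝ) * (a * (q * a)) ≤ (a : ℝ) * (a * ((a : ℝ) ^ ((1 : ℝ) / 6) * a)) := by gcongr
          _ = (a : ℝ) ^ ((19 : ℝ) / 6) := by
            rw [show ((19 : ℝ) / 6) = 1 + (1 + (1 / 6 + 1)) by norm_num, Real.rpow_add ha0,
              Real.rpow_add ha0, Real.rpow_add ha0, Real.rpow_one]
      have h12 : (a : ℝ) ≤ (a : ℝ) ^ ((19 : ℝ) / 6) := by
        calc (a : ℝ) = (a : ℝ) ^ (1 : ℝ) := (Real.rpow_one _).symm
          _ ≤ (a : ℝ) ^ ((19 : ℝ) / 6) :=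
            Real.rpow_le_rpow_of_exponent_le (by exact_mod_cast ha1) (by norm_num)
      nlinarith
    have h13 : 18 * (a : ℝ) ^ ((19 : ℝ) / 6) ≤ (a : ℝ) ^ ((17 : ℝ) / 5) / 2 := by
      have h14 : (a : ℝ) ^ ((17 : ℝ) / 5) = (a : ℝ) ^ ((7 : ℝ) / 30) * (a : ℝ) ^ ((19 : ℝ) / 6) := by
        rw [← Real.rpow_add ha0]; norm_num
      rw [h14]
      have h15 : (0 : ℝ) ≤ (a : ℝ) ^ ((19 : ℝ) / 6) := Real.rpow_nonneg ha0.le _
      nlinarith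
    have h16 : (a : ℝ) * (a * (q * a) + 1) ≤ (2 : ℝ) ^ ((s / 4 : ℕ)) :=
      le_trans h10 (le_trans h13 h6)
    exact_mod_cast h16

/-- **Almost all partitions, all multiples `b = q a` with `q ≤ a^(1/6)`.** -/
theorem uniB : ∀ᶠ a : ℕ in atTop, ∀ q : ℕ, 1 ≤ q → (q : ℝ) ≤ (a : ℝ) ^ ((1 : ℝ) / 6) →
    ∃ Ψ : Pleth a (q * a) a →ₗ[ℂ] Pleth (q * a) a a, IsEquivariant Ψ ∧
      a * {lam : Fin a → ℕ | Antitone lam ∧ ∑ i, lam i = a * (q * a) ∧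
        ¬ (InjOnHW Ψ lam ∧
          plethMult a (q * a) a lam ≤ plethMult (q * a) a a lam)}.ncard ≤
      {lam : Fin a → ℕ | Antitone lam ∧ ∑ i, lam i = a * (q * a)}.ncard := by
  filter_upwards [num, eventually_ge_atTop 3] with a ha ha3 q hq hqa
  obtain ⟨s, hs, hlog, hw⟩ := ha q hqa
  have h := GP.almost_count GP.gpm hs hq ha3 hlog
  refine ⟨powMap a q (Fin a → ℂ),
    fun g x => LinearMap.congr_fun (powMap_equivariant a q (Matrix.toLin' g)) x, ?_⟩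
  obtain ⟨B, hB⟩ : ∃ B, B = {lam : Fin a → ℕ | Antitone lam ∧ ∑ i, lam i = a * (q * a) ∧
      ¬ (InjOnHW (powMap a q (Fin a → ℂ)) lam ∧
        plethMult a (q * a) a lam ≤ plethMult (q * a) a a lam)}.ncard := ⟨_, rfl⟩
  obtain ⟨A, hA⟩ : ∃ A, A = {lam : Fin a → ℕ | Antitone lam ∧ ∑ i, lam i = a * (q * a)}.ncard :=
    ⟨_, rfl⟩
  rw [← hB, ← hA] at h
  rw [← hB, ← hA]
  have h2 : (a * (q * a) + 1) * (a * B) ≤ (a * (q * a) + 1) * A := by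
    calc (a * (q * a) + 1) * (a * B) = B * (a * (a * (q * a) + 1)) := by ring
      _ ≤ B * 2 ^ (s / 4) := Nat.mul_le_mul_left _ hw
      _ ≤ (a * (q * a) + 1) * A := h
  exact Nat.le_of_mul_le_mul_left h2 (by omega)

end Vale.Agent.P181.H179.UniB
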